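import Vale.Agent.Lib.P202.Lech.Defs

/-!
# Asymptotics: from difference inequalities to bounds on `limsup` and `liminf`
-/

namespace Vale.Agent.Lib.P202.Lech

open Filter
open scoped ENNReal Nat Topology

/-- Bernoulli-type inequality in the natural numbers. -/
theorem asymp_bernoulli (x d : ℕ) : x ^ (d + 1) + (d + 1) * x ^ d ≤ (x + 1) ^ (d + 1) := by
  induction d with
  | zero => simp
  | succ d ih =>
    have h1 : (x ^ (d + 1) + (d + 1) * x ^ d) * (x + 1) ≤ (x + 1) ^ (d + 1) * (x + 1) :=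
      Nat.mul_le_mul_right _ ih
    have h2 : (x ^ (d + 1) + (d + 1) * x ^ d) * (x + 1)
        = x ^ (d + 1 + 1) + (d + 1 + 1) * x ^ (d + 1) + (d + 1) * x ^ d := by ring
    calc x ^ (d + 1 + 1) + (d + 1 + 1) * x ^ (d + 1)
        ≤ (x ^ (d + 1) + (d + 1) * x ^ d) * (x + 1) := by
          rw [h2]
          exact Nat.le_add_right _ _
      _ ≤ (x + 1) ^ (d + 1) * (x + 1) := h1
      _ = (x + 1) ^ (d + 1 + 1) := by ring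

/-- The natural-number induction step behind `limsup_le_of_step`. -/
theorem asymp_nat_step (m e b N : ℕ) :
    e * (N + 1) ^ (m + 2) + (m + 2) * b * N ^ (m + 1)
        + (m + 2) * (e * (N + 1) ^ (m + 1) + b * (N + 1) ^ m)
      ≤ e * (N + 1 + 1) ^ (m + 2) + (m + 2) * b * (N + 1) ^ (m + 1) := by
  have B1 := asymp_bernoulli (N + 1) (m + 1)
  have B2 : N ^ (m + 1) + (N + 1) ^ m ≤ (N + 1) ^ (m + 1) := by
    have h1 : N ^ m ≤ (N + 1) ^ m := Nat.pow_le_pow_left (Nat.le_succ N) m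
    calc N ^ (m + 1) + (N + 1) ^ m = N ^ m * N + (N + 1) ^ m := by ring
      _ ≤ (N + 1) ^ m * N + (N + 1) ^ m :=
          Nat.add_le_add_right (Nat.mul_le_mul_right N h1) _
      _ = (N + 1) ^ (m + 1) := by ring
  calc e * (N + 1) ^ (m + 2) + (m + 2) * b * N ^ (m + 1)
        + (m + 2) * (e * (N + 1) ^ (m + 1) + b * (N + 1) ^ m)
      = e * ((N + 1) ^ (m + 1 + 1) + (m + 1 + 1) * (N + 1) ^ (m + 1))
        + (m + 2) * b * (N ^ (m + 1) + (N + 1) ^ m) := by ring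
    _ ≤ e * (N + 1 + 1) ^ (m + 1 + 1) + (m + 2) * b * (N + 1) ^ (m + 1) :=
        Nat.add_le_add (Nat.mul_le_mul_left e B1) (Nat.mul_le_mul_left _ B2)

/-- If `h 0 = 0` and `h (N+1) ≤ h N + e (N+1)^(d-1) + b (N+1)^(d-2)` for all `N`, then
`limsup d! h(N) / N^d ≤ (d-1)! e`. -/
theorem limsup_le_of_step (d e b : ℕ) (hd : 2 ≤ d) (h : ℕ → ℕ∞) (h0 : h 0 = 0)
    (hstep : ∀ N, h (N + 1) ≤
      h N + ((e * (N + 1) ^ (d - 1) + b * (N + 1) ^ (d - 2) : ℕ) : ℕ∞)) :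
    limsup (fun N : ℕ => (d ! : ℝ≥0∞) * (h N).toENNReal / (N : ℝ≥0∞) ^ d) atTop ≤
      (((d - 1) ! * e : ℕ) : ℝ≥0∞) := by
  obtain ⟨m, rfl⟩ : ∃ m, d = m + 2 := ⟨d - 2, by omega⟩
  have hd1 : m + 2 - 1 = m + 1 := rfl
  have hd2 : m + 2 - 2 = m := rfl
  rw [hd1]
  simp only [hd1, hd2] at hstep
  have key : ∀ N, ((m + 2 : ℕ) : ℕ∞) * h N
      ≤ ((e * (N + 1) ^ (m + 2) + (m + 2) * b * N ^ (m + 1) : ℕ) : ℕ∞) := by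
    intro N
    induction N with
    | zero => simp [h0]
    | succ N ih =>
      calc ((m + 2 : ℕ) : ℕ∞) * h (N + 1)
          ≤ ((m + 2 : ℕ) : ℕ∞) *
              (h N + ((e * (N + 1) ^ (m + 1) + b * (N + 1) ^ m : ℕ) : ℕ∞)) :=
            mul_le_mul_right (hstep N) _
        _ = ((m + 2 : ℕ) : ℕ∞) * h N
              + (((m + 2) * (e * (N + 1) ^ (m + 1) + b * (N + 1) ^ m) : ℕ) : ℕ∞) := by
            rw [mul_add, Nat.cast_mul (m + 2)]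
        _ ≤ ((e * (N + 1) ^ (m + 2) + (m + 2) * b * N ^ (m + 1) : ℕ) : ℕ∞)
              + (((m + 2) * (e * (N + 1) ^ (m + 1) + b * (N + 1) ^ m) : ℕ) : ℕ∞) :=
            add_le_add_left ih _
        _ ≤ ((e * (N + 1 + 1) ^ (m + 2) + (m + 2) * b * (N + 1) ^ (m + 1) : ℕ) : ℕ∞) := by
            rw [← Nat.cast_add]
            exact Nat.cast_le.mpr (asymp_nat_step m e b N)
  have hC1t : (((m + 1)! * e : ℕ) : ℝ≥0∞) ≠ ⊤ := ENNReal.natCast_ne_top _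
  have hC2t : (((m + 2)! * b : ℕ) : ℝ≥0∞) ≠ ⊤ := ENNReal.natCast_ne_top _
  have hle : ∀ᶠ N : ℕ in atTop,
      ((m + 2)! : ℝ≥0∞) * (h N).toENNReal / (N : ℝ≥0∞) ^ (m + 2)
        ≤ (((m + 1)! * e : ℕ) : ℝ≥0∞) * (1 + (N : ℝ≥0∞)⁻¹) ^ (m + 2)
          + (((m + 2)! * b : ℕ) : ℝ≥0∞) * (N : ℝ≥0∞)⁻¹ := by
    filter_upwards [eventually_ge_atTop 1] with N hN
    have hN0 : (N : ℝ≥0∞) ≠ 0 := by
      have : N ≠ 0 := by omega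
      exact_mod_cast this
    have hNt : (N : ℝ≥0∞) ≠ ⊤ := ENNReal.natCast_ne_top N
    have hu : (N : ℝ≥0∞)⁻¹ * (N : ℝ≥0∞) = 1 := ENNReal.inv_mul_cancel hN0 hNt
    rw [ENNReal.div_le_iff_le_mul (Or.inl (pow_ne_zero _ hN0)) (Or.inl (ENNReal.pow_ne_top hNt))]
    have hk := ENat.toENNReal_le.mpr (key N)
    rw [ENat.toENNReal_mul, ENat.toENNReal_coe, ENat.toENNReal_coe] at hk
    have hfac : ((m + 2)! : ℝ≥0∞) = ((m + 1)! : ℝ≥0∞) * ((m + 2 : ℕ) : ℝ≥0∞) := by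
      rw [Nat.factorial_succ (m + 1)]
      push_cast
      ring
    have e1 : (1 + (N : ℝ≥0∞)⁻¹) ^ (m + 2) * (N : ℝ≥0∞) ^ (m + 2)
        = ((N : ℝ≥0∞) + 1) ^ (m + 2) := by
      rw [← mul_pow, add_mul, one_mul, hu]
    have e2 : (N : ℝ≥0∞)⁻¹ * (N : ℝ≥0∞) ^ (m + 2) = (N : ℝ≥0∞) ^ (m + 1) := by
      rw [pow_succ (N : ℝ≥0∞) (m + 1), mul_left_comm, hu, mul_one]
    have hR : ((((m + 1)! * e : ℕ) : ℝ≥0∞) * (1 + (N : ℝ≥0∞)⁻¹) ^ (m + 2)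
          + (((m + 2)! * b : ℕ) : ℝ≥0∞) * (N : ℝ≥0∞)⁻¹) * (N : ℝ≥0∞) ^ (m + 2)
        = (((m + 1)! * e : ℕ) : ℝ≥0∞) * ((N : ℝ≥0∞) + 1) ^ (m + 2)
          + (((m + 2)! * b : ℕ) : ℝ≥0∞) * (N : ℝ≥0∞) ^ (m + 1) := by
      rw [← e1, ← e2]
      ring
    calc ((m + 2)! : ℝ≥0∞) * (h N).toENNReal
        = ((m + 1)! : ℝ≥0∞) * (((m + 2 : ℕ) : ℝ≥0∞) * (h N).toENNReal) := by
          rw [hfac, mul_assoc]
      _ ≤ ((m + 1)! : ℝ≥0∞) *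
            ((e * (N + 1) ^ (m + 2) + (m + 2) * b * N ^ (m + 1) : ℕ) : ℝ≥0∞) :=
          mul_le_mul_right hk _
      _ = ((((m + 1)! * e : ℕ) : ℝ≥0∞) * (1 + (N : ℝ≥0∞)⁻¹) ^ (m + 2)
            + (((m + 2)! * b : ℕ) : ℝ≥0∞) * (N : ℝ≥0∞)⁻¹) * (N : ℝ≥0∞) ^ (m + 2) := by
          rw [hR, Nat.factorial_succ (m + 1)]
          push_cast
          ring
  have htend : Tendsto (fun N : ℕ =>
      (((m + 1)! * e : ℕ) : ℝ≥0∞) * (1 + (N : ℝ≥0∞)⁻¹) ^ (m + 2)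
        + (((m + 2)! * b : ℕ) : ℝ≥0∞) * (N : ℝ≥0∞)⁻¹) atTop
      (𝓝 (((m + 1)! * e : ℕ) : ℝ≥0∞)) := by
    have hu0 := ENNReal.tendsto_inv_nat_nhds_zero
    have h1 : Tendsto (fun N : ℕ => (1 : ℝ≥0∞) + (N : ℝ≥0∞)⁻¹) atTop (𝓝 (1 + 0)) :=
      tendsto_const_nhds.add hu0
    have h2 := ENNReal.Tendsto.pow (n := m + 2) h1
    have h3 := ENNReal.Tendsto.const_mul (a := (((m + 1)! * e : ℕ) : ℝ≥0∞)) h2 (Or.inr hC1t)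
    have h4 := ENNReal.Tendsto.const_mul (a := (((m + 2)! * b : ℕ) : ℝ≥0∞)) hu0 (Or.inr hC2t)
    have h5 := h3.add h4
    simpa using h5
  calc limsup (fun N : ℕ => ((m + 2)! : ℝ≥0∞) * (h N).toENNReal / (N : ℝ≥0∞) ^ (m + 2)) atTop
      ≤ limsup (fun N : ℕ =>
          (((m + 1)! * e : ℕ) : ℝ≥0∞) * (1 + (N : ℝ≥0∞)⁻¹) ^ (m + 2)
            + (((m + 2)! * b : ℕ) : ℝ≥0∞) * (N : ℝ≥0∞)⁻¹) atTop := limsup_le_limsup hle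
    _ = (((m + 1)! * e : ℕ) : ℝ≥0∞) := htend.limsup_eq

/-- If `E N^d ≤ d! h(N) + K N^(d-1)` for all `N`, then `E ≤ liminf d! h(N) / N^d`. -/
theorem le_liminf_of_lower (d E K : ℕ) (hd : 1 ≤ d) (h : ℕ → ℕ∞)
    (hl : ∀ N, ((E * N ^ d : ℕ) : ℕ∞) ≤ (d ! : ℕ∞) * h N + ((K * N ^ (d - 1) : ℕ) : ℕ∞)) :
    (E : ℝ≥0∞) ≤
      liminf (fun N : ℕ => (d ! : ℝ≥0∞) * (h N).toENNReal / (N : ℝ≥0∞) ^ d) atTop := by
  obtain ⟨m, rfl⟩ : ∃ m, d = m + 1 := ⟨d - 1, by omega⟩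
  have hd1 : m + 1 - 1 = m := rfl
  simp only [hd1] at hl
  have hKt : (K : ℝ≥0∞) ≠ ⊤ := ENNReal.natCast_ne_top K
  have hEt : (E : ℝ≥0∞) ≠ ⊤ := ENNReal.natCast_ne_top E
  have hle : ∀ᶠ N : ℕ in atTop, (E : ℝ≥0∞) - (K : ℝ≥0∞) * (N : ℝ≥0∞)⁻¹
      ≤ ((m + 1)! : ℝ≥0∞) * (h N).toENNReal / (N : ℝ≥0∞) ^ (m + 1) := by
    filter_upwards [eventually_ge_atTop 1] with N hN
    have hN0 : (N : ℝ≥0∞) ≠ 0 := by
      have : N ≠ 0 := by omega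
      exact_mod_cast this
    have hNt : (N : ℝ≥0∞) ≠ ⊤ := ENNReal.natCast_ne_top N
    have hu : (N : ℝ≥0∞)⁻¹ * (N : ℝ≥0∞) = 1 := ENNReal.inv_mul_cancel hN0 hNt
    have hpow0 : (N : ℝ≥0∞) ^ (m + 1) ≠ 0 := pow_ne_zero _ hN0
    have hpowt : (N : ℝ≥0∞) ^ (m + 1) ≠ ⊤ := ENNReal.pow_ne_top hNt
    rw [tsub_le_iff_right]
    have hk := ENat.toENNReal_le.mpr (hl N)
    rw [ENat.toENNReal_add, ENat.toENNReal_mul, ENat.toENNReal_coe, ENat.toENNReal_coe,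
      ENat.toENNReal_coe] at hk
    have eA : ((m + 1)! : ℝ≥0∞) * (h N).toENNReal / (N : ℝ≥0∞) ^ (m + 1) * (N : ℝ≥0∞) ^ (m + 1)
        = ((m + 1)! : ℝ≥0∞) * (h N).toENNReal := ENNReal.div_mul_cancel hpow0 hpowt
    have eB : (K : ℝ≥0∞) * (N : ℝ≥0∞)⁻¹ * (N : ℝ≥0∞) ^ (m + 1) = (K : ℝ≥0∞) * (N : ℝ≥0∞) ^ m := by
      rw [mul_assoc, pow_succ (N : ℝ≥0∞) m, mul_left_comm ((N : ℝ≥0∞)⁻¹), hu, mul_one]
    have h2 : (E : ℝ≥0∞) * (N : ℝ≥0∞) ^ (m + 1)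
        ≤ (((m + 1)! : ℝ≥0∞) * (h N).toENNReal / (N : ℝ≥0∞) ^ (m + 1)
            + (K : ℝ≥0∞) * (N : ℝ≥0∞)⁻¹) * (N : ℝ≥0∞) ^ (m + 1) := by
      rw [add_mul, eA, eB]
      push_cast at hk
      exact hk
    exact (ENNReal.mul_le_mul_iff_left hpow0 hpowt).mp h2
  have htend : Tendsto (fun N : ℕ => (E : ℝ≥0∞) - (K : ℝ≥0∞) * (N : ℝ≥0∞)⁻¹) atTop
      (𝓝 (E : ℝ≥0∞)) := by
    have hu0 := ENNReal.tendsto_inv_nat_nhds_zero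
    have h4 := ENNReal.Tendsto.const_mul (a := (K : ℝ≥0∞)) hu0 (Or.inr hKt)
    have h5 := ENNReal.Tendsto.sub (tendsto_const_nhds (x := (E : ℝ≥0∞))) h4 (Or.inl hEt)
    simpa using h5
  calc (E : ℝ≥0∞) = liminf (fun N : ℕ => (E : ℝ≥0∞) - (K : ℝ≥0∞) * (N : ℝ≥0∞)⁻¹) atTop :=
        htend.liminf_eq.symm
    _ ≤ liminf (fun N : ℕ => ((m + 1)! : ℝ≥0∞) * (h N).toENNReal / (N : ℝ≥0∞) ^ (m + 1))
          atTop := liminf_le_liminf hle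

end Vale.Agent.Lib.P202.Lech
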