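import Vale.Agent.Lib.P202.Lech.Asymp

/-!
# Asymptotics: from a difference inequality with a summed right-hand side to a `limsup` bound
-/

namespace Vale.Agent.Lib.P202.Lech

open Filter
open scoped ENNReal Nat Topology

/-- Power sums are bounded by the next power, with an error term. -/
theorem asymp2_sum_pow (m M : ℕ) :
    (m + 2) * ∑ j ∈ Finset.range M, (j + 1) ^ (m + 1) ≤ M ^ (m + 2) + (m + 2) * M ^ (m + 1) := by
  induction M with
  | zero => simp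
  | succ M ih =>
    rw [Finset.sum_range_succ, mul_add]
    have B : M ^ (m + 2) + (m + 2) * M ^ (m + 1) ≤ (M + 1) ^ (m + 2) := asymp_bernoulli M (m + 1)
    calc (m + 2) * ∑ j ∈ Finset.range M, (j + 1) ^ (m + 1) + (m + 2) * (M + 1) ^ (m + 1)
        ≤ (M ^ (m + 2) + (m + 2) * M ^ (m + 1)) + (m + 2) * (M + 1) ^ (m + 1) :=
          Nat.add_le_add_right ih _
      _ ≤ (M + 1) ^ (m + 2) + (m + 2) * (M + 1) ^ (m + 1) := Nat.add_le_add_right B _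

/-- A crude bound for power sums. -/
theorem asymp2_sum_pow_le (m M : ℕ) :
    ∑ j ∈ Finset.range M, (j + 1) ^ m ≤ M ^ (m + 1) := by
  calc ∑ j ∈ Finset.range M, (j + 1) ^ m ≤ ∑ _j ∈ Finset.range M, M ^ m := by
        apply Finset.sum_le_sum
        intro j hj
        have hj' := Finset.mem_range.mp hj
        exact Nat.pow_le_pow_left (by omega) m
    _ = M ^ (m + 1) := by
        rw [Finset.sum_const, Finset.card_range, smul_eq_mul, pow_succ, mul_comm]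

/-- The natural-number estimate of the summed right-hand side. -/
theorem asymp2_nat_bound (m e b M : ℕ) :
    (m + 2) * ∑ j ∈ Finset.range M, (e * (j + 1) ^ (m + 1) + b * (j + 1) ^ m)
      ≤ e * M ^ (m + 2) + ((m + 2) * (e + b)) * M ^ (m + 1) := by
  rw [Finset.sum_add_distrib, ← Finset.mul_sum, ← Finset.mul_sum]
  have h1 := asymp2_sum_pow m M
  have h2 := asymp2_sum_pow_le m M
  calc (m + 2) * (e * ∑ j ∈ Finset.range M, (j + 1) ^ (m + 1)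
          + b * ∑ j ∈ Finset.range M, (j + 1) ^ m)
      = e * ((m + 2) * ∑ j ∈ Finset.range M, (j + 1) ^ (m + 1))
          + (m + 2) * b * ∑ j ∈ Finset.range M, (j + 1) ^ m := by ring
    _ ≤ e * (M ^ (m + 2) + (m + 2) * M ^ (m + 1)) + (m + 2) * b * M ^ (m + 1) :=
        Nat.add_le_add (Nat.mul_le_mul_left e h1) (Nat.mul_le_mul_left _ h2)
    _ = e * M ^ (m + 2) + ((m + 2) * (e + b)) * M ^ (m + 1) := by ring

/-- If `h 0 = 0`, `h (N+1) ≤ h N + ∑_{j = 1}^{N+1} X j` and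
`(d-2)! X j ≤ e j^(d-2) + b j^(d-3)` for all `j`, then `limsup d! h(N) / N^d ≤ e`. -/
theorem limsup_le_of_step_sum (d e b : ℕ) (hd : 3 ≤ d) (h X : ℕ → ℕ∞) (h0 : h 0 = 0)
    (hX : ∀ j, (((d - 2) ! : ℕ) : ℕ∞) * X j ≤
      ((e * j ^ (d - 2) + b * j ^ (d - 2 - 1) : ℕ) : ℕ∞))
    (hstep : ∀ N, h (N + 1) ≤ h N + ∑ j ∈ Finset.range (N + 1), X (j + 1)) :
    limsup (fun N : ℕ => (d ! : ℝ≥0∞) * (h N).toENNReal / (N : ℝ≥0∞) ^ d) atTop ≤
      (e : ℝ≥0∞) := by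
  obtain ⟨m, rfl⟩ : ∃ m, d = m + 3 := ⟨d - 3, by omega⟩
  have hd1 : m + 3 - 2 = m + 1 := rfl
  have hd2 : m + 1 - 1 = m := rfl
  have hd3 : m + 3 - 1 = m + 2 := rfl
  simp only [hd1, hd2] at hX
  have hfac : (((m + 2)! : ℕ) : ℕ∞) = ((m + 2 : ℕ) : ℕ∞) * (((m + 1)! : ℕ) : ℕ∞) := by
    rw [← Nat.cast_mul, Nat.factorial_succ (m + 1)]
  have hstep' : ∀ N, (((m + 2)! : ℕ) : ℕ∞) * h (N + 1) ≤ (((m + 2)! : ℕ) : ℕ∞) * h N
      + ((e * (N + 1) ^ (m + 3 - 1) + ((m + 2) * (e + b)) * (N + 1) ^ (m + 3 - 2) : ℕ) : ℕ∞) := by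
    intro N
    rw [hd1, hd3]
    have hsum : (((m + 2)! : ℕ) : ℕ∞) * ∑ j ∈ Finset.range (N + 1), X (j + 1)
        ≤ ((e * (N + 1) ^ (m + 2) + ((m + 2) * (e + b)) * (N + 1) ^ (m + 1) : ℕ) : ℕ∞) := by
      calc (((m + 2)! : ℕ) : ℕ∞) * ∑ j ∈ Finset.range (N + 1), X (j + 1)
          = ((m + 2 : ℕ) : ℕ∞)
              * ∑ j ∈ Finset.range (N + 1), (((m + 1)! : ℕ) : ℕ∞) * X (j + 1) := by
            rw [hfac, mul_assoc, Finset.mul_sum]
        _ ≤ ((m + 2 : ℕ) : ℕ∞) * ∑ j ∈ Finset.range (N + 1),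
              ((e * (j + 1) ^ (m + 1) + b * (j + 1) ^ m : ℕ) : ℕ∞) :=
            mul_le_mul_right (Finset.sum_le_sum (fun j _ => hX (j + 1))) _
        _ = (((m + 2) * ∑ j ∈ Finset.range (N + 1),
              (e * (j + 1) ^ (m + 1) + b * (j + 1) ^ m) : ℕ) : ℕ∞) := by
            rw [Nat.cast_mul, Nat.cast_sum]
        _ ≤ ((e * (N + 1) ^ (m + 2) + ((m + 2) * (e + b)) * (N + 1) ^ (m + 1) : ℕ) : ℕ∞) :=
            Nat.cast_le.mpr (asymp2_nat_bound m e b (N + 1))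
    calc (((m + 2)! : ℕ) : ℕ∞) * h (N + 1)
        ≤ (((m + 2)! : ℕ) : ℕ∞) * (h N + ∑ j ∈ Finset.range (N + 1), X (j + 1)) :=
          mul_le_mul_right (hstep N) _
      _ = (((m + 2)! : ℕ) : ℕ∞) * h N
            + (((m + 2)! : ℕ) : ℕ∞) * ∑ j ∈ Finset.range (N + 1), X (j + 1) := mul_add _ _ _
      _ ≤ (((m + 2)! : ℕ) : ℕ∞) * h N
            + ((e * (N + 1) ^ (m + 2) + ((m + 2) * (e + b)) * (N + 1) ^ (m + 1) : ℕ) : ℕ∞) :=
          add_le_add_right hsum _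
  have H := limsup_le_of_step (m + 3) e ((m + 2) * (e + b)) (by omega)
    (fun N => (((m + 2)! : ℕ) : ℕ∞) * h N) (by simp [h0]) hstep'
  have hfun : (fun N : ℕ => ((m + 3)! : ℝ≥0∞)
        * ((((m + 2)! : ℕ) : ℕ∞) * h N).toENNReal / (N : ℝ≥0∞) ^ (m + 3))
      = fun N : ℕ => (((m + 2)! : ℕ) : ℝ≥0∞)
        * (((m + 3)! : ℝ≥0∞) * (h N).toENNReal / (N : ℝ≥0∞) ^ (m + 3)) := by
    funext N
    rw [ENat.toENNReal_mul, ENat.toENNReal_coe, mul_div_assoc, mul_div_assoc, mul_div_assoc,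
      mul_left_comm]
  rw [hfun, ENNReal.limsup_const_mul_of_ne_top (ENNReal.natCast_ne_top _), hd3, Nat.cast_mul] at H
  have hne : (((m + 2)! : ℕ) : ℝ≥0∞) ≠ 0 := by
    exact_mod_cast Nat.factorial_ne_zero (m + 2)
  exact (ENNReal.mul_le_mul_iff_right hne (ENNReal.natCast_ne_top _)).mp H

end Vale.Agent.Lib.P202.Lech
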