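import Vale.Agent.Lib.P202.Lech.Defs

/-!
# Passing to an infinite residue field

For a Noetherian local ring `(S, n)` the localization `S' = S[X]_{n S[X]}` is a Noetherian local
ring, flat over `S`, with maximal ideal `n S'` and infinite residue field.
-/

namespace Vale.Agent.Lib.P202.Lech

open IsLocalRing Polynomial

universe u

/-- For `i < j` the polynomial `X^j - X^i` does not lie in the extension of the maximal ideal
of a local ring to the polynomial ring: its coefficient of degree `j` is `1`. -/
theorem residue_X_pow_sub_notMem {S : Type u} [CommRing S] [IsLocalRing S] {i j : ℕ}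
    (hij : i < j) :
    (X ^ j - X ^ i : S[X]) ∉ (maximalIdeal S).map (Polynomial.C : S →+* S[X]) := by
  intro h
  rw [Ideal.mem_map_C_iff] at h
  have h1 := h j
  rw [coeff_sub, coeff_X_pow, coeff_X_pow, if_pos rfl, if_neg (Nat.ne_of_gt hij), sub_zero] at h1
  exact (IsLocalRing.notMem_maximalIdeal.mpr isUnit_one) h1

/-- Every Noetherian local ring has a flat local extension, Noetherian and local, with the
extended maximal ideal as maximal ideal and with infinite residue field. -/
theorem exists_infinite_residue_extension (S : Type u) [CommRing S] [IsLocalRing S]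
    [IsNoetherianRing S] :
    ∃ (S' : Type u) (_ : CommRing S') (_ : IsLocalRing S') (_ : IsNoetherianRing S')
      (_ : Algebra S S'), Module.Flat S S' ∧ IsLocalHom (algebraMap S S') ∧
        Infinite (ResidueField S') ∧
        (maximalIdeal S).map (algebraMap S S') = maximalIdeal S' := by
  classical
  obtain ⟨P, hP⟩ : ∃ P : Ideal S[X], P = (maximalIdeal S).map (Polynomial.C : S →+* S[X]) :=
    ⟨_, rfl⟩
  have hPprime : P.IsPrime := by rw [hP]; exact Ideal.isPrime_map_C_of_isPrime
  have hmax : (maximalIdeal S).map (algebraMap S (Localization.AtPrime P))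
      = maximalIdeal (Localization.AtPrime P) := by
    rw [IsScalarTower.algebraMap_eq S S[X] (Localization.AtPrime P), ← Ideal.map_map,
      Polynomial.algebraMap_eq, ← hP]
    exact Localization.AtPrime.map_eq_maximalIdeal
  refine ⟨Localization.AtPrime P, inferInstance, inferInstance,
    IsLocalization.isNoetherianRing P.primeCompl _ inferInstance, inferInstance, ?_, ?_, ?_, hmax⟩
  · have : Module.Flat S[X] (Localization.AtPrime P) := IsLocalization.flat _ P.primeCompl
    exact Module.Flat.trans S S[X] (Localization.AtPrime P)
  · refine ⟨fun a ha => ?_⟩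
    by_contra hna
    have h1 : a ∈ maximalIdeal S := (IsLocalRing.mem_maximalIdeal a).mpr hna
    have h2 : algebraMap S (Localization.AtPrime P) a ∈ maximalIdeal (Localization.AtPrime P) := by
      rw [← hmax]; exact Ideal.mem_map_of_mem _ h1
    exact ((IsLocalRing.mem_maximalIdeal _).mp h2) ha
  · refine Infinite.of_injective
      (fun i : ℕ => residue (Localization.AtPrime P)
        (algebraMap S[X] (Localization.AtPrime P) (X ^ i))) ?_
    have key : ∀ i j : ℕ, i < j →
        residue (Localization.AtPrime P) (algebraMap S[X] (Localization.AtPrime P) (X ^ i))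
          ≠ residue (Localization.AtPrime P)
            (algebraMap S[X] (Localization.AtPrime P) (X ^ j)) := by
      intro i j hij heq
      have h0 : residue (Localization.AtPrime P)
          (algebraMap S[X] (Localization.AtPrime P) (X ^ j - X ^ i)) = 0 := by
        rw [map_sub, map_sub, heq, sub_self]
      rw [residue_eq_zero_iff] at h0
      have hu : IsUnit (algebraMap S[X] (Localization.AtPrime P) (X ^ j - X ^ i)) := by
        rw [IsLocalization.AtPrime.isUnit_to_map_iff (Localization.AtPrime P) P]
        show (X ^ j - X ^ i : S[X]) ∉ P
        rw [hP]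
        exact residue_X_pow_sub_notMem hij
      exact ((IsLocalRing.mem_maximalIdeal _).mp h0) hu
    intro i j hij
    by_contra hne
    rcases lt_or_gt_of_ne hne with h | h
    · exact key i j h hij
    · exact key j i h hij.symm

end Vale.Agent.Lib.P202.Lech
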