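import Vale.Agent.Lib.P202.Lech.Main
import Vale.Agent.Lib.P202.Lech.Residue

/-!
# Lech's inequality with the factor `(d - 1)!`: arbitrary residue fields
-/

namespace Vale.Agent.Lib.P202.Lech

open IsLocalRing Filter
open scoped ENNReal Nat Topology

universe u v

variable {R : Type v} {S : Type u} [CommRing R] [CommRing S] [IsLocalRing R] [IsLocalRing S]
  [IsNoetherianRing R] [IsNoetherianRing S] [Algebra R S] [IsLocalHom (algebraMap R S)]
  [Module.Flat R S]

/-- The quotient of a local ring by its maximal ideal has length one. -/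
lemma length_quot_maximalIdeal (A : Type u) [CommRing A] [IsLocalRing A] :
    Module.length A (A ⧸ maximalIdeal A) = 1 := by
  rw [Module.length_eq_one_iff, isSimpleModule_iff_isCoatom, ← Ideal.isMaximal_def]
  infer_instance

/-- Lech's inequality with the factor `(d - 1)!`, for a flat local homomorphism of Noetherian
local rings with closed fibre of finite length. -/
theorem limsup_le_factorial_mul_liminf
    (hfib : Module.length S (S ⧸ (maximalIdeal R).map (algebraMap R S)) ≠ ⊤)
    (d : ℕ) (hd : 2 ≤ d) :
    limsup (fun N : ℕ => (d ! : ℝ≥0∞) *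
        (Module.length R (R ⧸ maximalIdeal R ^ N)).toENNReal / (N : ℝ≥0∞) ^ d) atTop ≤
      ((d - 1) ! : ℝ≥0∞) * liminf (fun N : ℕ => (d ! : ℝ≥0∞) *
        (Module.length S (S ⧸ maximalIdeal S ^ N)).toENNReal / (N : ℝ≥0∞) ^ d) atTop := by
  obtain ⟨S', _, _, _, _, hflat, hloc, hinf, hmax⟩ := exists_infinite_residue_extension S
  letI : Algebra R S' := ((algebraMap S S').comp (algebraMap R S)).toAlgebra
  have htower : IsScalarTower R S S' := IsScalarTower.of_algebraMap_eq (fun _ => rfl)
  have hflat' : Module.Flat R S' := Module.Flat.trans R S S'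
  have hloc' : IsLocalHom (algebraMap R S') := by
    have h : algebraMap R S' = (algebraMap S S').comp (algebraMap R S) := rfl
    rw [h]
    exact RingHom.isLocalHom_comp _ _
  have hone : Module.length S' (S' ⧸ (maximalIdeal S).map (algebraMap S S')) = 1 := by
    rw [hmax]
    exact length_quot_maximalIdeal S'
  have hlen : ∀ I : Ideal S, Module.length S' (S' ⧸ I.map (algebraMap S S')) =
      Module.length S (S ⧸ I) := by
    intro I
    rw [Vale.Agent.Lib.P202.length_quot_map, hone, mul_one]
  have hfib' : Module.length S' (S' ⧸ (maximalIdeal R).map (algebraMap R S')) ≠ ⊤ := by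
    have h : (maximalIdeal R).map (algebraMap R S') =
        ((maximalIdeal R).map (algebraMap R S)).map (algebraMap S S') := by
      rw [Ideal.map_map]
      rfl
    rw [h, hlen]
    exact hfib
  have hHS : ∀ N : ℕ, Module.length S' (S' ⧸ maximalIdeal S' ^ N) =
      Module.length S (S ⧸ maximalIdeal S ^ N) := by
    intro N
    rw [← hmax, ← Ideal.map_pow, hlen]
  have hmain := limsup_le_factorial_mul_liminf_of_infinite (R := R) (S := S') hfib' d hd
  simp only [hHS] at hmain
  exact hmain

end Vale.Agent.Lib.P202.Lech
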