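import Vale.Agent.Lib.P202.Lech.CMDefs
import Vale.Agent.Lib.P202.Lech.General

/-!
# The elementary Cohen-Macaulay condition under a flat local extension with trivial closed fibre
-/

namespace Vale.Agent.Lib.P202.Lech

open IsLocalRing

universe u

/-- A nonzerodivisor modulo `𝔠` acts injectively on the quotient by `𝔠`. -/
lemma cmBaseChange_isSMulRegular {A : Type u} [CommRing A] (𝔠 : Ideal A) (y : A)
    (h : RegMod 𝔠 y) : IsSMulRegular (A ⧸ 𝔠) y := by
  intro a b hab
  obtain ⟨a, rfl⟩ := Ideal.Quotient.mk_surjective a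
  obtain ⟨b, rfl⟩ := Ideal.Quotient.mk_surjective b
  have hab' : Ideal.Quotient.mk 𝔠 (y * a) = Ideal.Quotient.mk 𝔠 (y * b) := hab
  rw [Ideal.Quotient.eq] at hab' ⊢
  have h1 : y * (a - b) ∈ 𝔠 := by
    rw [mul_sub]
    exact hab'
  exact h _ h1

/-- An element acting injectively on the quotient by `𝔠` is a nonzerodivisor modulo `𝔠`. -/
lemma cmBaseChange_regMod_of {A : Type u} [CommRing A] (𝔠 : Ideal A) (y : A)
    (h : IsSMulRegular (A ⧸ 𝔠) y) : RegMod 𝔠 y := by
  intro s hs
  have h0 : Ideal.Quotient.mk 𝔠 (y * s) = 0 := Ideal.Quotient.eq_zero_iff_mem.mpr hs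
  have h1 : y • (Ideal.Quotient.mk 𝔠 s) = y • (0 : A ⧸ 𝔠) := by
    rw [smul_zero]
    exact h0
  have h2 := h h1
  exact Ideal.Quotient.eq_zero_iff_mem.mp h2

variable {S S' : Type u} [CommRing S] [CommRing S'] [IsLocalRing S] [IsLocalRing S']
  [Algebra S S'] [Module.Flat S S'] [IsLocalHom (algebraMap S S')]

/-- Flat base change of a nonzerodivisor modulo an ideal. -/
lemma regMod_map (𝔠 : Ideal S) (y : S) (h : RegMod 𝔠 y) :
    RegMod (𝔠.map (algebraMap S S')) (algebraMap S S' y) := by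
  have _hS : IsLocalRing S := inferInstance
  have _hS' : IsLocalRing S' := inferInstance
  have _hloc : IsLocalHom (algebraMap S S') := inferInstance
  have hle : 𝔠 ≤ LinearMap.ker
      ((Submodule.mkQ (𝔠.map (algebraMap S S'))).restrictScalars S ∘ₗ
        Algebra.linearMap S S') := by
    intro a ha
    rw [LinearMap.mem_ker]
    show Submodule.Quotient.mk (algebraMap S S' a) = 0
    rw [Submodule.Quotient.mk_eq_zero]
    exact Ideal.mem_map_of_mem _ ha
  obtain ⟨f, hf⟩ : ∃ f : S ⧸ 𝔠 →ₗ[S] S' ⧸ 𝔠.map (algebraMap S S'),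
      ∀ a : S, f (Ideal.Quotient.mk 𝔠 a) = Submodule.Quotient.mk (algebraMap S S' a) :=
    ⟨Submodule.liftQ 𝔠 _ hle, fun a => rfl⟩
  have hbc : IsBaseChange S' f := by
    refine IsBaseChange.of_equiv
      (Algebra.TensorProduct.quotIdealMapEquivTensorQuot S' 𝔠).symm.toLinearEquiv ?_
    intro x
    obtain ⟨a, rfl⟩ := Ideal.Quotient.mk_surjective x
    rw [hf]
    show (Algebra.TensorProduct.quotIdealMapEquivTensorQuot S' 𝔠).symm
      (TensorProduct.tmul S (1 : S') (Ideal.Quotient.mk 𝔠 a)) = _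
    rw [Algebra.TensorProduct.quotIdealMapEquivTensorQuot_symm_tmul, Algebra.smul_def, mul_one]
  have h1 := (cmBaseChange_isSMulRegular 𝔠 y h).of_flat_of_isBaseChange hbc
  exact cmBaseChange_regMod_of _ _ h1

/-- If `S → S'` is a flat local homomorphism with `n S' = n'`, then the elementary
Cohen-Macaulay condition for `S / 𝔠` passes to `S' / 𝔠 S'`. -/
theorem cmmod_map (hmax : (maximalIdeal S).map (algebraMap S S') = maximalIdeal S') (r : ℕ) :
    ∀ 𝔠 : Ideal S, CMmod r 𝔠 → CMmod r (𝔠.map (algebraMap S S')) := by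
  induction r with
  | zero =>
    intro 𝔠 h
    rw [cmmod_zero] at h ⊢
    rw [Vale.Agent.Lib.P202.length_quot_map, hmax, length_quot_maximalIdeal, mul_one]
    exact h
  | succ r ih =>
    intro 𝔠 h
    rw [cmmod_succ] at h ⊢
    obtain ⟨y, hy, hreg, hcm⟩ := h
    refine ⟨algebraMap S S' y, ?_, regMod_map 𝔠 y hreg, ?_⟩
    · rw [← hmax]
      exact Ideal.mem_map_of_mem _ hy
    · have h2 := ih _ hcm
      rw [Ideal.map_sup, Ideal.map_span, Set.image_singleton] at h2
      exact h2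

end Vale.Agent.Lib.P202.Lech
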