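import Vale.Agent.Lib.P202.Lech.Defs

/-!
# Regular elements modulo an ideal and an elementary Cohen-Macaulay condition
-/

namespace Vale.Agent.Lib.P202.Lech

open IsLocalRing

universe u

variable {A : Type u} [CommRing A]

/-- `y` is a nonzerodivisor modulo the ideal `𝔠`. -/
def RegMod (𝔠 : Ideal A) (y : A) : Prop := ∀ s : A, y * s ∈ 𝔠 → s ∈ 𝔠

/-- `A / 𝔠` is Cohen-Macaulay of dimension `r`, in elementary terms: there are `r` elements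
`y 1, …, y r` of the maximal ideal, each a nonzerodivisor modulo `𝔠` and the previous ones, such
that `A / (𝔠 + (y 1, …, y r))` has finite length. -/
def CMmod [IsLocalRing A] : ℕ → Ideal A → Prop
  | 0, 𝔠 => Module.length A (A ⧸ 𝔠) ≠ ⊤
  | r + 1, 𝔠 => ∃ y ∈ maximalIdeal A, RegMod 𝔠 y ∧ CMmod r (𝔠 ⊔ Ideal.span {y})

lemma cmmod_zero [IsLocalRing A] (𝔠 : Ideal A) :
    CMmod 0 𝔠 ↔ Module.length A (A ⧸ 𝔠) ≠ ⊤ := Iff.rfl

lemma cmmod_succ [IsLocalRing A] (r : ℕ) (𝔠 : Ideal A) :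
    CMmod (r + 1) 𝔠 ↔ ∃ y ∈ maximalIdeal A, RegMod 𝔠 y ∧ CMmod r (𝔠 ⊔ Ideal.span {y}) :=
  Iff.rfl

end Vale.Agent.Lib.P202.Lech
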