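import Vale.Agent.Lib.P202.ReductionFibre
import Vale.Agent.Lib.P202.Lech.CMDefs

/-!
# From a weakly regular sequence (Mathlib) to the elementary Cohen-Macaulay condition
-/

namespace Vale.Agent.Lib.P202.Lech

open IsLocalRing

universe u

variable {S : Type u} [CommRing S] [IsLocalRing S] [IsNoetherianRing S]

/-- Peeling the members of the sequence one at a time: for every set `T` of indices whose
complement has `n` elements, `S / (𝔟 + (rs i, i ∈ T))` satisfies the condition `CMmod n`. -/
theorem cmOfSeq_aux (𝔟 : Ideal S) (rs : List S)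
    (hmem : ∀ r ∈ rs, r ∈ maximalIdeal S)
    (hreg : RingTheory.Sequence.IsWeaklyRegular (S ⧸ 𝔟) rs)
    (hfin : Module.length S (S ⧸ (𝔟 ⊔ Ideal.ofList rs)) ≠ ⊤) :
    ∀ (n : ℕ) (T : Finset (Fin rs.length)), T.card + n = rs.length →
      CMmod n (𝔟 ⊔ Ideal.span (rs.get '' (T : Set (Fin rs.length)))) := by
  classical
  intro n
  induction n with
  | zero =>
    intro T hT
    rw [cmmod_zero]
    have hT' : T = Finset.univ := by
      apply Finset.eq_univ_of_card
      rw [Fintype.card_fin]
      omega
    rw [hT', Finset.coe_univ, Set.image_univ, Set.range_list_get]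
    exact hfin
  | succ n ih =>
    intro T hT
    have hne : T ≠ Finset.univ := by
      intro h
      rw [h, Finset.card_univ, Fintype.card_fin] at hT
      omega
    obtain ⟨k, hk⟩ : ∃ k, k ∉ T := by
      by_contra hcon
      push Not at hcon
      exact hne (Finset.eq_univ_iff_forall.mpr hcon)
    rw [cmmod_succ]
    refine ⟨rs.get k, hmem _ (List.get_mem rs k),
      fun s hs => regular_of_isWeaklyRegular 𝔟 rs hmem hreg T k hk s hs, ?_⟩
    have h1 : 𝔟 ⊔ Ideal.span (rs.get '' (T : Set (Fin rs.length))) ⊔ Ideal.span {rs.get k} =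
        𝔟 ⊔ Ideal.span (rs.get '' ((insert k T : Finset (Fin rs.length)) :
          Set (Fin rs.length))) := by
      rw [Finset.coe_insert, Set.image_insert_eq, Ideal.span_insert, sup_assoc,
        sup_comm (Ideal.span {rs.get k})]
    rw [h1]
    apply ih
    rw [Finset.card_insert_of_notMem hk]
    omega

/-- If `rs` is a sequence of elements of `n`, weakly regular on `S / 𝔟`, and
`S / (𝔟 + (rs))` has finite length, then `S / 𝔟` is Cohen-Macaulay of dimension `rs.length`
in the sense of `CMmod`. -/
theorem cmmod_of_isWeaklyRegular (𝔟 : Ideal S) (rs : List S)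
    (hmem : ∀ r ∈ rs, r ∈ maximalIdeal S)
    (hreg : RingTheory.Sequence.IsWeaklyRegular (S ⧸ 𝔟) rs)
    (hfin : Module.length S (S ⧸ (𝔟 ⊔ Ideal.ofList rs)) ≠ ⊤) :
    CMmod rs.length 𝔟 := by
  have h := cmOfSeq_aux 𝔟 rs hmem hreg hfin rs.length ∅ (by simp)
  rw [Finset.coe_empty, Set.image_empty, Ideal.span_empty, sup_bot_eq] at h
  exact h

end Vale.Agent.Lib.P202.Lech
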