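import Vale.Agent.Lib.P202.Lech.CMMain
import Vale.Agent.Lib.P202.Lech.CMBaseChange
import Vale.Agent.Lib.P202.Lech.CMofSeq
import Vale.Agent.Lib.P202.Lech.General

/-!
# Lech-type inequalities for Cohen-Macaulay closed fibres
-/

namespace Vale.Agent.Lib.P202.Lech

open IsLocalRing Filter
open scoped ENNReal Nat Topology

universe u v

variable {R : Type v} {S : Type u} [CommRing R] [CommRing S] [IsLocalRing R] [IsLocalRing S]
  [IsNoetherianRing R] [IsNoetherianRing S] [Algebra R S] [IsLocalHom (algebraMap R S)]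
  [Module.Flat R S]

/-- Lech-type inequalities for a flat local homomorphism whose closed fibre is Cohen-Macaulay of
dimension `r` (in the sense of `CMmod`): the factor `(d - 1)!` in general, and the factor `1`
when `n` is generated by `m S` and `r + 2` elements. -/
theorem limsup_le_of_cmmod (r : ℕ) (hcm : CMmod r ((maximalIdeal R).map (algebraMap R S)))
    (d : ℕ) (hd : 2 ≤ d) :
    limsup (fun N : ℕ => (d ! : ℝ≥0∞) *
        (Module.length R (R ⧸ maximalIdeal R ^ N)).toENNReal / (N : ℝ≥0∞) ^ d) atTop ≤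
      ((d - 1) ! : ℝ≥0∞) * liminf (fun N : ℕ => ((d + r) ! : ℝ≥0∞) *
        (Module.length S (S ⧸ maximalIdeal S ^ N)).toENNReal / (N : ℝ≥0∞) ^ (d + r)) atTop ∧
    ((∃ g : Fin (r + 2) → S, maximalIdeal S =
        (maximalIdeal R).map (algebraMap R S) ⊔ Ideal.span (Set.range g)) →
      limsup (fun N : ℕ => (d ! : ℝ≥0∞) *
          (Module.length R (R ⧸ maximalIdeal R ^ N)).toENNReal / (N : ℝ≥0∞) ^ d) atTop ≤
        liminf (fun N : ℕ => ((d + r) ! : ℝ≥0∞) *
          (Module.length S (S ⧸ maximalIdeal S ^ N)).toENNReal / (N : ℝ≥0∞) ^ (d + r)) atTop) := by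
  obtain ⟨S', _, _, _, _, hflat, hloc, hinf, hmax⟩ := exists_infinite_residue_extension S
  letI : Algebra R S' := ((algebraMap S S').comp (algebraMap R S)).toAlgebra
  have htower : IsScalarTower R S S' := IsScalarTower.of_algebraMap_eq (fun _ => rfl)
  have hflat' : Module.Flat R S' := Module.Flat.trans R S S'
  have hloc' : IsLocalHom (algebraMap R S') := by
    have h : algebraMap R S' = (algebraMap S S').comp (algebraMap R S) := rfl
    rw [h]
    exact RingHom.isLocalHom_comp _ _
  have hone : Module.length S' (S' ⧸ (maximalIdeal S).map (algebraMap S S')) = 1 := by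
    rw [hmax]
    exact length_quot_maximalIdeal S'
  have hlen : ∀ I : Ideal S, Module.length S' (S' ⧸ I.map (algebraMap S S')) =
      Module.length S (S ⧸ I) := by
    intro I
    rw [Vale.Agent.Lib.P202.length_quot_map, hone, mul_one]
  have hmap : (maximalIdeal R).map (algebraMap R S') =
      ((maximalIdeal R).map (algebraMap R S)).map (algebraMap S S') := by
    rw [Ideal.map_map]
    rfl
  have hHS : ∀ N : ℕ, Module.length S' (S' ⧸ maximalIdeal S' ^ N) =
      Module.length S (S ⧸ maximalIdeal S ^ N) := by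
    intro N
    rw [← hmax, ← Ideal.map_pow, hlen]
  have hcm' : CMmod r ((maximalIdeal R).map (algebraMap R S')) := by
    rw [hmap]
    exact cmmod_map hmax r _ hcm
  obtain ⟨c1, c2⟩ := concl_cm (R := R) d hd r S' hcm'
  constructor
  · have h := limsup_le_of_concl d (d + r) (d - 1)! (by omega) (Nat.factorial_pos _).ne' c1
    simp only [hHS] at h
    exact h
  · rintro ⟨g, hg⟩
    have hg' : maximalIdeal S' = (maximalIdeal R).map (algebraMap R S') ⊔
        Ideal.span (Set.range (fun i => algebraMap S S' (g i))) := by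
      rw [← hmax, hmap]
      conv_lhs => rw [hg]
      rw [Ideal.map_sup, Ideal.map_span, ← Set.range_comp]
      rfl
    have h := limsup_le_of_concl d (d + r) 1 (by omega) one_ne_zero (c2 ⟨_, hg'⟩)
    simp only [hHS, Nat.cast_one, one_mul] at h
    exact h

/-- The dimension formula `dim S = dim R + r` when the closed fibre modulo a regular sequence
of length `r` has finite length. -/
theorem ringKrullDim_eq_add_length (rs : List S) (hmem : ∀ r ∈ rs, r ∈ maximalIdeal S)
    (hreg : RingTheory.Sequence.IsWeaklyRegular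
      (S ⧸ (maximalIdeal R).map (algebraMap R S)) rs)
    (hfin : Module.length S
      (S ⧸ ((maximalIdeal R).map (algebraMap R S) ⊔ Ideal.ofList rs)) ≠ ⊤) :
    ringKrullDim S = ringKrullDim R + rs.length := by
  have hyn : ∀ k : Fin rs.length, rs.get k ∈ maximalIdeal S := fun k =>
    hmem _ (List.get_mem rs k)
  have hreg' : ∀ (T : Finset (Fin rs.length)) (k : Fin rs.length), k ∉ T →
      ∀ s : S, rs.get k * s ∈ Vale.Agent.Lib.P202.fibreIdeal R rs.get T →
        s ∈ Vale.Agent.Lib.P202.fibreIdeal R rs.get T :=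
    fun T k hk s hs => Vale.Agent.Lib.P202.regular_of_isWeaklyRegular _ rs hmem hreg T k hk s hs
  have hJ' : Vale.Agent.Lib.P202.fibreIdeal R rs.get Finset.univ =
      (maximalIdeal R).map (algebraMap R S) ⊔ Ideal.ofList rs := by
    rw [Vale.Agent.Lib.P202.fibreIdeal, Finset.coe_univ, Set.image_univ, Set.range_list_get]
  obtain ⟨L, hL⟩ := ENat.ne_top_iff_exists.mp hfin
  have h : maximalIdeal S ^ L ≤ (maximalIdeal R).map (algebraMap R S) ⊔ Ideal.ofList rs :=
    maximalIdeal_pow_le_of_length_le _ L (by rw [hL])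
  have h1 := Vale.Agent.Lib.P202.ringKrullDim_eq_add_card rs.get hyn hreg' Finset.univ L
    (by rw [hJ']; exact h)
  rwa [Finset.card_fin] at h1

/-- Lech-type inequalities for a flat local homomorphism whose closed fibre has a regular
sequence `rs` in `n` with quotient of finite length (a Cohen-Macaulay closed fibre of dimension
`rs.length`). -/
theorem limsup_le_of_isWeaklyRegular (rs : List S) (hmem : ∀ r ∈ rs, r ∈ maximalIdeal S)
    (hreg : RingTheory.Sequence.IsWeaklyRegular
      (S ⧸ (maximalIdeal R).map (algebraMap R S)) rs)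
    (hfin : Module.length S
      (S ⧸ ((maximalIdeal R).map (algebraMap R S) ⊔ Ideal.ofList rs)) ≠ ⊤)
    (d : ℕ) (hd : 2 ≤ d) :
    limsup (fun N : ℕ => (d ! : ℝ≥0∞) *
        (Module.length R (R ⧸ maximalIdeal R ^ N)).toENNReal / (N : ℝ≥0∞) ^ d) atTop ≤
      ((d - 1) ! : ℝ≥0∞) * liminf (fun N : ℕ => ((d + rs.length) ! : ℝ≥0∞) *
        (Module.length S (S ⧸ maximalIdeal S ^ N)).toENNReal / (N : ℝ≥0∞) ^ (d + rs.length))
        atTop ∧
    ((∃ g : Fin (rs.length + 2) → S, maximalIdeal S =
        (maximalIdeal R).map (algebraMap R S) ⊔ Ideal.span (Set.range g)) →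
      limsup (fun N : ℕ => (d ! : ℝ≥0∞) *
          (Module.length R (R ⧸ maximalIdeal R ^ N)).toENNReal / (N : ℝ≥0∞) ^ d) atTop ≤
        liminf (fun N : ℕ => ((d + rs.length) ! : ℝ≥0∞) *
          (Module.length S (S ⧸ maximalIdeal S ^ N)).toENNReal / (N : ℝ≥0∞) ^ (d + rs.length))
          atTop) :=
  limsup_le_of_cmmod rs.length (cmmod_of_isWeaklyRegular _ rs hmem hreg hfin) d hd

end Vale.Agent.Lib.P202.Lech
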