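import Vale.Agent.Lib.P202.Lech.CMDefs

/-!
# The elementary Cohen-Macaulay condition passes to the quotient by an element of the ideal
-/

namespace Vale.Agent.Lib.P202.Lech

open IsLocalRing

universe u

variable {A : Type u} [CommRing A] [IsLocalRing A]

omit [IsLocalRing A] in
/-- If `z ∈ 𝔟` and the class of `a` lies in the image of `𝔟` in `A / (z)`, then `a ∈ 𝔟`. -/
lemma cmTransfer_mem_of_mk_mem (z : A) (𝔟 : Ideal A) (hz : z ∈ 𝔟) {a : A}
    (h : Ideal.Quotient.mk (Ideal.span {z}) a ∈ 𝔟.map (Ideal.Quotient.mk (Ideal.span {z}))) :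
    a ∈ 𝔟 := by
  rw [Ideal.mem_map_iff_of_surjective _ Ideal.Quotient.mk_surjective] at h
  obtain ⟨x, hx, hxa⟩ := h
  rw [Ideal.Quotient.eq] at hxa
  have hle : Ideal.span {z} ≤ 𝔟 := by
    rw [Ideal.span_singleton_le_iff_mem]
    exact hz
  have hax : a = x - (x - a) := by ring
  rw [hax]
  exact 𝔟.sub_mem hx (hle hxa)

/-- If `z ∈ 𝔟` and `A / 𝔟` is Cohen-Macaulay of dimension `r` (in the sense of `CMmod`), then
the same holds for the image of `𝔟` in the local ring `A / (z)`. -/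
theorem cmmod_quotient (z : A) [IsLocalRing (A ⧸ Ideal.span {z})] (r : ℕ) :
    ∀ 𝔟 : Ideal A, z ∈ 𝔟 → CMmod r 𝔟 →
      CMmod r (𝔟.map (Ideal.Quotient.mk (Ideal.span {z}))) := by
  induction r with
  | zero =>
    intro 𝔟 hz h
    rw [cmmod_zero] at h ⊢
    rw [length_quotient_ideal (Ideal.span {z}) 𝔟]
    have hsup : 𝔟 ⊔ Ideal.span {z} = 𝔟 := by
      apply sup_eq_left.mpr
      rw [Ideal.span_singleton_le_iff_mem]
      exact hz
    rw [hsup]
    exact h
  | succ r ih =>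
    intro 𝔟 hz h
    rw [cmmod_succ] at h ⊢
    obtain ⟨y, hy, hreg, hcm⟩ := h
    refine ⟨Ideal.Quotient.mk (Ideal.span {z}) y, ?_, ?_, ?_⟩
    · rw [maximalIdeal_quotient]
      exact Ideal.mem_map_of_mem _ hy
    · intro s hs
      obtain ⟨s', rfl⟩ := Ideal.Quotient.mk_surjective s
      rw [← map_mul] at hs
      have h1 : y * s' ∈ 𝔟 := cmTransfer_mem_of_mk_mem z 𝔟 hz hs
      exact Ideal.mem_map_of_mem _ (hreg s' h1)
    · have h2 := ih (𝔟 ⊔ Ideal.span {y}) (Ideal.mem_sup_left hz) hcm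
      rw [Ideal.map_sup, Ideal.map_span, Set.image_singleton] at h2
      exact h2

end Vale.Agent.Lib.P202.Lech
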