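import Vale.Agent.Lib.P202.Lech.CMDefs

/-!
# Finite length modulo one regular element does not depend on the regular element
-/

namespace Vale.Agent.Lib.P202.Lech

open IsLocalRing

universe u

variable {A : Type u} [CommRing A] [IsLocalRing A] [IsNoetherianRing A]

/-- Dimension drops by one modulo an element of `n` that is regular modulo `𝔠`. -/
lemma dimOne_ringKrullDim_succ {𝔠 : Ideal A} (h𝔠 : 𝔠 ≤ maximalIdeal A) (y : A)
    (hyn : y ∈ maximalIdeal A) (hy : RegMod 𝔠 y) :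
    ringKrullDim (A ⧸ (𝔠 ⊔ Ideal.span {y})) + 1 = ringKrullDim (A ⧸ 𝔠) := by
  have := Vale.Agent.Lib.P202.isLocalRing_quotient h𝔠
  have hreg : IsSMulRegular (A ⧸ 𝔠) (Ideal.Quotient.mk 𝔠 y) := by
    intro a b hab
    obtain ⟨a, rfl⟩ := Ideal.Quotient.mk_surjective a
    obtain ⟨b, rfl⟩ := Ideal.Quotient.mk_surjective b
    have h1 : Ideal.Quotient.mk 𝔠 (y * (a - b)) = 0 := by
      have h2 : Ideal.Quotient.mk 𝔠 y * Ideal.Quotient.mk 𝔠 a =
          Ideal.Quotient.mk 𝔠 y * Ideal.Quotient.mk 𝔠 b := hab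
      rw [map_mul, map_sub, mul_sub, h2, sub_self]
    rw [Ideal.Quotient.eq_zero_iff_mem] at h1
    have h4 := hy (a - b) h1
    rw [← sub_eq_zero, ← map_sub, Ideal.Quotient.eq_zero_iff_mem]
    exact h4
  have hmem : Ideal.Quotient.mk 𝔠 y ∈ maximalIdeal (A ⧸ 𝔠) := by
    rw [mem_maximalIdeal, mem_nonunits_iff]
    intro hu
    have hloc : IsLocalHom (Ideal.Quotient.mk 𝔠) :=
      IsLocalHom.of_surjective _ Ideal.Quotient.mk_surjective
    exact ((mem_maximalIdeal _).mp hyn) (isUnit_of_map_unit (Ideal.Quotient.mk 𝔠) y hu)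
  have h5 := ringKrullDim_quotient_span_singleton_succ_eq_ringKrullDim hreg hmem
  have e : (Ideal.span {y}).map (Ideal.Quotient.mk 𝔠) =
      Ideal.span {Ideal.Quotient.mk 𝔠 y} := by
    rw [Ideal.map_span, Set.image_singleton]
  rw [← e] at h5
  rw [← h5, ringKrullDim_eq_of_ringEquiv (DoubleQuot.quotQuotEquivQuotSup 𝔠 (Ideal.span {y}))]

omit [IsLocalRing A] in
/-- Finite length of a quotient ring as a module is the same as being an Artinian ring. -/
lemma dimOne_length_ne_top_iff (I : Ideal A) :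
    Module.length A (A ⧸ I) ≠ ⊤ ↔ IsArtinianRing (A ⧸ I) := by
  rw [Module.length_ne_top_iff, isFiniteLength_iff_isNoetherian_isArtinian]
  constructor
  · rintro ⟨-, h2⟩
    exact isArtinian_of_tower A h2
  · intro h
    exact ⟨isNoetherian_quotient _,
      isArtinian_of_surjective_algebraMap (Ideal.Quotient.mk_surjective (I := I))⟩

/-- Let `x, z ∈ n` be regular modulo `𝔠`.  If `A / (𝔠 + (x))` has finite length, then so does
`A / (𝔠 + (z))`. -/
theorem length_quot_sup_span_ne_top_of_regMod (𝔠 : Ideal A) (x z : A)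
    (hx : x ∈ maximalIdeal A) (hz : z ∈ maximalIdeal A) (hrx : RegMod 𝔠 x) (hrz : RegMod 𝔠 z)
    (hfin : Module.length A (A ⧸ (𝔠 ⊔ Ideal.span {x})) ≠ ⊤) :
    Module.length A (A ⧸ (𝔠 ⊔ Ideal.span {z})) ≠ ⊤ := by
  by_cases htop : 𝔠 = ⊤
  · have h0 : Module.length A (A ⧸ (𝔠 ⊔ Ideal.span {z})) = 0 := by
      rw [Module.length_eq_zero_iff, Ideal.Quotient.subsingleton_iff, htop, top_sup_eq]
    rw [h0]
    exact ENat.zero_ne_top
  have h𝔠 : 𝔠 ≤ maximalIdeal A := le_maximalIdeal htop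
  have hIx : 𝔠 ⊔ Ideal.span {x} ≤ maximalIdeal A :=
    sup_le h𝔠 ((Ideal.span_singleton_le_iff_mem _).mpr hx)
  have hIz : 𝔠 ⊔ Ideal.span {z} ≤ maximalIdeal A :=
    sup_le h𝔠 ((Ideal.span_singleton_le_iff_mem _).mpr hz)
  have hlx := Vale.Agent.Lib.P202.isLocalRing_quotient hIx
  have hlz := Vale.Agent.Lib.P202.isLocalRing_quotient hIz
  have hax : IsArtinianRing (A ⧸ (𝔠 ⊔ Ideal.span {x})) := (dimOne_length_ne_top_iff _).mp hfin
  have hdx : ringKrullDim (A ⧸ (𝔠 ⊔ Ideal.span {x})) = 0 :=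
    ringKrullDimZero_iff_ringKrullDim_eq_zero.mp inferInstance
  have h1 := dimOne_ringKrullDim_succ h𝔠 x hx hrx
  have h2 := dimOne_ringKrullDim_succ h𝔠 z hz hrz
  rw [hdx, zero_add] at h1
  rw [← h1] at h2
  have hdz : ringKrullDim (A ⧸ (𝔠 ⊔ Ideal.span {z})) ≤ 0 := by
    have h3 : ringKrullDim (A ⧸ (𝔠 ⊔ Ideal.span {z})) + 1 ≤ 0 + 1 := by
      rw [h2, zero_add]
    exact ENat.WithBot.add_le_add_one_right_iff.mp h3
  rw [dimOne_length_ne_top_iff, isArtinianRing_iff_krullDimLE_zero, Ring.krullDimLE_iff]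
  exact_mod_cast hdz

end Vale.Agent.Lib.P202.Lech
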