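import Vale.Agent.Lib.P202.Lech.RegPrimes

/-!
# A common regular element (depth at least one is independent of the regular element divided by)
-/

namespace Vale.Agent.Lib.P202.Lech

open IsLocalRing

universe u

variable {A : Type u} [CommRing A] [IsLocalRing A] [IsNoetherianRing A]

omit [IsLocalRing A] [IsNoetherianRing A] in
/-- Membership in `𝔠 + (y)` spelled out. -/
lemma regCommon_mem_sup (𝔠 : Ideal A) (y s : A) :
    s ∈ 𝔠 ⊔ Ideal.span {y} ↔ ∃ q ∈ 𝔠, ∃ v : A, q + v * y = s := by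
  constructor
  · intro h
    obtain ⟨q, hq, t, ht, hqt⟩ := Submodule.mem_sup.1 h
    obtain ⟨v, rfl⟩ := Ideal.mem_span_singleton'.1 ht
    exact ⟨q, hq, v, hqt⟩
  · rintro ⟨q, hq, v, rfl⟩
    exact Submodule.add_mem_sup hq (Ideal.mem_span_singleton'.2 ⟨v, rfl⟩)

omit [IsLocalRing A] [IsNoetherianRing A] in
/-- The algebraic core: if the maximal ideal kills `u` modulo `𝔠 + (z)` while `u ∉ 𝔠 + (z)`, and
`x, z` are regular modulo `𝔠`, then `x₂` cannot be regular modulo `𝔠 + (x)`. -/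
lemma regCommon_core (𝔠 : Ideal A) (x z x₂ u : A) (hrx : RegMod 𝔠 x) (hrz : RegMod 𝔠 z)
    (hr₂ : RegMod (𝔠 ⊔ Ideal.span {x}) x₂) (hu : u ∉ 𝔠 ⊔ Ideal.span {z})
    (hxu : x * u ∈ 𝔠 ⊔ Ideal.span {z}) (hx₂u : x₂ * u ∈ 𝔠 ⊔ Ideal.span {z}) : False := by
  obtain ⟨q, hq, v, hqv⟩ := (regCommon_mem_sup 𝔠 z (x * u)).1 hxu
  obtain ⟨q₂, hq₂, w₂, hqw₂⟩ := (regCommon_mem_sup 𝔠 z (x₂ * u)).1 hx₂u
  -- (i) `v ∉ 𝔠 + (x)`
  have hv : v ∉ 𝔠 ⊔ Ideal.span {x} := by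
    intro hvm
    obtain ⟨q', hq', v', hqv'⟩ := (regCommon_mem_sup 𝔠 x v).1 hvm
    have h1 : x * (u - z * v') ∈ 𝔠 := by
      have : x * (u - z * v') = q + q' * z := by
        rw [← hqv'] at hqv
        linear_combination -hqv
      rw [this]
      exact 𝔠.add_mem hq (𝔠.mul_mem_right z hq')
    have h2 : u - z * v' ∈ 𝔠 := hrx _ h1
    exact hu ((regCommon_mem_sup 𝔠 z u).2 ⟨u - z * v', h2, v', by ring⟩)
  -- (ii) `x₂ * v ∈ 𝔠 + (x)`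
  have h3 : z * (x₂ * v - x * w₂) ∈ 𝔠 := by
    have : z * (x₂ * v - x * w₂) = x * q₂ - x₂ * q := by
      linear_combination x₂ * hqv - x * hqw₂
    rw [this]
    exact 𝔠.sub_mem (𝔠.mul_mem_left x hq₂) (𝔠.mul_mem_left x₂ hq)
  have h4 : x₂ * v - x * w₂ ∈ 𝔠 := hrz _ h3
  have h5 : x₂ * v ∈ 𝔠 ⊔ Ideal.span {x} :=
    (regCommon_mem_sup 𝔠 x (x₂ * v)).2 ⟨x₂ * v - x * w₂, h4, w₂, by ring⟩
  exact hv (hr₂ v h5)

/-- Let `x, z ∈ n` be regular modulo `𝔠`.  If some `x₂ ∈ n` is regular modulo `𝔠 + (x)`, then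
some `w ∈ n` is regular modulo `𝔠 + (x)` and modulo `𝔠 + (z)`. -/
theorem exists_common_regMod (𝔠 : Ideal A) (x z x₂ : A) (hx : x ∈ maximalIdeal A)
    (hz : z ∈ maximalIdeal A) (hx₂ : x₂ ∈ maximalIdeal A) (hrx : RegMod 𝔠 x)
    (hrz : RegMod 𝔠 z) (hr₂ : RegMod (𝔠 ⊔ Ideal.span {x}) x₂) :
    ∃ w ∈ maximalIdeal A, RegMod (𝔠 ⊔ Ideal.span {x}) w ∧ RegMod (𝔠 ⊔ Ideal.span {z}) w := by
  classical
  have _hz := hz
  obtain ⟨tx, htx, hregx⟩ := exists_finset_regMod (𝔠 ⊔ Ideal.span {x})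
  obtain ⟨tz, htz, hregz⟩ := exists_finset_regMod (𝔠 ⊔ Ideal.span {z})
  by_cases hex : ∃ w ∈ maximalIdeal A, ∀ P ∈ tx ∪ tz, w ∉ P
  · obtain ⟨w, hw, hP⟩ := hex
    exact ⟨w, hw, hregx w (fun P hPt => hP P (Finset.mem_union_left _ hPt)),
      hregz w (fun P hPt => hP P (Finset.mem_union_right _ hPt))⟩
  · exfalso
    have hall : ∀ w ∈ maximalIdeal A, ∃ P ∈ tx ∪ tz, w ∈ P := by
      intro w hw
      by_contra hcon
      exact hex ⟨w, hw, fun P hP hwP => hcon ⟨P, hP, hwP⟩⟩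
    have hsub : ((maximalIdeal A : Ideal A) : Set A) ⊆
        ⋃ P ∈ ((tx ∪ tz : Finset (Ideal A)) : Set (Ideal A)), ((id P : Ideal A) : Set A) := by
      intro w hw
      obtain ⟨P, hP, hwP⟩ := hall w hw
      exact Set.mem_biUnion (Finset.mem_coe.2 hP) hwP
    have hprime : ∀ P ∈ tx ∪ tz, P ≠ (⊥ : Ideal A) → P ≠ (⊥ : Ideal A) →
        (id P : Ideal A).IsPrime := by
      intro P hP _ _
      rcases Finset.mem_union.1 hP with h | h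
      · exact (htx P h).1
      · exact (htz P h).1
    obtain ⟨P, hPt, hnP⟩ :=
      (Ideal.subset_union_prime (s := tx ∪ tz) (f := id) ⊥ ⊥ hprime).1 hsub
    have hnP' : maximalIdeal A ≤ P := hnP
    rcases Finset.mem_union.1 hPt with h | h
    · obtain ⟨-, u, hu, hPu⟩ := htx P h
      exact hu (hr₂ u (hPu x₂ (hnP' hx₂)))
    · obtain ⟨-, u, hu, hPu⟩ := htz P h
      exact regCommon_core 𝔠 x z x₂ u hrx hrz hr₂ hu (hPu x (hnP' hx)) (hPu x₂ (hnP' hx₂))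

end Vale.Agent.Lib.P202.Lech
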