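import Vale.Agent.Lib.P202.Lech.Swap
import Vale.Agent.Lib.P202.Lech.RegCommon
import Vale.Agent.Lib.P202.Lech.DimOne

/-!
# The exchange theorem: dividing a Cohen-Macaulay quotient by any regular element
-/

namespace Vale.Agent.Lib.P202.Lech

open IsLocalRing

universe u

variable {A : Type u} [CommRing A] [IsLocalRing A] [IsNoetherianRing A]

/-- If `A / 𝔠` is Cohen-Macaulay of dimension `r + 1` and `z ∈ n` is regular modulo `𝔠`, then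
`A / (𝔠 + (z))` is Cohen-Macaulay of dimension `r`. -/
theorem cmmod_exchange (r : ℕ) : ∀ (𝔠 : Ideal A), CMmod (r + 1) 𝔠 → ∀ z ∈ maximalIdeal A,
    RegMod 𝔠 z → CMmod r (𝔠 ⊔ Ideal.span {z}) := by
  induction r with
  | zero =>
    intro 𝔠 h z hz hrz
    obtain ⟨x, hx, hrx, hfin⟩ := h
    exact length_quot_sup_span_ne_top_of_regMod 𝔠 x z hx hz hrx hrz hfin
  | succ r ih =>
    intro 𝔠 h z hz hrz
    obtain ⟨x₁, hx₁, hrx₁, h₁⟩ := h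
    have h₁' := h₁
    obtain ⟨x₂, hx₂, hrx₂, -⟩ := h₁'
    obtain ⟨w, hw, hw₁, hw₂⟩ := exists_common_regMod 𝔠 x₁ z x₂ hx₁ hz hx₂ hrx₁ hrz hrx₂
    have hA := ih (𝔠 ⊔ Ideal.span {x₁}) h₁ w hw hw₁
    obtain ⟨hrw, hrx₁w⟩ := regMod_swap 𝔠 x₁ w hx₁ hrx₁ hw₁
    have hB : CMmod (r + 1) (𝔠 ⊔ Ideal.span {w}) := by
      refine ⟨x₁, hx₁, hrx₁w, ?_⟩
      rw [sup_right_comm]
      exact hA
    obtain ⟨-, hrzw⟩ := regMod_swap 𝔠 z w hz hrz hw₂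
    have hC := ih (𝔠 ⊔ Ideal.span {w}) hB z hz hrzw
    refine ⟨w, hw, hw₂, ?_⟩
    rw [sup_right_comm]
    exact hC

end Vale.Agent.Lib.P202.Lech
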