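import Vale.Agent.Lib.P202.Lech.Defs

/-!
# Dividing by a minimal generator lowers the number of generators of the maximal ideal
-/

namespace Vale.Agent.Lib.P202.Lech

open IsLocalRing

universe u

variable {S : Type u} [CommRing S] [IsLocalRing S]

/-- If `n = 𝔠 + (g 0, …, g k)` and `z ∈ n` is not in `𝔠 + n^2`, then the maximal ideal of
`S / (z)` is generated by the image of `𝔠` and `k` further elements. -/
theorem exists_generators_quotient (𝔠 : Ideal S) (k : ℕ) (g : Fin (k + 1) → S)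
    (hg : maximalIdeal S = 𝔠 ⊔ Ideal.span (Set.range g)) (z : S) (hz : z ∈ maximalIdeal S)
    (hzW : z ∉ 𝔠 ⊔ maximalIdeal S * maximalIdeal S) [IsLocalRing (S ⧸ Ideal.span {z})] :
    ∃ g' : Fin k → S ⧸ Ideal.span {z},
      maximalIdeal (S ⧸ Ideal.span {z}) =
        𝔠.map (Ideal.Quotient.mk (Ideal.span {z})) ⊔ Ideal.span (Set.range g') := by
  classical
  have hgn : ∀ i, g i ∈ maximalIdeal S := fun i => by
    rw [hg]; exact Ideal.mem_sup_right (Ideal.subset_span ⟨i, rfl⟩)
  have hcn : 𝔠 ≤ maximalIdeal S := by rw [hg]; exact le_sup_left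
  have hz' := hz
  rw [hg, Submodule.mem_sup] at hz'
  obtain ⟨q, hq, y, hy, hqy⟩ := hz'
  rw [Ideal.mem_span_range_iff_exists_fun] at hy
  obtain ⟨α, hα⟩ := hy
  have hex : ∃ i, IsUnit (α i) := by
    by_contra hno
    apply hzW
    rw [← hqy, ← hα]
    refine Ideal.add_mem _ (Ideal.mem_sup_left hq) (Ideal.mem_sup_right ?_)
    refine Ideal.sum_mem _ (fun i _ => ?_)
    refine Ideal.mul_mem_mul ?_ (hgn i)
    rw [mem_maximalIdeal, mem_nonunits_iff]
    exact fun h => hno ⟨i, h⟩
  obtain ⟨i, hi⟩ := hex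
  obtain ⟨v, hv⟩ := hi
  have hgi : g i ∈ 𝔠 ⊔ Ideal.span {z} ⊔ Ideal.span (Set.range (g ∘ i.succAbove)) := by
    have hsum : α i * g i + ∑ j : Fin k, α (i.succAbove j) * g (i.succAbove j) = y := by
      rw [← hα, Fin.sum_univ_succAbove _ i]
    have h1 : α i * g i ∈ 𝔠 ⊔ Ideal.span {z} ⊔ Ideal.span (Set.range (g ∘ i.succAbove)) := by
      have h0 : α i * g i = z - q - ∑ j : Fin k, α (i.succAbove j) * g (i.succAbove j) := by
        rw [← hqy, ← hsum]; ring
      rw [h0]
      refine Ideal.sub_mem _ (Ideal.sub_mem _ ?_ ?_) ?_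
      · exact Ideal.mem_sup_left (Ideal.mem_sup_right (Ideal.subset_span rfl))
      · exact Ideal.mem_sup_left (Ideal.mem_sup_left hq)
      · refine Ideal.sum_mem _ (fun j _ => Ideal.mul_mem_left _ _ ?_)
        exact Ideal.mem_sup_right (Ideal.subset_span ⟨j, rfl⟩)
    have h2 : g i = ((v⁻¹ : Sˣ) : S) * (α i * g i) := by
      rw [← hv, ← mul_assoc, Units.inv_mul, one_mul]
    rw [h2]
    exact Ideal.mul_mem_left _ _ h1
  have hJ : maximalIdeal S =
      𝔠 ⊔ Ideal.span {z} ⊔ Ideal.span (Set.range (g ∘ i.succAbove)) := by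
    apply le_antisymm
    · rw [hg]
      refine sup_le (le_sup_of_le_left le_sup_left) ?_
      rw [Ideal.span_le]
      rintro _ ⟨j, rfl⟩
      by_cases hj : j = i
      · subst hj; exact hgi
      · obtain ⟨j', rfl⟩ := Fin.exists_succAbove_eq hj
        exact Ideal.mem_sup_right (Ideal.subset_span ⟨j', rfl⟩)
    · refine sup_le (sup_le hcn ?_) ?_
      · rw [Ideal.span_le]
        intro w hw
        rw [Set.mem_singleton_iff] at hw
        rw [hw]; exact hz
      · rw [Ideal.span_le]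
        rintro _ ⟨j, rfl⟩
        exact hgn _
  refine ⟨fun j => Ideal.Quotient.mk (Ideal.span {z}) (g (i.succAbove j)), ?_⟩
  have hzero : (Ideal.span {z}).map (Ideal.Quotient.mk (Ideal.span {z})) = ⊥ := by
    rw [Ideal.map_span, Set.image_singleton]
    have : Ideal.Quotient.mk (Ideal.span {z}) z = 0 :=
      Ideal.Quotient.eq_zero_iff_mem.mpr (Ideal.subset_span rfl)
    rw [this]
    exact Ideal.span_singleton_eq_bot.mpr rfl
  have hrange : (Ideal.span (Set.range (g ∘ i.succAbove))).map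
      (Ideal.Quotient.mk (Ideal.span {z})) =
      Ideal.span (Set.range
        (fun j => Ideal.Quotient.mk (Ideal.span {z}) (g (i.succAbove j)))) := by
    rw [Ideal.map_span, ← Set.range_comp]
    rfl
  rw [maximalIdeal_quotient, hJ, Ideal.map_sup, Ideal.map_sup, hzero, hrange, sup_bot_eq]

end Vale.Agent.Lib.P202.Lech
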