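import Vale.Agent.Lib.P202.Lech.RegPrimes
import Vale.Agent.Lib.P202.Lech.SupExistsAvoid

/-!
# Superficial elements that are regular modulo a given ideal
-/

namespace Vale.Agent.Lib.P202.Lech

open IsLocalRing

universe u

/-- Let `(A, n)` be a Noetherian local ring with infinite residue field and `𝔠` a proper ideal
such that some element of `n` is regular modulo `𝔠`.  Then there is a superficial element of
`A` that is regular modulo `𝔠` and does not lie in `𝔠 + n^2`. -/
theorem exists_superficial_regMod (A : Type u) [CommRing A] [IsLocalRing A] [IsNoetherianRing A]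
    [Infinite (ResidueField A)] (𝔠 : Ideal A) (h𝔠 : 𝔠 ≠ ⊤) (x : A) (hx : x ∈ maximalIdeal A)
    (hrx : RegMod 𝔠 x) :
    ∃ (z : A) (c : ℕ), Superficial A z c ∧ RegMod 𝔠 z ∧
      z ∉ 𝔠 ⊔ maximalIdeal A * maximalIdeal A := by
  classical
  obtain ⟨t, ht, hreg⟩ := exists_finset_regMod 𝔠
  have h1 : (1 : A) ∉ 𝔠 := fun h => h𝔠 ((Ideal.eq_top_iff_one 𝔠).mpr h)
  have hxc : x ∉ 𝔠 := by
    intro hxc
    apply h1
    apply hrx 1
    rw [mul_one]
    exact hxc
  have hW0 : ¬ maximalIdeal A ≤ 𝔠 ⊔ maximalIdeal A * maximalIdeal A := by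
    intro hle
    have hfg : (maximalIdeal A).FG := IsNoetherian.noetherian _
    have hjac : maximalIdeal A ≤ (⊥ : Ideal A).jacobson := by
      rw [IsLocalRing.jacobson_eq_maximalIdeal ⊥ bot_ne_top]
    have hle' : maximalIdeal A ≤ 𝔠 ⊔ maximalIdeal A • maximalIdeal A := by
      rw [smul_eq_mul]
      exact hle
    have hfin : maximalIdeal A ≤ 𝔠 :=
      Submodule.le_of_le_smul_of_le_jacobson_bot hfg hjac hle'
    exact hxc (hfin hx)
  have hP : ∀ W ∈ insert (𝔠 ⊔ maximalIdeal A * maximalIdeal A) t,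
      ¬ maximalIdeal A ≤ W := by
    intro W hW hle
    rcases Finset.mem_insert.mp hW with rfl | hW
    · exact hW0 hle
    · obtain ⟨_, u, hu, hPu⟩ := ht W hW
      apply hu
      apply hrx u
      exact hPu x (hle hx)
  obtain ⟨z, k, hsup, hz⟩ := exists_superficial_notMem A _ hP
  exact ⟨z, k, hsup, hreg z (fun P hPt => hz P (Finset.mem_insert_of_mem hPt)),
    hz _ (Finset.mem_insert_self _ _)⟩

end Vale.Agent.Lib.P202.Lech
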