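import Vale.Agent.Lib.P202.Lech.Concl
import Vale.Agent.Lib.P202.Lech.Exch
import Vale.Agent.Lib.P202.Lech.CMTransfer
import Vale.Agent.Lib.P202.Lech.GenStep
import Vale.Agent.Lib.P202.Lech.SupReg

/-!
# Lech-type inequalities for Cohen-Macaulay closed fibres (infinite residue field)

Induction on the dimension `r` of the closed fibre: divide `S` by a superficial element that is
regular on the closed fibre and is part of a minimal system of generators of `n / m S`.
-/

namespace Vale.Agent.Lib.P202.Lech

open IsLocalRing Filter
open scoped ENNReal Nat Topology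

universe u v

variable {R : Type v} [CommRing R] [IsLocalRing R] [IsNoetherianRing R]

/-- Main induction.  Let `S` be flat and local over `R`, with infinite residue field, and let
the closed fibre `S / m S` be Cohen-Macaulay of dimension `r` (in the sense of `CMmod`).  Then
`Concl R S d (d + r) (d - 1)!` holds, and `Concl R S d (d + r) 1` holds if moreover `n` is
generated by `m S` and `r + 2` elements. -/
theorem concl_cm (d : ℕ) (hd : 2 ≤ d) (r : ℕ) :
    ∀ (S : Type u) [CommRing S] [IsLocalRing S] [IsNoetherianRing S] [Algebra R S]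
      [IsLocalHom (algebraMap R S)] [Module.Flat R S] [Infinite (ResidueField S)],
      CMmod r ((maximalIdeal R).map (algebraMap R S)) →
        Concl R S d (d + r) (d - 1)! ∧
        ((∃ g : Fin (r + 2) → S, maximalIdeal S =
            (maximalIdeal R).map (algebraMap R S) ⊔ Ideal.span (Set.range g)) →
          Concl R S d (d + r) 1) := by
  induction r with
  | zero =>
    intro S _ _ _ _ _ _ _ h
    have hfib : Module.length S (S ⧸ (maximalIdeal R).map (algebraMap R S)) ≠ ⊤ := h
    refine ⟨concl_factorial hfib d hd, ?_⟩
    rintro ⟨g, hg⟩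
    refine concl_embTwo hfib (g 0) (g 1) ?_ d hd
    have hrange : Set.range g = {g 0, g 1} := by
      ext x
      simp only [Set.mem_range, Set.mem_insert_iff, Set.mem_singleton_iff]
      constructor
      · rintro ⟨i, rfl⟩
        fin_cases i
        · exact Or.inl rfl
        · exact Or.inr rfl
      · rintro (h | h)
        · exact ⟨0, h.symm⟩
        · exact ⟨1, h.symm⟩
    rw [← hrange]
    exact hg
  | succ r ih =>
    intro S _ _ _ _ _ _ _ h
    have h' := h
    obtain ⟨x, hx, hrx, -⟩ := h'
    have hmSle : (maximalIdeal R).map (algebraMap R S) ≤ maximalIdeal S :=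
      Vale.Agent.Lib.P202.map_maximalIdeal_le
    have hmSne : (maximalIdeal R).map (algebraMap R S) ≠ ⊤ := by
      intro htop
      rw [htop] at hmSle
      exact (maximalIdeal.isMaximal S).ne_top (top_le_iff.mp hmSle)
    obtain ⟨z, c, hsz, hrz, hzW⟩ :=
      exists_superficial_regMod S ((maximalIdeal R).map (algebraMap R S)) hmSne x hx hrx
    have hzn : z ∈ maximalIdeal S := hsz.1
    have hloc : IsLocalRing (S ⧸ Ideal.span {z}) :=
      Vale.Agent.Lib.P202.isLocalRing_quotient_span hzn
    have hinf : Infinite (ResidueField (S ⧸ Ideal.span {z})) :=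
      infinite_residueField_quotient _
    have hlh : IsLocalHom (algebraMap R (S ⧸ Ideal.span {z})) :=
      Vale.Agent.Lib.P202.isLocalHom_quotient_span hzn
    have hflat : Module.Flat R (S ⧸ Ideal.span {z}) :=
      Vale.Agent.Lib.P202.flat_quotient_span_singleton z hrz
    have hmap : (maximalIdeal R).map (algebraMap R (S ⧸ Ideal.span {z})) =
        ((maximalIdeal R).map (algebraMap R S) ⊔ Ideal.span {z}).map
          (Ideal.Quotient.mk (Ideal.span {z})) := by
      rw [Vale.Agent.Lib.P202.map_algebraMap_quotient, Ideal.map_sup, Ideal.map_span,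
        Set.image_singleton]
      have h0 : Ideal.Quotient.mk (Ideal.span {z}) z = 0 :=
        Ideal.Quotient.eq_zero_iff_mem.mpr (Ideal.mem_span_singleton_self z)
      rw [h0, Ideal.span_singleton_zero, sup_bot_eq]
    have hcm : CMmod r ((maximalIdeal R).map (algebraMap R (S ⧸ Ideal.span {z}))) := by
      have h1 := cmmod_exchange r ((maximalIdeal R).map (algebraMap R S)) h z hzn hrz
      have h2 := cmmod_quotient z r ((maximalIdeal R).map (algebraMap R S) ⊔ Ideal.span {z})
        (Ideal.mem_sup_right (Ideal.mem_span_singleton_self z)) h1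
      rw [hmap]
      exact h2
    obtain ⟨ih1, ih2⟩ := ih (S ⧸ Ideal.span {z}) hcm
    refine ⟨concl_succ z c hsz d (d + r) _ (by omega) ih1, ?_⟩
    rintro ⟨g, hg⟩
    obtain ⟨g', hg'⟩ := exists_generators_quotient ((maximalIdeal R).map (algebraMap R S))
      (r + 2) g hg z hzn hzW
    refine concl_succ z c hsz d (d + r) 1 (by omega) (ih2 ⟨g', ?_⟩)
    rw [hg', Vale.Agent.Lib.P202.map_algebraMap_quotient]

end Vale.Agent.Lib.P202.Lech
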