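import Vale.Agent.Lib.P202.Lech.FactEmb
import Vale.Agent.Lib.P202.Lech.CMGeneral

/-!
# Cohen-Macaulay closed fibres of embedding codimension at most `ρ`

For a flat local homomorphism `(R, m) → (S, n)` whose closed fibre is Cohen-Macaulay of
dimension `r` and `n = m S + (r + ρ elements)`, `ρ ≥ 1`:
`e(R) ≤ (min d ρ - 1)! e(S)` in every order `d ≥ 2`.
-/

namespace Vale.Agent.Lib.P202.Lech

open IsLocalRing Filter
open scoped ENNReal Nat Topology

universe u v

section infinite

variable {R : Type v} [CommRing R] [IsLocalRing R] [IsNoetherianRing R]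

/-- Induction on the dimension `r` of the closed fibre (infinite residue field). -/
theorem concl_cm_gen (d : ℕ) (hd : 2 ≤ d) (ρ : ℕ) (hρ : 1 ≤ ρ) (r : ℕ) :
    ∀ (S : Type u) [CommRing S] [IsLocalRing S] [IsNoetherianRing S] [Algebra R S]
      [IsLocalHom (algebraMap R S)] [Module.Flat R S] [Infinite (ResidueField S)],
      CMmod r ((maximalIdeal R).map (algebraMap R S)) →
      (∃ g : Fin (r + ρ) → S, maximalIdeal S =
          (maximalIdeal R).map (algebraMap R S) ⊔ Ideal.span (Set.range g)) →
        Concl R S d (d + r) (min d ρ - 1)! := by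
  induction r with
  | zero =>
    intro S _ _ _ _ _ _ _ h hgen
    obtain ⟨g, hg⟩ := hgen
    classical
    have hfib : Module.length S (S ⧸ (maximalIdeal R).map (algebraMap R S)) ≠ ⊤ := h
    have ht : (Finset.univ.image g).card ≤ ρ := by
      refine Finset.card_image_le.trans ?_
      rw [Finset.card_univ, Fintype.card_fin]
      omega
    have hn : maximalIdeal S = (maximalIdeal R).map (algebraMap R S) ⊔
        Ideal.span ((Finset.univ.image g : Finset S) : Set S) := by
      rw [Finset.coe_image, Finset.coe_univ, Set.image_univ]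
      exact hg
    exact concl_embGen hfib ρ hρ (Finset.univ.image g) ht hn d hd
  | succ r ih =>
    intro S _ _ _ _ _ _ _ h hgen
    obtain ⟨g, hg⟩ := hgen
    have h' := h
    obtain ⟨x, hx, hrx, -⟩ := h'
    have hmSle : (maximalIdeal R).map (algebraMap R S) ≤ maximalIdeal S :=
      Vale.Agent.Lib.P202.map_maximalIdeal_le
    have hmSne : (maximalIdeal R).map (algebraMap R S) ≠ ⊤ := by
      intro htop
      rw [htop] at hmSle
      exact (maximalIdeal.isMaximal S).ne_top (top_le_iff.mp hmSle)
    obtain ⟨z, c, hsz, hrz, hzW⟩ :=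
      exists_superficial_regMod S ((maximalIdeal R).map (algebraMap R S)) hmSne x hx hrx
    have hzn : z ∈ maximalIdeal S := hsz.1
    have hloc : IsLocalRing (S ⧸ Ideal.span {z}) :=
      Vale.Agent.Lib.P202.isLocalRing_quotient_span hzn
    have hinf : Infinite (ResidueField (S ⧸ Ideal.span {z})) :=
      infinite_residueField_quotient _
    have hlh : IsLocalHom (algebraMap R (S ⧸ Ideal.span {z})) :=
      Vale.Agent.Lib.P202.isLocalHom_quotient_span hzn
    have hflat : Module.Flat R (S ⧸ Ideal.span {z}) :=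
      Vale.Agent.Lib.P202.flat_quotient_span_singleton z hrz
    have hmap : (maximalIdeal R).map (algebraMap R (S ⧸ Ideal.span {z})) =
        ((maximalIdeal R).map (algebraMap R S) ⊔ Ideal.span {z}).map
          (Ideal.Quotient.mk (Ideal.span {z})) := by
      rw [Vale.Agent.Lib.P202.map_algebraMap_quotient, Ideal.map_sup, Ideal.map_span,
        Set.image_singleton]
      have h0 : Ideal.Quotient.mk (Ideal.span {z}) z = 0 :=
        Ideal.Quotient.eq_zero_iff_mem.mpr (Ideal.mem_span_singleton_self z)
      rw [h0, Ideal.span_singleton_zero, sup_bot_eq]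
    have hcm : CMmod r ((maximalIdeal R).map (algebraMap R (S ⧸ Ideal.span {z}))) := by
      have h1 := cmmod_exchange r ((maximalIdeal R).map (algebraMap R S)) h z hzn hrz
      have h2 := cmmod_quotient z r ((maximalIdeal R).map (algebraMap R S) ⊔ Ideal.span {z})
        (Ideal.mem_sup_right (Ideal.mem_span_singleton_self z)) h1
      rw [hmap]
      exact h2
    have hk : r + ρ + 1 = r + 1 + ρ := by omega
    have hrange : Set.range (fun i : Fin (r + ρ + 1) => g (Fin.cast hk i)) = Set.range g := by
      ext y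
      constructor
      · rintro ⟨i, rfl⟩
        exact ⟨Fin.cast hk i, rfl⟩
      · rintro ⟨i, rfl⟩
        exact ⟨Fin.cast hk.symm i, rfl⟩
    have hg₂ : maximalIdeal S = (maximalIdeal R).map (algebraMap R S) ⊔
        Ideal.span (Set.range (fun i : Fin (r + ρ + 1) => g (Fin.cast hk i))) := by
      rw [hrange]
      exact hg
    obtain ⟨g', hg'⟩ := exists_generators_quotient ((maximalIdeal R).map (algebraMap R S))
      (r + ρ) (fun i : Fin (r + ρ + 1) => g (Fin.cast hk i)) hg₂ z hzn hzW
    refine concl_succ z c hsz d (d + r) _ (by omega) (ih (S ⧸ Ideal.span {z}) hcm ⟨g', ?_⟩)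
    rw [hg', Vale.Agent.Lib.P202.map_algebraMap_quotient]

end infinite

variable {R : Type v} {S : Type u} [CommRing R] [CommRing S] [IsLocalRing R] [IsLocalRing S]
  [IsNoetherianRing R] [IsNoetherianRing S] [Algebra R S] [IsLocalHom (algebraMap R S)]
  [Module.Flat R S]

/-- The inequality for a closed fibre that is Cohen-Macaulay of dimension `r` in the sense of
`CMmod`, with `n` generated by `m S` and `r + ρ` elements. -/
theorem limsup_le_of_cmmod_gen (r : ℕ) (hcm : CMmod r ((maximalIdeal R).map (algebraMap R S)))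
    (ρ : ℕ) (hρ : 1 ≤ ρ) (g : Fin (r + ρ) → S)
    (hg : maximalIdeal S = (maximalIdeal R).map (algebraMap R S) ⊔ Ideal.span (Set.range g))
    (d : ℕ) (hd : 2 ≤ d) :
    limsup (fun N : ℕ => (d ! : ℝ≥0∞) *
        (Module.length R (R ⧸ maximalIdeal R ^ N)).toENNReal / (N : ℝ≥0∞) ^ d) atTop ≤
      ((min d ρ - 1) ! : ℝ≥0∞) * liminf (fun N : ℕ => ((d + r) ! : ℝ≥0∞) *
        (Module.length S (S ⧸ maximalIdeal S ^ N)).toENNReal / (N : ℝ≥0∞) ^ (d + r)) atTop := by
  obtain ⟨S', _, _, _, _, hflat, hloc, hinf, hmax⟩ := exists_infinite_residue_extension S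
  letI : Algebra R S' := ((algebraMap S S').comp (algebraMap R S)).toAlgebra
  have htower : IsScalarTower R S S' := IsScalarTower.of_algebraMap_eq (fun _ => rfl)
  have hflat' : Module.Flat R S' := Module.Flat.trans R S S'
  have hloc' : IsLocalHom (algebraMap R S') := by
    have h : algebraMap R S' = (algebraMap S S').comp (algebraMap R S) := rfl
    rw [h]
    exact RingHom.isLocalHom_comp _ _
  have hone : Module.length S' (S' ⧸ (maximalIdeal S).map (algebraMap S S')) = 1 := by
    rw [hmax]
    exact length_quot_maximalIdeal S'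
  have hlen : ∀ I : Ideal S, Module.length S' (S' ⧸ I.map (algebraMap S S')) =
      Module.length S (S ⧸ I) := by
    intro I
    rw [Vale.Agent.Lib.P202.length_quot_map, hone, mul_one]
  have hmap : (maximalIdeal R).map (algebraMap R S') =
      ((maximalIdeal R).map (algebraMap R S)).map (algebraMap S S') := by
    rw [Ideal.map_map]
    rfl
  have hHS : ∀ N : ℕ, Module.length S' (S' ⧸ maximalIdeal S' ^ N) =
      Module.length S (S ⧸ maximalIdeal S ^ N) := by
    intro N
    rw [← hmax, ← Ideal.map_pow, hlen]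
  have hcm' : CMmod r ((maximalIdeal R).map (algebraMap R S')) := by
    rw [hmap]
    exact cmmod_map hmax r _ hcm
  have hg' : maximalIdeal S' = (maximalIdeal R).map (algebraMap R S') ⊔
      Ideal.span (Set.range (fun i => algebraMap S S' (g i))) := by
    rw [← hmax, hmap]
    conv_lhs => rw [hg]
    rw [Ideal.map_sup, Ideal.map_span, ← Set.range_comp]
    rfl
  have h := limsup_le_of_concl d (d + r) (min d ρ - 1)! (by omega) (Nat.factorial_pos _).ne'
    (concl_cm_gen (R := R) d hd ρ hρ r S' hcm' ⟨_, hg'⟩)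
  simp only [hHS] at h
  exact h

/-- The inequality for a closed fibre with a regular sequence `rs` in `n` whose quotient has
finite length, with `n` generated by `m S` and `rs.length + ρ` elements. -/
theorem limsup_le_of_isWeaklyRegular_gen (rs : List S) (hmem : ∀ r ∈ rs, r ∈ maximalIdeal S)
    (hreg : RingTheory.Sequence.IsWeaklyRegular
      (S ⧸ (maximalIdeal R).map (algebraMap R S)) rs)
    (hfin : Module.length S
      (S ⧸ ((maximalIdeal R).map (algebraMap R S) ⊔ Ideal.ofList rs)) ≠ ⊤)
    (ρ : ℕ) (hρ : 1 ≤ ρ) (g : Fin (rs.length + ρ) → S)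
    (hg : maximalIdeal S = (maximalIdeal R).map (algebraMap R S) ⊔ Ideal.span (Set.range g))
    (d : ℕ) (hd : 2 ≤ d) :
    limsup (fun N : ℕ => (d ! : ℝ≥0∞) *
        (Module.length R (R ⧸ maximalIdeal R ^ N)).toENNReal / (N : ℝ≥0∞) ^ d) atTop ≤
      ((min d ρ - 1) ! : ℝ≥0∞) * liminf (fun N : ℕ => ((d + rs.length) ! : ℝ≥0∞) *
        (Module.length S (S ⧸ maximalIdeal S ^ N)).toENNReal / (N : ℝ≥0∞) ^ (d + rs.length))
        atTop :=
  limsup_le_of_cmmod_gen rs.length (cmmod_of_isWeaklyRegular _ rs hmem hreg hfin) ρ hρ g hg d hd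

end Vale.Agent.Lib.P202.Lech
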