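import Mathlib

/-!
# A family listing the elements of a list and two more elements

For a list `rs` and two elements `g₁, g₂` of a commutative ring there is a family indexed by
`Fin (rs.length + 2)` whose range generates the ideal `(rs) + (g₁, g₂)`.
-/

namespace Vale.Agent.Lib.P202.Lech

/-- A family indexed by `Fin (rs.length + 2)` that lists the elements of `rs` and two more
elements. -/
theorem lowLength_exists_fin_family {S : Type*} [CommRing S] (rs : List S) (g₁ g₂ : S) :
    ∃ g : Fin (rs.length + 2) → S,
      Ideal.span (Set.range g) = Ideal.ofList rs ⊔ Ideal.span {g₁, g₂} := by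
  have hlen : (rs ++ [g₁, g₂]).length = rs.length + 2 := by simp
  refine ⟨fun i => (rs ++ [g₁, g₂]).get (Fin.cast hlen.symm i), ?_⟩
  have hsurj : Function.Surjective (Fin.cast hlen.symm) := by
    intro j
    exact ⟨Fin.cast hlen j, by ext; rfl⟩
  have hr : Set.range (fun i : Fin (rs.length + 2) =>
      (rs ++ [g₁, g₂]).get (Fin.cast hlen.symm i)) = {x | x ∈ rs ++ [g₁, g₂]} := by
    rw [← Set.range_list_get (rs ++ [g₁, g₂])]
    exact hsurj.range_comp _
  rw [hr]
  have h2 : {x | x ∈ rs ++ [g₁, g₂]} = {x | x ∈ rs} ∪ {g₁, g₂} := by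
    ext x
    simp only [List.mem_append, List.mem_cons, List.not_mem_nil, or_false, Set.mem_ofPred_eq,
      Set.mem_union, Set.mem_insert_iff, Set.mem_singleton_iff]
  rw [h2, Ideal.span_union]

end Vale.Agent.Lib.P202.Lech
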