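import Vale.Agent.Lib.P202.Lech.LowLength
import Vale.Agent.Lib.P202.Lech.FinFamily
import Vale.Agent.Lib.P202.Lech.FactCM
import Vale.Agent.Lib.P202.ReductionFibre

/-!
# Lech's inequality for four classes of Cohen-Macaulay closed fibres

Setting: a flat local homomorphism `(R, m) → (S, n)` of Noetherian local rings and a sequence
`rs` in `n`, weakly regular on the closed fibre `S / m S`, with `S / J` of finite length, where
`J = m S + (rs)`.  If one of

* `n = m S + (g 0, …, g (r + 1))` (embedding codimension at most two),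
* `n ^ (c + 1) ≤ J n ^ c` for some `c` (`J` is a reduction of `n`),
* `n ^ 2 ≤ J` and `n` is not of the form `x S + J` (minimal multiplicity),
* `S / J` has length at most four,

holds, then the normalised Hilbert-Samuel functions of `R` (order `d ≥ 2`) and of `S`
(order `d + r`) satisfy `liminf a_N ≤ liminf b_N`, and `eR ≤ eS` if they converge to `eR`, `eS`.
-/

namespace Vale.Agent.Lib.P202.Lech

open IsLocalRing Filter
open scoped ENNReal Nat Topology

universe u v

variable {R : Type v} {S : Type u} [CommRing R] [CommRing S] [IsLocalRing R] [IsLocalRing S]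
  [IsNoetherianRing R] [IsNoetherianRing S] [Algebra R S] [IsLocalHom (algebraMap R S)]
  [Module.Flat R S]

/-- The two conclusions in the case of embedding codimension at most two. -/
theorem classes_of_gens (rs : List S) (hmem : ∀ r ∈ rs, r ∈ maximalIdeal S)
    (hreg : RingTheory.Sequence.IsWeaklyRegular
      (S ⧸ (maximalIdeal R).map (algebraMap R S)) rs)
    (hfin : Module.length S
      (S ⧸ ((maximalIdeal R).map (algebraMap R S) ⊔ Ideal.ofList rs)) ≠ ⊤)
    (g : Fin (rs.length + 2) → S)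
    (hg : maximalIdeal S = (maximalIdeal R).map (algebraMap R S) ⊔ Ideal.span (Set.range g))
    (d : ℕ) (hd : 2 ≤ d) :
    limsup (fun N : ℕ => (d ! : ℝ≥0∞) *
        (Module.length R (R ⧸ maximalIdeal R ^ N)).toENNReal / (N : ℝ≥0∞) ^ d) atTop ≤
      liminf (fun N : ℕ => ((d + rs.length) ! : ℝ≥0∞) *
        (Module.length S (S ⧸ maximalIdeal S ^ N)).toENNReal / (N : ℝ≥0∞) ^ (d + rs.length))
        atTop := by
  have h := limsup_le_of_isWeaklyRegular_gen rs hmem hreg hfin 2 (by norm_num) g hg d hd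
  have h2 : min d 2 - 1 = 1 := by omega
  rw [h2] at h
  simpa using h

/-- Lech's inequality for the four classes of closed fibres. -/
theorem lech_of_classes (rs : List S) (hmem : ∀ r ∈ rs, r ∈ maximalIdeal S)
    (hreg : RingTheory.Sequence.IsWeaklyRegular
      (S ⧸ (maximalIdeal R).map (algebraMap R S)) rs)
    (J : Ideal S) (hJ : J = (maximalIdeal R).map (algebraMap R S) ⊔ Ideal.ofList rs)
    (hfin : Module.length S (S ⧸ J) ≠ ⊤)
    (h : (∃ g : Fin (rs.length + 2) → S, maximalIdeal S =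
          (maximalIdeal R).map (algebraMap R S) ⊔ Ideal.span (Set.range g)) ∨
      (∃ c : ℕ, maximalIdeal S ^ (c + 1) ≤ J * maximalIdeal S ^ c) ∨
      (maximalIdeal S ^ 2 ≤ J ∧ ∀ x : S, maximalIdeal S ≠ Ideal.span {x} ⊔ J) ∨
      Module.length S (S ⧸ J) ≤ 4)
    (d : ℕ) (hd : 2 ≤ d) :
    liminf (fun N : ℕ => (d ! : ℝ≥0∞) *
        (Module.length R (R ⧸ maximalIdeal R ^ N)).toENNReal / (N : ℝ≥0∞) ^ d) atTop ≤
      liminf (fun N : ℕ => ((d + rs.length) ! : ℝ≥0∞) *
        (Module.length S (S ⧸ maximalIdeal S ^ N)).toENNReal / (N : ℝ≥0∞) ^ (d + rs.length))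
        atTop ∧
    (∀ eR eS : ℝ≥0∞,
      Tendsto (fun N : ℕ => (d ! : ℝ≥0∞) *
        (Module.length R (R ⧸ maximalIdeal R ^ N)).toENNReal / (N : ℝ≥0∞) ^ d) atTop (𝓝 eR) →
      Tendsto (fun N : ℕ => ((d + rs.length) ! : ℝ≥0∞) *
        (Module.length S (S ⧸ maximalIdeal S ^ N)).toENNReal / (N : ℝ≥0∞) ^ (d + rs.length))
        atTop (𝓝 eS) →
      eR ≤ eS) := by
  have hJn : J ≤ maximalIdeal S := by
    rw [hJ]
    refine sup_le ?_ ?_
    · rw [Ideal.map_le_iff_le_comap]
      exact ((local_hom_TFAE (algebraMap R S)).out 0 3 rfl rfl).mp inferInstance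
    · rw [Ideal.ofList, Ideal.span_le]
      exact fun x hx => hmem x hx
  -- the case of two generators
  have key1 : (∃ g : Fin (rs.length + 2) → S, maximalIdeal S =
      (maximalIdeal R).map (algebraMap R S) ⊔ Ideal.span (Set.range g)) →
      liminf (fun N : ℕ => (d ! : ℝ≥0∞) *
        (Module.length R (R ⧸ maximalIdeal R ^ N)).toENNReal / (N : ℝ≥0∞) ^ d) atTop ≤
      liminf (fun N : ℕ => ((d + rs.length) ! : ℝ≥0∞) *
        (Module.length S (S ⧸ maximalIdeal S ^ N)).toENNReal / (N : ℝ≥0∞) ^ (d + rs.length))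
        atTop ∧
    (∀ eR eS : ℝ≥0∞,
      Tendsto (fun N : ℕ => (d ! : ℝ≥0∞) *
        (Module.length R (R ⧸ maximalIdeal R ^ N)).toENNReal / (N : ℝ≥0∞) ^ d) atTop (𝓝 eR) →
      Tendsto (fun N : ℕ => ((d + rs.length) ! : ℝ≥0∞) *
        (Module.length S (S ⧸ maximalIdeal S ^ N)).toENNReal / (N : ℝ≥0∞) ^ (d + rs.length))
        atTop (𝓝 eS) →
      eR ≤ eS) := by
    rintro ⟨g, hg⟩
    have hfin' : Module.length S
        (S ⧸ ((maximalIdeal R).map (algebraMap R S) ⊔ Ideal.ofList rs)) ≠ ⊤ := hJ ▸ hfin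
    have h1 := classes_of_gens rs hmem hreg hfin' g hg d hd
    refine ⟨le_trans liminf_le_limsup h1, ?_⟩
    intro eR eS hR hS
    rw [hR.limsup_eq, hS.liminf_eq] at h1
    exact h1
  -- the case of a reduction or of minimal multiplicity
  have key2 : ((∃ c : ℕ, maximalIdeal S ^ (c + 1) ≤ J * maximalIdeal S ^ c) ∨
      (maximalIdeal S ^ 2 ≤ J ∧ ∀ x : S, maximalIdeal S ≠ Ideal.span {x} ⊔ J)) →
      liminf (fun N : ℕ => (d ! : ℝ≥0∞) *
        (Module.length R (R ⧸ maximalIdeal R ^ N)).toENNReal / (N : ℝ≥0∞) ^ d) atTop ≤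
      liminf (fun N : ℕ => ((d + rs.length) ! : ℝ≥0∞) *
        (Module.length S (S ⧸ maximalIdeal S ^ N)).toENNReal / (N : ℝ≥0∞) ^ (d + rs.length))
        atTop ∧
    (∀ eR eS : ℝ≥0∞,
      Tendsto (fun N : ℕ => (d ! : ℝ≥0∞) *
        (Module.length R (R ⧸ maximalIdeal R ^ N)).toENNReal / (N : ℝ≥0∞) ^ d) atTop (𝓝 eR) →
      Tendsto (fun N : ℕ => ((d + rs.length) ! : ℝ≥0∞) *
        (Module.length S (S ⧸ maximalIdeal S ^ N)).toENNReal / (N : ℝ≥0∞) ^ (d + rs.length))
        atTop (𝓝 eS) →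
      eR ≤ eS) := by
    intro h'
    obtain ⟨-, hL1, -, -, hd', hlim⟩ :=
      Vale.Agent.Lib.P202.main_of_isWeaklyRegular rs hmem hreg J hJ h'
    have hL : (1 : ℝ≥0∞) ≤ (Module.length S (S ⧸ J)).toENNReal := by
      have := ENat.toENNReal_le.mpr hL1
      simpa using this
    refine ⟨le_trans ?_ (hd' d).1, ?_⟩
    · calc liminf (fun N : ℕ => (d ! : ℝ≥0∞) *
            (Module.length R (R ⧸ maximalIdeal R ^ N)).toENNReal / (N : ℝ≥0∞) ^ d) atTop
          = 1 * liminf (fun N : ℕ => (d ! : ℝ≥0∞) *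
            (Module.length R (R ⧸ maximalIdeal R ^ N)).toENNReal / (N : ℝ≥0∞) ^ d) atTop :=
            (one_mul _).symm
        _ ≤ _ := mul_le_mul_left hL _
    · intro eR eS hR hS
      have h2 := tendsto_nhds_unique hS (hlim d eR hR)
      rw [h2]
      calc eR = 1 * eR := (one_mul _).symm
        _ ≤ _ := mul_le_mul_left hL _
  rcases h with h | h | h | h
  · exact key1 h
  · exact key2 (Or.inl h)
  · exact key2 (Or.inr h)
  · rcases lowLength_two_gens_or_sq_le J hJn h with ⟨g₁, g₂, hg⟩ | h'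
    · obtain ⟨g, hgr⟩ := lowLength_exists_fin_family rs g₁ g₂
      refine key1 ⟨g, ?_⟩
      rw [hgr, ← sup_assoc, ← hJ]
      exact hg
    · exact key2 (Or.inr h')

end Vale.Agent.Lib.P202.Lech
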