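import Mathlib

/-!
# The square of the maximal ideal modulo `J n`

Abstract setting: a local ring `(S, n)`, an ideal `J` such that every product `a b ∈ J` of two
elements of `n` lies in `J n`, and `a₀ b₀ ∈ n` with `n ^ 2 ≤ J + (a₀ b₀)`.  Then
`n ^ 2 ≤ J n + (a₀ b₀)`.
-/

namespace Vale.Agent.Lib.P202.Lech

open IsLocalRing

theorem quadB_sq_le {S : Type*} [CommRing S] [IsLocalRing S] (J : Ideal S)
    (H1 : ∀ a b : S, a ∈ maximalIdeal S → b ∈ maximalIdeal S → a * b ∈ J →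
      a * b ∈ J * maximalIdeal S)
    (a₀ b₀ : S) (ha₀ : a₀ ∈ maximalIdeal S) (hb₀ : b₀ ∈ maximalIdeal S)
    (h2 : maximalIdeal S ^ 2 ≤ J ⊔ Ideal.span {a₀ * b₀}) :
    maximalIdeal S ^ 2 ≤ J * maximalIdeal S ⊔ Ideal.span {a₀ * b₀} := by
  have dec : ∀ c c' : S, c ∈ maximalIdeal S → c' ∈ maximalIdeal S →
      ∃ j ∈ J, ∃ t : S, c * c' = j + t * (a₀ * b₀) := by
    intro c c' hc hc'
    have hmem : c * c' ∈ maximalIdeal S ^ 2 := by
      rw [pow_two]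
      exact Ideal.mul_mem_mul hc hc'
    have h := h2 hmem
    rw [Submodule.mem_sup] at h
    obtain ⟨j, hj, z, hz, hjz⟩ := h
    rw [Ideal.mem_span_singleton'] at hz
    obtain ⟨t, ht⟩ := hz
    exact ⟨j, hj, t, by rw [← hjz, ← ht]⟩
  have hw : a₀ * b₀ ∈ J * maximalIdeal S ⊔ Ideal.span {a₀ * b₀} :=
    Ideal.mem_sup_right (Ideal.mem_span_singleton_self _)
  have hJn : ∀ u : S, u ∈ J * maximalIdeal S →
      u ∈ J * maximalIdeal S ⊔ Ideal.span {a₀ * b₀} :=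
    fun u hu => Ideal.mem_sup_left hu
  have h_i : ∀ a : S, a ∈ maximalIdeal S →
      a * b₀ ∈ J * maximalIdeal S ⊔ Ideal.span {a₀ * b₀} := by
    intro a ha
    obtain ⟨j1, hj1, p, hp⟩ := dec a b₀ ha hb₀
    have h1 : (a - p * a₀) * b₀ = j1 := by linear_combination hp
    have h2' : (a - p * a₀) * b₀ ∈ J * maximalIdeal S :=
      H1 _ _ (Ideal.sub_mem _ ha (Ideal.mul_mem_left _ _ ha₀)) hb₀ (by rw [h1]; exact hj1)
    have h3 : a * b₀ = (a - p * a₀) * b₀ + p * (a₀ * b₀) := by ring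
    rw [h3]
    exact Ideal.add_mem _ (hJn _ h2') (Ideal.mul_mem_left _ _ hw)
  have h_ii : ∀ b : S, b ∈ maximalIdeal S →
      a₀ * b ∈ J * maximalIdeal S ⊔ Ideal.span {a₀ * b₀} := by
    intro b hb
    obtain ⟨j2, hj2, q, hq⟩ := dec a₀ b ha₀ hb
    have h1 : a₀ * (b - q * b₀) = j2 := by linear_combination hq
    have h2' : a₀ * (b - q * b₀) ∈ J * maximalIdeal S :=
      H1 _ _ ha₀ (Ideal.sub_mem _ hb (Ideal.mul_mem_left _ _ hb₀)) (by rw [h1]; exact hj2)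
    have h3 : a₀ * b = a₀ * (b - q * b₀) + q * (a₀ * b₀) := by ring
    rw [h3]
    exact Ideal.add_mem _ (hJn _ h2') (Ideal.mul_mem_left _ _ hw)
  rw [pow_two, Ideal.mul_le]
  intro a ha b hb
  obtain ⟨j, hj, s, hs⟩ := dec a b ha hb
  obtain ⟨j1, hj1, p, hp⟩ := dec a b₀ ha hb₀
  obtain ⟨j2, hj2, q, hq⟩ := dec a₀ b ha₀ hb
  have hP : (a + (1 - p) * a₀) * (b + (p * q - s - q) * b₀)
      = j + (p * q - s - q) * j1 + (1 - p) * j2 := by
    linear_combination hs + (p * q - s - q) * hp + (1 - p) * hq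
  have hPJ : (a + (1 - p) * a₀) * (b + (p * q - s - q) * b₀) ∈ J := by
    rw [hP]
    exact Ideal.add_mem _ (Ideal.add_mem _ hj (Ideal.mul_mem_left _ _ hj1))
      (Ideal.mul_mem_left _ _ hj2)
  have hPK := hJn _ (H1 _ _ (Ideal.add_mem _ ha (Ideal.mul_mem_left _ _ ha₀))
    (Ideal.add_mem _ hb (Ideal.mul_mem_left _ _ hb₀)) hPJ)
  have hab : a * b = (a + (1 - p) * a₀) * (b + (p * q - s - q) * b₀)
      - (p * q - s - q) * (a * b₀) - (1 - p) * (a₀ * b)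
      - (1 - p) * (p * q - s - q) * (a₀ * b₀) := by ring
  rw [hab]
  exact Ideal.sub_mem _ (Ideal.sub_mem _ (Ideal.sub_mem _ hPK
    (Ideal.mul_mem_left _ _ (h_i a ha))) (Ideal.mul_mem_left _ _ (h_ii b hb)))
    (Ideal.mul_mem_left _ _ hw)

end Vale.Agent.Lib.P202.Lech
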