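import Mathlib

/-!
# The cube of the maximal ideal lies in `J n ^ 2`

Abstract setting: a local ring `(S, n)`, an ideal `J` such that every product `a b ∈ J` of two
elements of `n` lies in `J n`, `n ^ 3 ≤ J`, and `a₀ b₀ c₀ ∈ n` with `n ^ 2 ≤ J n + (a₀ b₀)`,
`a₀ c₀ ∈ J` and `b₀ c₀ ∉ J`.  Then `n ^ 3 ≤ J n ^ 2`.
-/

namespace Vale.Agent.Lib.P202.Lech

open IsLocalRing

theorem quadC_cube_le {S : Type*} [CommRing S] [IsLocalRing S] (J : Ideal S)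
    (H1 : ∀ a b : S, a ∈ maximalIdeal S → b ∈ maximalIdeal S → a * b ∈ J →
      a * b ∈ J * maximalIdeal S)
    (h3 : maximalIdeal S ^ 3 ≤ J)
    (a₀ b₀ c₀ : S) (ha₀ : a₀ ∈ maximalIdeal S) (hb₀ : b₀ ∈ maximalIdeal S)
    (hc₀ : c₀ ∈ maximalIdeal S)
    (h2 : maximalIdeal S ^ 2 ≤ J ⊔ Ideal.span {a₀ * b₀})
    (H3 : maximalIdeal S ^ 2 ≤ J * maximalIdeal S ⊔ Ideal.span {a₀ * b₀})
    (hac : a₀ * c₀ ∈ J) (hbc : b₀ * c₀ ∉ J) :
    maximalIdeal S ^ 3 ≤ J * maximalIdeal S ^ 2 := by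
  have hw2 : a₀ * b₀ ∈ maximalIdeal S ^ 2 := by
    rw [pow_two]
    exact Ideal.mul_mem_mul ha₀ hb₀
  have hunit : ∃ j0 ∈ J, ∃ u : S, IsUnit u ∧ c₀ * b₀ = j0 + u * (a₀ * b₀) := by
    have hmem : c₀ * b₀ ∈ maximalIdeal S ^ 2 := by
      rw [pow_two]
      exact Ideal.mul_mem_mul hc₀ hb₀
    obtain ⟨j0, hj0, y, hy, hsum⟩ := Submodule.mem_sup.1 (h2 hmem)
    obtain ⟨u, hu⟩ := Ideal.mem_span_singleton'.1 hy
    refine ⟨j0, hj0, u, ?_, ?_⟩
    · by_contra hnu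
      have hun : u ∈ maximalIdeal S := (IsLocalRing.mem_maximalIdeal u).2 hnu
      have h4 : u * (a₀ * b₀) ∈ J := by
        apply h3
        have h5 : u * (a₀ * b₀) ∈ maximalIdeal S * maximalIdeal S ^ 2 :=
          Ideal.mul_mem_mul hun hw2
        rwa [← pow_succ'] at h5
      apply hbc
      rw [mul_comm, ← hsum, ← hu]
      exact J.add_mem hj0 h4
    · rw [← hsum, ← hu]
  obtain ⟨j0, hj0, u, hu, hcb0⟩ := hunit
  obtain ⟨v, hv⟩ := hu.exists_left_inv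
  have hnJn : maximalIdeal S * (J * maximalIdeal S) = J * maximalIdeal S ^ 2 := by
    rw [pow_two, mul_left_comm]
  have hclaim : ∀ c ∈ maximalIdeal S, a₀ * b₀ * c ∈ J * maximalIdeal S ^ 2 := by
    intro c hc
    have hmem : c * b₀ ∈ maximalIdeal S ^ 2 := by
      rw [pow_two]
      exact Ideal.mul_mem_mul hc hb₀
    obtain ⟨j, hj, y, hy, hsum⟩ := Submodule.mem_sup.1 (h2 hmem)
    obtain ⟨p, hp⟩ := Ideal.mem_span_singleton'.1 hy
    have hc2 : c - p * v * c₀ ∈ maximalIdeal S :=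
      (maximalIdeal S).sub_mem hc ((maximalIdeal S).mul_mem_left _ hc₀)
    have hc2b : (c - p * v * c₀) * b₀ ∈ J := by
      have h5 : c * b₀ = j + p * (a₀ * b₀) := by rw [← hsum, ← hp]
      have e : (c - p * v * c₀) * b₀ = j - p * v * j0 := by
        linear_combination h5 - p * v * hcb0 - p * (a₀ * b₀) * hv
      rw [e]
      exact J.sub_mem hj (J.mul_mem_left _ hj0)
    have h6 : (c - p * v * c₀) * b₀ ∈ J * maximalIdeal S := H1 _ _ hc2 hb₀ hc2b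
    have h7 : a₀ * c₀ ∈ J * maximalIdeal S := H1 _ _ ha₀ hc₀ hac
    have h8 : a₀ * ((c - p * v * c₀) * b₀) ∈ J * maximalIdeal S ^ 2 := by
      rw [← hnJn]
      exact Ideal.mul_mem_mul ha₀ h6
    have h9 : b₀ * (a₀ * c₀) ∈ J * maximalIdeal S ^ 2 := by
      rw [← hnJn]
      exact Ideal.mul_mem_mul hb₀ h7
    have e2 : a₀ * b₀ * c = a₀ * ((c - p * v * c₀) * b₀) + (p * v) * (b₀ * (a₀ * c₀)) := by
      ring
    rw [e2]
    exact (J * maximalIdeal S ^ 2).add_mem h8 ((J * maximalIdeal S ^ 2).mul_mem_left _ h9)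
  have h10 : maximalIdeal S ^ 3 = maximalIdeal S ^ 2 * maximalIdeal S := pow_succ _ 2
  rw [h10, Ideal.mul_le]
  intro q hq c hc
  obtain ⟨q1, hq1, y, hy, hsum⟩ := Submodule.mem_sup.1 (H3 hq)
  obtain ⟨t, ht⟩ := Ideal.mem_span_singleton'.1 hy
  have e3 : q * c = q1 * c + t * (a₀ * b₀ * c) := by
    rw [← hsum, ← ht]
    ring
  rw [e3]
  have h11 : q1 * c ∈ J * maximalIdeal S ^ 2 := by
    have h12 : q1 * c ∈ J * maximalIdeal S * maximalIdeal S := Ideal.mul_mem_mul hq1 hc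
    rwa [mul_assoc, ← pow_two] at h12
  exact (J * maximalIdeal S ^ 2).add_mem h11
    ((J * maximalIdeal S ^ 2).mul_mem_left _ (hclaim c hc))

end Vale.Agent.Lib.P202.Lech
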