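import Vale.Agent.Lib.P202.Lech.QuadA
import Vale.Agent.Lib.P202.Lech.QuadB
import Vale.Agent.Lib.P202.Lech.QuadC
import Vale.Agent.Lib.P202.ReductionFibre

/-!
# Closed fibres of type `(1, ρ, 1)`: the ideal `J` is a reduction of `n`

Setting: a flat local homomorphism `(R, m) → (S, n)` of Noetherian local rings, a sequence `rs`
in `n` that is weakly regular on `S / m S`, and `J = m S + (rs)`.  Assume `n ^ 3 ≤ J`, that `n`
is not of the form `J + (x, y)`, and that there are `a b c ∈ n` with `n ^ 2 ≤ J + (a b)`,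
`a c ∈ J` and `b c ∉ J`.  Then `n ^ 3 ≤ J n ^ 2`.
-/

namespace Vale.Agent.Lib.P202.Lech

open IsLocalRing

/-- The abstract statement: an ideal `J ≤ n` with the key property. -/
theorem quad_cube_le_abstract {S : Type*} [CommRing S] [IsLocalRing S] (J : Ideal S)
    (hJ : J ≤ maximalIdeal S)
    (hKP : ∀ a b z : S, a * b ∈ J → z * b ∈ J → z ∉ Ideal.span {a} ⊔ J →
      a * b ∈ J * maximalIdeal S)
    (h3 : maximalIdeal S ^ 3 ≤ J)
    (hnp : ∀ x y : S, maximalIdeal S ≠ J ⊔ Ideal.span {x, y})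
    (a₀ b₀ c₀ : S) (ha₀ : a₀ ∈ maximalIdeal S) (hb₀ : b₀ ∈ maximalIdeal S)
    (hc₀ : c₀ ∈ maximalIdeal S)
    (h2 : maximalIdeal S ^ 2 ≤ J ⊔ Ideal.span {a₀ * b₀})
    (hac : a₀ * c₀ ∈ J) (hbc : b₀ * c₀ ∉ J) :
    maximalIdeal S ^ 3 ≤ J * maximalIdeal S ^ 2 := by
  have hw : a₀ * b₀ ∈ maximalIdeal S ^ 2 := by
    rw [pow_two]
    exact Ideal.mul_mem_mul ha₀ hb₀
  have H1 : ∀ a b : S, a ∈ maximalIdeal S → b ∈ maximalIdeal S → a * b ∈ J →
      a * b ∈ J * maximalIdeal S :=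
    fun a b ha hb hab => quadA_mul_mem J hJ hKP h3 (a₀ * b₀) hw h2 hnp a b ha hb hab
  have H3 := quadB_sq_le J H1 a₀ b₀ ha₀ hb₀ h2
  exact quadC_cube_le J H1 h3 a₀ b₀ c₀ ha₀ hb₀ hc₀ h2 H3 hac hbc

variable {R S : Type*} [CommRing R] [CommRing S] [IsLocalRing R] [IsLocalRing S]
  [Algebra R S] [IsLocalHom (algebraMap R S)]

/-- For a flat local homomorphism and `J = m S + (rs)` with `rs` weakly regular on the closed
fibre: if `S / J` is of type `(1, ρ, 1)` with `ρ ≥ 3` and a multiplication form of rank at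
least two, then `J` is a reduction of `n`, with reduction number at most two. -/
theorem quad_cube_le [IsNoetherianRing R] [IsNoetherianRing S] [Module.Flat R S]
    (rs : List S) (hmem : ∀ r ∈ rs, r ∈ maximalIdeal S)
    (hreg : RingTheory.Sequence.IsWeaklyRegular
      (S ⧸ (maximalIdeal R).map (algebraMap R S)) rs)
    (J : Ideal S) (hJ : J = (maximalIdeal R).map (algebraMap R S) ⊔ Ideal.ofList rs)
    (h3 : maximalIdeal S ^ 3 ≤ J)
    (hnp : ∀ x y : S, maximalIdeal S ≠ J ⊔ Ideal.span {x, y})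
    (a₀ b₀ c₀ : S) (ha₀ : a₀ ∈ maximalIdeal S) (hb₀ : b₀ ∈ maximalIdeal S)
    (hc₀ : c₀ ∈ maximalIdeal S)
    (h2 : maximalIdeal S ^ 2 ≤ J ⊔ Ideal.span {a₀ * b₀})
    (hac : a₀ * c₀ ∈ J) (hbc : b₀ * c₀ ∉ J) :
    maximalIdeal S ^ (2 + 1) ≤ J * maximalIdeal S ^ 2 := by
  have hyn : ∀ k : Fin rs.length, rs.get k ∈ maximalIdeal S := fun k =>
    hmem _ (List.get_mem rs k)
  have hreg' : ∀ (T : Finset (Fin rs.length)) (k : Fin rs.length), k ∉ T →
      ∀ s : S, rs.get k * s ∈ fibreIdeal R rs.get T → s ∈ fibreIdeal R rs.get T :=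
    fun T k hk s hs => regular_of_isWeaklyRegular _ rs hmem hreg T k hk s hs
  have hJ' : fibreIdeal R rs.get Finset.univ = J := by
    rw [hJ, fibreIdeal, Finset.coe_univ, Set.image_univ, Set.range_list_get]
  have hJn : J ≤ maximalIdeal S := hJ' ▸ fibreIdeal_le rs.get hyn Finset.univ
  have hKP : ∀ a b z : S, a * b ∈ J → z * b ∈ J → z ∉ Ideal.span {a} ⊔ J →
      a * b ∈ J * maximalIdeal S := by
    intro a b z hab hzb hz
    rw [← hJ'] at hab hzb hz ⊢
    exact mul_mem_fibreIdeal_mul_maximalIdeal rs.get hreg' Finset.univ hab hzb hz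
  exact quad_cube_le_abstract J hJn hKP h3 hnp a₀ b₀ c₀ ha₀ hb₀ hc₀ h2 hac hbc

end Vale.Agent.Lib.P202.Lech
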