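import Vale.Agent.Lib.P202.Lech.Classes
import Vale.Agent.Lib.P202.Lech.QuadMain

/-!
# Lech's inequality for five classes of Cohen-Macaulay closed fibres

The four classes of `Classes.lean` and a fifth one: `n ^ 3 ≤ J`, `n` is not of the form
`J + (x, y)`, and there are `a b c ∈ n` with `n ^ 2 ≤ J + (a b)`, `a c ∈ J`, `b c ∉ J`
(the Artinian ring `S / J` has Hilbert function `(1, ρ, 1)` with `ρ ≥ 3` and a multiplication
form of rank at least two; for instance it is Gorenstein with cube-zero maximal ideal and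
embedding dimension at least three).  In this case `J` is a reduction of `n`.
-/

namespace Vale.Agent.Lib.P202.Lech

open IsLocalRing Filter
open scoped ENNReal Nat Topology

universe u v

variable {R : Type v} {S : Type u} [CommRing R] [CommRing S] [IsLocalRing R] [IsLocalRing S]
  [IsNoetherianRing R] [IsNoetherianRing S] [Algebra R S] [IsLocalHom (algebraMap R S)]
  [Module.Flat R S]

/-- Lech's inequality for the five classes of closed fibres. -/
theorem lech_of_classes5 (rs : List S) (hmem : ∀ r ∈ rs, r ∈ maximalIdeal S)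
    (hreg : RingTheory.Sequence.IsWeaklyRegular
      (S ⧸ (maximalIdeal R).map (algebraMap R S)) rs)
    (J : Ideal S) (hJ : J = (maximalIdeal R).map (algebraMap R S) ⊔ Ideal.ofList rs)
    (hfin : Module.length S (S ⧸ J) ≠ ⊤)
    (h : (∃ g : Fin (rs.length + 2) → S, maximalIdeal S =
          (maximalIdeal R).map (algebraMap R S) ⊔ Ideal.span (Set.range g)) ∨
      (∃ c : ℕ, maximalIdeal S ^ (c + 1) ≤ J * maximalIdeal S ^ c) ∨
      (maximalIdeal S ^ 2 ≤ J ∧ ∀ x : S, maximalIdeal S ≠ Ideal.span {x} ⊔ J) ∨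
      Module.length S (S ⧸ J) ≤ 4 ∨
      (maximalIdeal S ^ 3 ≤ J ∧ (∀ x y : S, maximalIdeal S ≠ J ⊔ Ideal.span {x, y}) ∧
        ∃ a b c : S, a ∈ maximalIdeal S ∧ b ∈ maximalIdeal S ∧ c ∈ maximalIdeal S ∧
          maximalIdeal S ^ 2 ≤ J ⊔ Ideal.span {a * b} ∧ a * c ∈ J ∧ b * c ∉ J))
    (d : ℕ) (hd : 2 ≤ d) :
    liminf (fun N : ℕ => (d ! : ℝ≥0∞) *
        (Module.length R (R ⧸ maximalIdeal R ^ N)).toENNReal / (N : ℝ≥0∞) ^ d) atTop ≤
      liminf (fun N : ℕ => ((d + rs.length) ! : ℝ≥0∞) *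
        (Module.length S (S ⧸ maximalIdeal S ^ N)).toENNReal / (N : ℝ≥0∞) ^ (d + rs.length))
        atTop ∧
    (∀ eR eS : ℝ≥0∞,
      Tendsto (fun N : ℕ => (d ! : ℝ≥0∞) *
        (Module.length R (R ⧸ maximalIdeal R ^ N)).toENNReal / (N : ℝ≥0∞) ^ d) atTop (𝓝 eR) →
      Tendsto (fun N : ℕ => ((d + rs.length) ! : ℝ≥0∞) *
        (Module.length S (S ⧸ maximalIdeal S ^ N)).toENNReal / (N : ℝ≥0∞) ^ (d + rs.length))
        atTop (𝓝 eS) →
      eR ≤ eS) := by
  rcases h with h | h | h | h | ⟨h3, hnp, a, b, c, ha, hb, hc, h2, hac, hbc⟩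
  · exact lech_of_classes rs hmem hreg J hJ hfin (Or.inl h) d hd
  · exact lech_of_classes rs hmem hreg J hJ hfin (Or.inr (Or.inl h)) d hd
  · exact lech_of_classes rs hmem hreg J hJ hfin (Or.inr (Or.inr (Or.inl h))) d hd
  · exact lech_of_classes rs hmem hreg J hJ hfin (Or.inr (Or.inr (Or.inr h))) d hd
  · exact lech_of_classes rs hmem hreg J hJ hfin
      (Or.inr (Or.inl ⟨2, quad_cube_le rs hmem hreg J hJ h3 hnp a b c ha hb hc h2 hac hbc⟩))
      d hd

end Vale.Agent.Lib.P202.Lech
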