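import Vale.Agent.Lib.P202.Lech.Defs

/-!
# Generic length identities for colon ideals

Elementary identities for lengths of cyclic modules `A / I` over a commutative ring.
-/

namespace Vale.Agent.Lib.P202.Lech

open IsLocalRing

universe u

variable {A : Type u} [CommRing A]

/-- Generic short exact sequence `0 → A / Q0 → A / Q → A / Q1 → 0` whose first map is
multiplication by `y`. -/
lemma colon_length_exact (Q0 Q Q1 : Ideal A) (y : A) (hle : Q ≤ Q1)
    (hmul : ∀ a ∈ Q0, y * a ∈ Q) (hcol : ∀ u : A, y * u ∈ Q → u ∈ Q0)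
    (hQ1 : ∀ s ∈ Q1, ∃ a : A, y * a - s ∈ Q) (hyQ1 : ∀ a : A, y * a ∈ Q1) :
    Module.length A (A ⧸ Q) = Module.length A (A ⧸ Q0) + Module.length A (A ⧸ Q1) := by
  have hcomap : Q0 ≤ Submodule.comap (LinearMap.mulLeft A y) Q := by
    intro a ha
    rw [Submodule.mem_comap]
    exact hmul a ha
  have hinj : Function.Injective (Submodule.mapQ Q0 Q (LinearMap.mulLeft A y) hcomap) := by
    rw [injective_iff_map_eq_zero]
    intro x hx
    obtain ⟨s, rfl⟩ := Submodule.Quotient.mk_surjective _ x
    rw [Submodule.mapQ_apply, Submodule.Quotient.mk_eq_zero] at hx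
    rw [Submodule.Quotient.mk_eq_zero]
    exact hcol s hx
  have hexact : Function.Exact (Submodule.mapQ Q0 Q (LinearMap.mulLeft A y) hcomap)
      (Submodule.factor hle) := by
    intro x
    obtain ⟨s, rfl⟩ := Submodule.Quotient.mk_surjective _ x
    constructor
    · intro hx
      have hx2 : (Submodule.Quotient.mk s : A ⧸ Q1) = 0 := hx
      rw [Submodule.Quotient.mk_eq_zero] at hx2
      obtain ⟨a, ha⟩ := hQ1 s hx2
      refine ⟨Submodule.Quotient.mk a, ?_⟩
      rw [Submodule.mapQ_apply, Submodule.Quotient.eq]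
      exact ha
    · rintro ⟨x', hx'⟩
      obtain ⟨a, rfl⟩ := Submodule.Quotient.mk_surjective _ x'
      rw [← hx', Submodule.mapQ_apply]
      change (Submodule.Quotient.mk ((LinearMap.mulLeft A y) a) : A ⧸ Q1) = 0
      rw [Submodule.Quotient.mk_eq_zero, LinearMap.mulLeft_apply]
      exact hyQ1 a
  exact Module.length_eq_add_of_exact _ _ hinj (Submodule.factor_surjective hle) hexact

/-- Membership in a colon ideal by a single element, in multiplicative form. -/
lemma colon_mem_iff (I : Ideal A) (y r : A) : r ∈ I.colon {y} ↔ y * r ∈ I := by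
  rw [Submodule.mem_colon_singleton, smul_eq_mul, mul_comm]

/-- `length (A / (I + (y))) + length (A / (I : y)) = length (A / I)`; from the exact sequence
`0 → A / (I : y) → A / I → A / (I + (y)) → 0` whose first map is multiplication by `y`. -/
lemma length_quot_colon_add (I : Ideal A) (y : A) :
    Module.length A (A ⧸ (I ⊔ Ideal.span {y})) + Module.length A (A ⧸ I.colon {y}) =
      Module.length A (A ⧸ I) := by
  rw [add_comm]
  symm
  refine colon_length_exact (I.colon {y}) I (I ⊔ Ideal.span {y}) y le_sup_left ?_ ?_ ?_ ?_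
  · intro a ha
    exact (colon_mem_iff I y a).mp ha
  · intro u hu
    exact (colon_mem_iff I y u).mpr hu
  · intro s hs
    obtain ⟨p, hp, c, hc, hpc⟩ := Submodule.mem_sup.mp hs
    obtain ⟨a, hap⟩ := Ideal.mem_span_singleton'.mp hc
    refine ⟨a, ?_⟩
    have h1 : y * a - s = -p := by
      rw [← hpc, ← hap]
      ring
    rw [h1]
    exact neg_mem hp
  · intro a
    exact Ideal.mem_sup_right (Ideal.mul_mem_right _ _ (Ideal.mem_span_singleton_self y))

/-- `length (A / (I + y 𝔞)) = length (A / ((I : y) + 𝔞)) + length (A / (I + (y)))`; from the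
exact sequence `0 → A / ((I : y) + 𝔞) → A / (I + y 𝔞) → A / (I + (y)) → 0`. -/
lemma length_quot_colon_add' (I 𝔞 : Ideal A) (y : A) :
    Module.length A (A ⧸ (I ⊔ Ideal.span {y} * 𝔞)) =
      Module.length A (A ⧸ (I.colon {y} ⊔ 𝔞)) +
        Module.length A (A ⧸ (I ⊔ Ideal.span {y})) := by
  refine colon_length_exact (I.colon {y} ⊔ 𝔞) (I ⊔ Ideal.span {y} * 𝔞) (I ⊔ Ideal.span {y}) y
    (sup_le_sup_left Ideal.mul_le_left I) ?_ ?_ ?_ ?_
  · intro a ha
    obtain ⟨t, ht, t', ht', rfl⟩ := Submodule.mem_sup.mp ha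
    rw [mul_add]
    refine Ideal.add_mem _ (Ideal.mem_sup_left ((colon_mem_iff I y t).mp ht)) ?_
    exact Ideal.mem_sup_right (Ideal.mem_span_singleton_mul.mpr ⟨t', ht', rfl⟩)
  · intro u hu
    obtain ⟨p, hp, c, hc, hpc⟩ := Submodule.mem_sup.mp hu
    obtain ⟨t', ht', hyt⟩ := Ideal.mem_span_singleton_mul.mp hc
    have h1 : y * (u - t') = p := by
      rw [mul_sub, ← hpc, hyt]
      ring
    have h2 : u - t' ∈ I.colon {y} := by
      rw [colon_mem_iff, h1]
      exact hp
    have h3 : u = (u - t') + t' := by ring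
    rw [h3]
    exact Ideal.add_mem _ (Ideal.mem_sup_left h2) (Ideal.mem_sup_right ht')
  · intro s hs
    obtain ⟨p, hp, c, hc, hpc⟩ := Submodule.mem_sup.mp hs
    obtain ⟨a, hap⟩ := Ideal.mem_span_singleton'.mp hc
    refine ⟨a, ?_⟩
    have h1 : y * a - s = -p := by
      rw [← hpc, ← hap]
      ring
    rw [h1]
    exact neg_mem (Ideal.mem_sup_left hp)
  · intro a
    exact Ideal.mem_sup_right (Ideal.mul_mem_right _ _ (Ideal.mem_span_singleton_self y))

/-- `length (A / (P ∩ Q)) + length (A / (P + Q)) = length (A / P) + length (A / Q)`. -/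
lemma length_quot_inf_add_sup (P Q : Ideal A) :
    Module.length A (A ⧸ (P ⊓ Q)) + Module.length A (A ⧸ (P ⊔ Q)) =
      Module.length A (A ⧸ P) + Module.length A (A ⧸ Q) := by
  let f : (A ⧸ (P ⊓ Q)) →ₗ[A] (A ⧸ P) × (A ⧸ Q) :=
    LinearMap.prod (Submodule.factor (inf_le_left : P ⊓ Q ≤ P))
      (Submodule.factor (inf_le_right : P ⊓ Q ≤ Q))
  let g : (A ⧸ P) × (A ⧸ Q) →ₗ[A] A ⧸ (P ⊔ Q) :=
    LinearMap.coprod (Submodule.factor (le_sup_left : P ≤ P ⊔ Q))
      (-Submodule.factor (le_sup_right : Q ≤ P ⊔ Q))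
  have hf : ∀ a : A, f (Submodule.Quotient.mk a)
      = ((Submodule.Quotient.mk a : A ⧸ P), (Submodule.Quotient.mk a : A ⧸ Q)) := fun a => rfl
  have hg : ∀ a b : A, g ((Submodule.Quotient.mk a : A ⧸ P), (Submodule.Quotient.mk b : A ⧸ Q))
      = (Submodule.Quotient.mk (a - b) : A ⧸ (P ⊔ Q)) := by
    intro a b
    show (Submodule.Quotient.mk a : A ⧸ (P ⊔ Q)) + -(Submodule.Quotient.mk b : A ⧸ (P ⊔ Q))
      = Submodule.Quotient.mk (a - b)
    rw [Submodule.Quotient.mk_sub, sub_eq_add_neg]
  have hinj : Function.Injective f := by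
    rw [injective_iff_map_eq_zero]
    intro x hx
    obtain ⟨a, rfl⟩ := Submodule.Quotient.mk_surjective _ x
    rw [hf a, Prod.mk_eq_zero, Submodule.Quotient.mk_eq_zero, Submodule.Quotient.mk_eq_zero] at hx
    rw [Submodule.Quotient.mk_eq_zero]
    exact ⟨hx.1, hx.2⟩
  have hsurj : Function.Surjective g := by
    intro z
    obtain ⟨a, rfl⟩ := Submodule.Quotient.mk_surjective _ z
    refine ⟨((Submodule.Quotient.mk a : A ⧸ P), (Submodule.Quotient.mk (0 : A) : A ⧸ Q)), ?_⟩
    rw [hg, sub_zero]
  have hexact : Function.Exact f g := by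
    rintro ⟨x1, x2⟩
    obtain ⟨a, rfl⟩ := Submodule.Quotient.mk_surjective _ x1
    obtain ⟨b, rfl⟩ := Submodule.Quotient.mk_surjective _ x2
    constructor
    · intro hx
      rw [hg, Submodule.Quotient.mk_eq_zero] at hx
      obtain ⟨p, hp, q, hq, hpq⟩ := Submodule.mem_sup.mp hx
      refine ⟨Submodule.Quotient.mk (a - p), ?_⟩
      rw [hf]
      refine Prod.ext ?_ ?_
      · show (Submodule.Quotient.mk (a - p) : A ⧸ P) = Submodule.Quotient.mk a
        rw [Submodule.Quotient.eq]
        have : a - p - a = -p := by ring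
        rw [this]
        exact neg_mem hp
      · show (Submodule.Quotient.mk (a - p) : A ⧸ Q) = Submodule.Quotient.mk b
        rw [Submodule.Quotient.eq]
        have : a - p - b = q := by linear_combination -hpq
        rw [this]
        exact hq
    · rintro ⟨z, hz⟩
      obtain ⟨c, rfl⟩ := Submodule.Quotient.mk_surjective _ z
      rw [hf] at hz
      have h1 : (Submodule.Quotient.mk c : A ⧸ P) = Submodule.Quotient.mk a :=
        congrArg Prod.fst hz
      have h2 : (Submodule.Quotient.mk c : A ⧸ Q) = Submodule.Quotient.mk b :=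
        congrArg Prod.snd hz
      rw [Submodule.Quotient.eq] at h1 h2
      rw [hg, Submodule.Quotient.mk_eq_zero]
      have : a - b = -(c - a) + (c - b) := by ring
      rw [this]
      exact Ideal.add_mem _ (Ideal.mem_sup_left (neg_mem h1)) (Ideal.mem_sup_right h2)
  have h := Module.length_eq_add_of_exact f g hinj hsurj hexact
  rw [Module.length_prod] at h
  exact h.symm

/-- If `𝔮 v ⊆ J` then `length (A / J) ≤ length (A / (J + (v))) + length (A / 𝔮)`. -/
lemma length_quot_le_add_of_mul_le (J 𝔮 : Ideal A) (v : A)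
    (h : ∀ q ∈ 𝔮, q * v ∈ J) :
    Module.length A (A ⧸ J) ≤
      Module.length A (A ⧸ (J ⊔ Ideal.span {v})) + Module.length A (A ⧸ 𝔮) := by
  have hle : 𝔮 ≤ J.colon {v} := by
    intro q hq
    rw [colon_mem_iff, mul_comm]
    exact h q hq
  have h1 := Vale.Agent.Lib.P202.length_quot_anti hle
  rw [← length_quot_colon_add J v]
  gcongr

/-- Iterated colon: the colon of `I : x^k` by `x` is `I : x^(k+1)`. -/
lemma colon_colon_pow (I : Ideal A) (x : A) (k : ℕ) :
    (I.colon {x ^ k}).colon {x} = I.colon {x ^ (k + 1)} := by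
  ext r
  rw [colon_mem_iff, colon_mem_iff, colon_mem_iff, pow_succ]
  have : x ^ k * (x * r) = x ^ k * x * r := by ring
  rw [this]

/-- Partial staircase identity, valid for every `n`. -/
lemma colon_sum_partial (I : Ideal A) (x : A) (n : ℕ) :
    Module.length A (A ⧸ I) =
      ∑ k ∈ Finset.range n, Module.length A (A ⧸ (I.colon {x ^ k} ⊔ Ideal.span {x}))
        + Module.length A (A ⧸ I.colon {x ^ n}) := by
  induction n with
  | zero =>
    have h0 : I.colon {x ^ 0} = I := by
      ext r
      rw [colon_mem_iff, pow_zero, one_mul]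
    rw [Finset.range_zero, Finset.sum_empty, zero_add, h0]
  | succ n ih =>
    rw [Finset.sum_range_succ, add_assoc, ← colon_colon_pow I x n,
      length_quot_colon_add (I.colon {x ^ n}) x]
    exact ih

/-- The staircase identity: if `x ^ K ∈ I` then
`length (A / I) = ∑_{k < K} length (A / ((I : x^k) + (x)))`. -/
lemma length_quot_eq_sum_colon (I : Ideal A) (x : A) (K : ℕ) (hK : x ^ K ∈ I) :
    Module.length A (A ⧸ I) =
      ∑ k ∈ Finset.range K, Module.length A (A ⧸ (I.colon {x ^ k} ⊔ Ideal.span {x})) := by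
  have htop : I.colon {x ^ K} = ⊤ := by
    rw [Ideal.eq_top_iff_one, colon_mem_iff, mul_one]
    exact hK
  have h0 : Module.length A (A ⧸ I.colon {x ^ K}) = 0 := by
    rw [Module.length_eq_zero_iff, Ideal.Quotient.subsingleton_iff]
    exact htop
  rw [colon_sum_partial I x K, h0, add_zero]

/-- A proper ideal of a local ring has a quotient of length at least one. -/
lemma colon_one_le_length [IsLocalRing A] (J : Ideal A) (hJ : J ≠ ⊤) :
    (1 : ℕ∞) ≤ Module.length A (A ⧸ J) := by
  have hnt : Nontrivial (A ⧸ J) := Ideal.Quotient.nontrivial_iff.mpr hJ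
  exact Order.one_le_iff_pos.mpr Module.length_pos

/-- Socle element: if `A / I` is nonzero of finite length then some `a ∉ I` satisfies
`n a ⊆ I`. -/
lemma colon_exists_socle [IsLocalRing A] (I : Ideal A) (n : ℕ) :
    ∀ b : A, b ∉ I → Module.length A (A ⧸ I.colon {b}) ≤ (n : ℕ∞) →
      ∃ a : A, a ∉ I ∧ ∀ m ∈ maximalIdeal A, m * a ∈ I := by
  induction n with
  | zero =>
    intro b hb hlen
    exfalso
    have hne : I.colon {b} ≠ ⊤ := by
      intro htop
      apply hb
      have h1 : (1 : A) ∈ I.colon {b} := by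
        rw [htop]
        exact Submodule.mem_top
      rw [colon_mem_iff, mul_one] at h1
      exact h1
    have h1 := colon_one_le_length (I.colon {b}) hne
    have h2 : (1 : ℕ∞) ≤ 0 := by
      calc (1 : ℕ∞) ≤ Module.length A (A ⧸ I.colon {b}) := h1
        _ ≤ ((0 : ℕ) : ℕ∞) := hlen
        _ = 0 := by norm_num
    exact absurd h2 (by norm_num)
  | succ n ih =>
    intro b hb hlen
    by_cases hall : ∀ m ∈ maximalIdeal A, m * b ∈ I
    · exact ⟨b, hb, hall⟩
    · obtain ⟨m, hm⟩ := not_forall.mp hall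
      obtain ⟨hmm, hmb⟩ := Classical.not_imp.mp hm
      have hne : I.colon {b} ≠ ⊤ := by
        intro htop
        apply hb
        have h1 : (1 : A) ∈ I.colon {b} := by
          rw [htop]
          exact Submodule.mem_top
        rw [colon_mem_iff, mul_one] at h1
        exact h1
      have hle : I.colon {b} ⊔ Ideal.span {m} ≤ maximalIdeal A :=
        sup_le (le_maximalIdeal hne) ((Ideal.span_singleton_le_iff_mem _).mpr hmm)
      have hne2 : I.colon {b} ⊔ Ideal.span {m} ≠ ⊤ := by
        intro htop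
        rw [htop] at hle
        exact (maximalIdeal.isMaximal A).ne_top (top_le_iff.mp hle)
      have h1 := colon_one_le_length _ hne2
      have hcc : (I.colon {b}).colon {m} = I.colon {m * b} := by
        ext r
        rw [colon_mem_iff, colon_mem_iff, colon_mem_iff]
        have : b * (m * r) = m * b * r := by ring
        rw [this]
      have h2 := length_quot_colon_add (I.colon {b}) m
      rw [hcc] at h2
      have h3 : Module.length A (A ⧸ I.colon {m * b}) + 1 ≤ ((n : ℕ∞) + 1) := by
        calc Module.length A (A ⧸ I.colon {m * b}) + 1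
            ≤ Module.length A (A ⧸ I.colon {m * b})
              + Module.length A (A ⧸ (I.colon {b} ⊔ Ideal.span {m})) := by gcongr
          _ = Module.length A (A ⧸ I.colon {b}) := by rw [add_comm, h2]
          _ ≤ ((n + 1 : ℕ) : ℕ∞) := hlen
          _ = (n : ℕ∞) + 1 := by norm_num
      have h4 : Module.length A (A ⧸ I.colon {m * b}) ≤ (n : ℕ∞) :=
        (ENat.add_le_add_iff_right ENat.one_ne_top).mp h3
      exact ih (m * b) hmb h4

/-- Loewy length: in a local ring, `n ^ L ⊆ I` as soon as `length (A / I) ≤ L`. -/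
lemma maximalIdeal_pow_le_of_length_le [IsLocalRing A] (I : Ideal A) (L : ℕ)
    (h : Module.length A (A ⧸ I) ≤ (L : ℕ∞)) : maximalIdeal A ^ L ≤ I := by
  induction L generalizing I with
  | zero =>
    have h0 : Module.length A (A ⧸ I) = 0 := by
      have : Module.length A (A ⧸ I) ≤ 0 := by
        calc Module.length A (A ⧸ I) ≤ ((0 : ℕ) : ℕ∞) := h
          _ = 0 := by norm_num
      exact le_antisymm this zero_le
    rw [Module.length_eq_zero_iff, Ideal.Quotient.subsingleton_iff] at h0
    rw [h0]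
    exact le_top
  | succ L ih =>
    by_cases htop : I = ⊤
    · rw [htop]
      exact le_top
    · have h1I : (1 : A) ∉ I := fun h1 => htop ((Ideal.eq_top_iff_one I).mpr h1)
      have hcolon1 : I.colon {(1 : A)} = I := by
        ext r
        rw [colon_mem_iff, one_mul]
      have hlen1 : Module.length A (A ⧸ I.colon {(1 : A)}) ≤ ((L + 1 : ℕ) : ℕ∞) := by
        rw [hcolon1]
        exact h
      obtain ⟨a, haI, ha⟩ := colon_exists_socle I (L + 1) 1 h1I hlen1
      have hlt : I < I ⊔ Ideal.span {a} := by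
        refine lt_of_le_of_ne le_sup_left ?_
        intro heq
        apply haI
        rw [heq]
        exact Ideal.mem_sup_right (Ideal.mem_span_singleton_self a)
      have h2 := Vale.Agent.Lib.P202.length_quot_add_one_le hlt
      have h3 : Module.length A (A ⧸ (I ⊔ Ideal.span {a})) + 1 ≤ (L : ℕ∞) + 1 := by
        calc Module.length A (A ⧸ (I ⊔ Ideal.span {a})) + 1 ≤ Module.length A (A ⧸ I) := h2
          _ ≤ ((L + 1 : ℕ) : ℕ∞) := h
          _ = (L : ℕ∞) + 1 := by norm_num
      have h4 : Module.length A (A ⧸ (I ⊔ Ideal.span {a})) ≤ (L : ℕ∞) :=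
        (ENat.add_le_add_iff_right ENat.one_ne_top).mp h3
      have h5 := ih (I ⊔ Ideal.span {a}) h4
      rw [pow_succ]
      rw [Ideal.mul_le]
      intro r hr s hs
      obtain ⟨p, hp, c, hc, rfl⟩ := Submodule.mem_sup.mp (h5 hr)
      obtain ⟨t, rfl⟩ := Ideal.mem_span_singleton'.mp hc
      have : (p + t * a) * s = p * s + t * (s * a) := by ring
      rw [this]
      exact Ideal.add_mem _ (Ideal.mul_mem_right _ _ hp) (Ideal.mul_mem_left _ _ (ha s hs))

end Vale.Agent.Lib.P202.Lech
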