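import Vale.Agent.Lib.P202.Lech.EmbTwoMain

/-!
# The statement carried along the induction on the dimension of the closed fibre
-/

namespace Vale.Agent.Lib.P202.Lech

open IsLocalRing Filter
open scoped ENNReal Nat Topology

universe u v

/-- The statement carried along the induction on the dimension of the closed fibre: either the
normalised Hilbert-Samuel function of `R` (of order `d`) has upper limit at most `κ e` while the
Hilbert-Samuel function of `S` has the lower bound of order `δ` with leading coefficient `e`,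
or the Hilbert-Samuel function of `S` grows faster than every multiple of `N^δ`. -/
def Concl (R : Type v) (S : Type u) [CommRing R] [IsLocalRing R] [CommRing S] [IsLocalRing S]
    (d δ κ : ℕ) : Prop :=
  (∃ e : ℕ, limsup (fun N : ℕ => (d ! : ℝ≥0∞) *
      (Module.length R (R ⧸ maximalIdeal R ^ N)).toENNReal / (N : ℝ≥0∞) ^ d) atTop ≤
        ((κ * e : ℕ) : ℝ≥0∞) ∧ LowerHS S δ e) ∨ ∀ E : ℕ, LowerHS S δ E

section general

variable {R : Type v} {S : Type u} [CommRing R] [CommRing S] [IsLocalRing R] [IsLocalRing S]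
  [IsNoetherianRing S]

/-- The statement `Concl` passes from `S / (z)` to `S` for a superficial element `z`, raising
the order on the side of `S` by one. -/
theorem concl_succ (z : S) (c : ℕ) (hz : Superficial S z c) [IsLocalRing (S ⧸ Ideal.span {z})]
    (d δ κ : ℕ) (hδ : 1 ≤ δ) (h : Concl R (S ⧸ Ideal.span {z}) d δ κ) :
    Concl R S d (δ + 1) κ := by
  obtain ⟨C, hC⟩ := ENat.ne_top_iff_exists.mp
    (Vale.Agent.Lib.P202.length_quot_pow_ne_top S c)
  have ha : ∀ N : ℕ, Module.length S (S ⧸ (maximalIdeal S ^ (N + 1) ⊔ Ideal.span {z})) +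
      Module.length S (S ⧸ maximalIdeal S ^ N) ≤
      Module.length S (S ⧸ maximalIdeal S ^ (N + 1)) + (C : ℕ∞) := by
    intro N
    rw [hC]
    exact superficial_bound_quot z c hz N
  rcases h with ⟨e, h1, h2⟩ | hall
  · exact Or.inl ⟨e, h1, lowerHS_succ z δ e C hδ ha h2⟩
  · exact Or.inr (fun E => lowerHS_succ z δ E C hδ ha (hall E))

omit [IsNoetherianRing S] in
/-- From `Concl` to the inequality between the upper limit for `R` and the lower limit for
`S`. -/
theorem limsup_le_of_concl (d δ κ : ℕ) (hδ : 1 ≤ δ) (hκ : κ ≠ 0) (h : Concl R S d δ κ) :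
    limsup (fun N : ℕ => (d ! : ℝ≥0∞) *
        (Module.length R (R ⧸ maximalIdeal R ^ N)).toENNReal / (N : ℝ≥0∞) ^ d) atTop ≤
      (κ : ℝ≥0∞) * liminf (fun N : ℕ => (δ ! : ℝ≥0∞) *
        (Module.length S (S ⧸ maximalIdeal S ^ N)).toENNReal / (N : ℝ≥0∞) ^ δ) atTop := by
  have hlim : ∀ E : ℕ, LowerHS S δ E → (E : ℝ≥0∞) ≤ liminf (fun N : ℕ => (δ ! : ℝ≥0∞) *
      (Module.length S (S ⧸ maximalIdeal S ^ N)).toENNReal / (N : ℝ≥0∞) ^ δ) atTop := by
    rintro E ⟨K, hK⟩
    exact le_liminf_of_lower δ E K hδ _ hK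
  rcases h with ⟨e, h1, h2⟩ | hall
  · refine h1.trans ?_
    rw [Nat.cast_mul]
    gcongr
    exact hlim e h2
  · have htop : liminf (fun N : ℕ => (δ ! : ℝ≥0∞) *
        (Module.length S (S ⧸ maximalIdeal S ^ N)).toENNReal / (N : ℝ≥0∞) ^ δ) atTop = ⊤ :=
      ENNReal.eq_top_of_forall_nnreal_le (fun r => by
        obtain ⟨E, hE⟩ := exists_nat_ge r
        calc (r : ℝ≥0∞) ≤ ((E : NNReal) : ℝ≥0∞) := ENNReal.coe_le_coe.mpr hE
          _ = (E : ℝ≥0∞) := ENNReal.coe_natCast E
          _ ≤ _ := hlim E (hall E))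
    rw [htop, ENNReal.mul_top]
    · exact le_top
    · exact_mod_cast hκ

end general

section base

variable {R : Type v} {S : Type u} [CommRing R] [CommRing S] [IsLocalRing R] [IsLocalRing S]
  [IsNoetherianRing R] [IsNoetherianRing S] [Algebra R S] [IsLocalHom (algebraMap R S)]
  [Module.Flat R S]

/-- Base case with the factor `(d - 1)!`: closed fibre of finite length. -/
theorem concl_factorial
    (hfib : Module.length S (S ⧸ (maximalIdeal R).map (algebraMap R S)) ≠ ⊤)
    [Infinite (ResidueField S)] (d : ℕ) (hd : 2 ≤ d) : Concl R S d d (d - 1)! := by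
  obtain ⟨y, c₀, hyc⟩ := exists_superficial S
  have hyn := hyc.1
  have hloc : IsLocalRing (S ⧸ Ideal.span {y}) :=
    Vale.Agent.Lib.P202.isLocalRing_quotient_span hyn
  have hinfT : Infinite (ResidueField (S ⧸ Ideal.span {y})) :=
    infinite_residueField_quotient _
  obtain ⟨C, hC⟩ := ENat.ne_top_iff_exists.mp
    (Vale.Agent.Lib.P202.length_quot_pow_ne_top S c₀)
  have ha : ∀ N : ℕ, Module.length S (S ⧸ (maximalIdeal S ^ (N + 1) ⊔ Ideal.span {y})) +
      Module.length S (S ⧸ maximalIdeal S ^ N) ≤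
      Module.length S (S ⧸ maximalIdeal S ^ (N + 1)) + (C : ℕ∞) := by
    intro N
    rw [hC]
    exact superficial_bound_quot y c₀ hyc N
  have hd1 : d - 1 + 1 = d := by omega
  have hgood := good (d - 1) (by omega) (S ⧸ Ideal.span {y})
  have hlow : ∀ E : ℕ, LowerHS (S ⧸ Ideal.span {y}) (d - 1) E → LowerHS S d E := by
    intro E h
    have h1 := lowerHS_succ y (d - 1) E C (by omega) ha h
    rw [hd1] at h1
    exact h1
  rcases hgood with ⟨e, b, hml, hlowT⟩ | hall
  · refine Or.inl ⟨e, ?_, hlow e hlowT⟩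
    apply limsup_le_of_step d e b hd (fun N => Module.length R (R ⧸ maximalIdeal R ^ N))
    · rw [Module.length_eq_zero_iff, Ideal.Quotient.subsingleton_iff, pow_zero,
        Ideal.one_eq_top]
    · intro N
      exact step_of_mlBound hfib y hyn d e b hd hml N
  · exact Or.inr (fun E => hlow E (hall E))

/-- Base case with the factor `1`: closed fibre of finite length and embedding dimension at most
two. -/
theorem concl_embTwo
    (hfib : Module.length S (S ⧸ (maximalIdeal R).map (algebraMap R S)) ≠ ⊤)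
    [Infinite (ResidueField S)] (a b : S)
    (hab : maximalIdeal S = (maximalIdeal R).map (algebraMap R S) ⊔ Ideal.span {a, b})
    (d : ℕ) (hd : 2 ≤ d) : Concl R S d d 1 := by
  rcases Nat.lt_or_ge d 3 with hd3 | hd3
  · have hd2 : d = 2 := by omega
    subst hd2
    exact concl_factorial (R := R) (S := S) hfib 2 le_rfl
  obtain ⟨y, hy, v, c₁, c₂, hsy, hsv, hn⟩ :=
    exists_superficial_pair S ((maximalIdeal R).map (algebraMap R S)) a b hab
  have hlocT : IsLocalRing (S ⧸ Ideal.span {y}) :=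
    Vale.Agent.Lib.P202.isLocalRing_quotient_span hy
  have hinfT : Infinite (ResidueField (S ⧸ Ideal.span {y})) :=
    infinite_residueField_quotient _
  have hsv' : Superficial (S ⧸ Ideal.span {y}) (Ideal.Quotient.mk (Ideal.span {y}) v) c₂ := hsv
  have hvT : Ideal.Quotient.mk (Ideal.span {y}) v ∈ maximalIdeal (S ⧸ Ideal.span {y}) := hsv'.1
  have hlocU : IsLocalRing ((S ⧸ Ideal.span {y}) ⧸
      Ideal.span {Ideal.Quotient.mk (Ideal.span {y}) v}) :=
    Vale.Agent.Lib.P202.isLocalRing_quotient_span hvT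
  have hinfU : Infinite (ResidueField ((S ⧸ Ideal.span {y}) ⧸
      Ideal.span {Ideal.Quotient.mk (Ideal.span {y}) v})) :=
    infinite_residueField_quotient _
  obtain ⟨C₁, hC₁⟩ := ENat.ne_top_iff_exists.mp
    (Vale.Agent.Lib.P202.length_quot_pow_ne_top S c₁)
  obtain ⟨C₂, hC₂⟩ := ENat.ne_top_iff_exists.mp
    (Vale.Agent.Lib.P202.length_quot_pow_ne_top (S ⧸ Ideal.span {y}) c₂)
  have ha₁ : ∀ N : ℕ, Module.length S (S ⧸ (maximalIdeal S ^ (N + 1) ⊔ Ideal.span {y})) +
      Module.length S (S ⧸ maximalIdeal S ^ N) ≤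
      Module.length S (S ⧸ maximalIdeal S ^ (N + 1)) + (C₁ : ℕ∞) := by
    intro N
    rw [hC₁]
    exact superficial_bound_quot y c₁ hsy N
  have ha₂ : ∀ N : ℕ, Module.length (S ⧸ Ideal.span {y}) ((S ⧸ Ideal.span {y}) ⧸
        (maximalIdeal (S ⧸ Ideal.span {y}) ^ (N + 1) ⊔
          Ideal.span {Ideal.Quotient.mk (Ideal.span {y}) v})) +
      Module.length (S ⧸ Ideal.span {y})
        ((S ⧸ Ideal.span {y}) ⧸ maximalIdeal (S ⧸ Ideal.span {y}) ^ N) ≤
      Module.length (S ⧸ Ideal.span {y})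
        ((S ⧸ Ideal.span {y}) ⧸ maximalIdeal (S ⧸ Ideal.span {y}) ^ (N + 1)) + (C₂ : ℕ∞) := by
    intro N
    rw [hC₂]
    exact superficial_bound_quot _ c₂ hsv' N
  have hd2 : d - 2 + 1 + 1 = d := by omega
  have hgood := sharpGood (d - 2) (by omega) ((S ⧸ Ideal.span {y}) ⧸
      Ideal.span {Ideal.Quotient.mk (Ideal.span {y}) v})
  have hlow : ∀ E : ℕ, LowerHS ((S ⧸ Ideal.span {y}) ⧸
      Ideal.span {Ideal.Quotient.mk (Ideal.span {y}) v}) (d - 2) E → LowerHS S d E := by
    intro E h
    have h1 := lowerHS_succ (Ideal.Quotient.mk (Ideal.span {y}) v) (d - 2) E C₂ (by omega) ha₂ h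
    have h2 := lowerHS_succ y (d - 2 + 1) E C₁ (by omega) ha₁ h1
    rw [hd2] at h2
    exact h2
  rcases hgood with ⟨e, b, hup, hlowU⟩ | hall
  · refine Or.inl ⟨e, ?_, hlow e hlowU⟩
    rw [one_mul]
    apply limsup_le_of_step_sum d e b hd3
      (fun N => Module.length R (R ⧸ maximalIdeal R ^ N))
      (fun j => Module.length S (S ⧸ (maximalIdeal S ^ j ⊔ Ideal.span {v} ⊔ Ideal.span {y})))
    · rw [Module.length_eq_zero_iff, Ideal.Quotient.subsingleton_iff, pow_zero,
        Ideal.one_eq_top]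
    · intro j
      have h3 := hup j
      rw [length_quotient_quotient_pow y v hy j] at h3
      exact h3
    · intro N
      exact emb_two_step hfib y v hn N
  · exact Or.inr (fun E => hlow E (hall E))

end base

end Vale.Agent.Lib.P202.Lech
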