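import Vale.Agent.Lib.P202.Lech.Concl

/-!
# The statement carried along the induction, for an arbitrary length function
-/

namespace Vale.Agent.Lib.P202.Lech

open IsLocalRing Filter
open scoped ENNReal Nat Topology

universe u v

/-- Lower bound of order `δ` with leading coefficient `E` for a function `h : ℕ → ℕ∞`:
`E N^δ ≤ δ! h(N) + K N^(δ-1)` for some constant `K` and all `N`. -/
def LowerFn (h : ℕ → ℕ∞) (δ E : ℕ) : Prop :=
  ∃ K : ℕ, ∀ N : ℕ, ((E * N ^ δ : ℕ) : ℕ∞) ≤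
    (δ.factorial : ℕ∞) * h N + ((K * N ^ (δ - 1) : ℕ) : ℕ∞)

/-- The statement `Concl` with the Hilbert-Samuel function of `S` replaced by an arbitrary
function `h`. -/
def ConclFn (R : Type v) [CommRing R] [IsLocalRing R] (h : ℕ → ℕ∞) (d δ κ : ℕ) : Prop :=
  (∃ e : ℕ, limsup (fun N : ℕ => (d ! : ℝ≥0∞) *
      (Module.length R (R ⧸ maximalIdeal R ^ N)).toENNReal / (N : ℝ≥0∞) ^ d) atTop ≤
        ((κ * e : ℕ) : ℝ≥0∞) ∧ LowerFn h δ e) ∨ ∀ E : ℕ, LowerFn h δ E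

variable {R : Type v} [CommRing R] [IsLocalRing R]

lemma concl_iff_conclFn {S : Type u} [CommRing S] [IsLocalRing S] (d δ κ : ℕ) :
    Concl R S d δ κ ↔
      ConclFn R (fun N => Module.length S (S ⧸ maximalIdeal S ^ N)) d δ κ := Iff.rfl

/-- From `ConclFn` to the inequality between the upper limit for `R` and the lower limit of
the normalised function `h`. -/
theorem limsup_le_of_conclFn (h : ℕ → ℕ∞) (d δ κ : ℕ) (hδ : 1 ≤ δ) (hκ : κ ≠ 0)
    (hc : ConclFn R h d δ κ) :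
    limsup (fun N : ℕ => (d ! : ℝ≥0∞) *
        (Module.length R (R ⧸ maximalIdeal R ^ N)).toENNReal / (N : ℝ≥0∞) ^ d) atTop ≤
      (κ : ℝ≥0∞) * liminf (fun N : ℕ => (δ ! : ℝ≥0∞) * (h N).toENNReal / (N : ℝ≥0∞) ^ δ)
        atTop := by
  have hlim : ∀ E : ℕ, LowerFn h δ E → (E : ℝ≥0∞) ≤ liminf (fun N : ℕ => (δ ! : ℝ≥0∞) *
      (h N).toENNReal / (N : ℝ≥0∞) ^ δ) atTop := by
    rintro E ⟨K, hK⟩
    exact le_liminf_of_lower δ E K hδ _ hK
  rcases hc with ⟨e, h1, h2⟩ | hall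
  · refine h1.trans ?_
    rw [Nat.cast_mul]
    gcongr
    exact hlim e h2
  · have htop : liminf (fun N : ℕ => (δ ! : ℝ≥0∞) *
        (h N).toENNReal / (N : ℝ≥0∞) ^ δ) atTop = ⊤ :=
      ENNReal.eq_top_of_forall_nnreal_le (fun r => by
        obtain ⟨E, hE⟩ := exists_nat_ge r
        calc (r : ℝ≥0∞) ≤ ((E : NNReal) : ℝ≥0∞) := ENNReal.coe_le_coe.mpr hE
          _ = (E : ℝ≥0∞) := ENNReal.coe_natCast E
          _ ≤ _ := hlim E (hall E))
    rw [htop, ENNReal.mul_top]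
    · exact le_top
    · exact_mod_cast hκ

end Vale.Agent.Lib.P202.Lech
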