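import Vale.Agent.Lib.P202.RegSeqFibre

/-!
# Lech's inequality with a factor `(d - 1)!`: definitions and bridging lemmas

Common definitions for the proof of `e(R) ≤ (d - 1)! e(S)` for flat local homomorphisms whose
closed fibre has finite length.
-/

namespace Vale.Agent.Lib.P202.Lech

open IsLocalRing

universe u

/-- Multi-ideal bound of Lech type, of order `δ`, with constants `e` and `b`: for every finite
family `I 1, …, I N` of ideals of finite colength,
`length (A / I 1 ⋯ I N) ≤ (e N^(δ-1) + b N^(δ-2)) ∑ length (A / I i)` if `δ ≥ 2`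
(and `≤ e ∑ length (A / I i) + b` if `δ = 1`). -/
def MLBound (A : Type u) [CommRing A] (δ e b : ℕ) : Prop :=
  ∀ (N : ℕ) (I : Fin N → Ideal A), (∀ i, Module.length A (A ⧸ I i) ≠ ⊤) →
    Module.length A (A ⧸ ∏ i, I i) ≤
      if δ = 1 then (e : ℕ∞) * ∑ i, Module.length A (A ⧸ I i) + (b : ℕ∞)
      else ((e * N ^ (δ - 1) + b * N ^ (δ - 2) : ℕ) : ℕ∞) * ∑ i, Module.length A (A ⧸ I i)

/-- Lower bound of order `δ` with leading coefficient `E` for the Hilbert-Samuel function:
`E N^δ ≤ δ! length (A / n^N) + K N^(δ-1)` for some constant `K` and all `N`. -/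
def LowerHS (A : Type u) [CommRing A] [IsLocalRing A] (δ E : ℕ) : Prop :=
  ∃ K : ℕ, ∀ N : ℕ, ((E * N ^ δ : ℕ) : ℕ∞) ≤
    (δ.factorial : ℕ∞) * Module.length A (A ⧸ maximalIdeal A ^ N) + ((K * N ^ (δ - 1) : ℕ) : ℕ∞)

/-- The local ring `A` is good of order `δ`: either there are constants `e`, `b` with the
multi-ideal bound and the matching lower bound for the Hilbert-Samuel function, or the
Hilbert-Samuel function grows faster than every multiple of `N^δ`. -/
def Good (A : Type u) [CommRing A] [IsLocalRing A] (δ : ℕ) : Prop :=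
  (∃ e b : ℕ, MLBound A δ e b ∧ LowerHS A δ e) ∨ ∀ E : ℕ, LowerHS A δ E

/-- `y` is a superficial element of the local ring `A` (from degree `c` on): `y ∈ n` and
multiplication by `y` is injective from `n^N / n^(N+1)` to `n^(N+1) / n^(N+2)` for `N ≥ c`. -/
def Superficial (A : Type u) [CommRing A] [IsLocalRing A] (y : A) (c : ℕ) : Prop :=
  y ∈ maximalIdeal A ∧ ∀ N : ℕ, c ≤ N → ∀ a ∈ maximalIdeal A ^ N,
    y * a ∈ maximalIdeal A ^ (N + 2) → a ∈ maximalIdeal A ^ (N + 1)

section gr

variable {A : Type u} [CommRing A]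

/-- The ideal `I · Rees(I)` of the Rees algebra of `I`. -/
noncomputable def grIdeal (I : Ideal A) : Ideal (reesAlgebra I) := I.map (algebraMap A (reesAlgebra I))

/-- The associated graded ring `Rees(I) / I Rees(I)` of the ideal `I`. -/
abbrev Gr (I : Ideal A) : Type u := reesAlgebra I ⧸ grIdeal I

open Classical in
/-- The class of `a X^j` in the associated graded ring (zero when `a ∉ I^j`). -/
noncomputable def grMk (I : Ideal A) (j : ℕ) (a : A) : Gr I :=
  if h : a ∈ I ^ j then
    Ideal.Quotient.mk (grIdeal I) ⟨Polynomial.monomial j a, reesAlgebra.monomial_mem.mpr h⟩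
  else 0

end gr

section bridge

variable {A : Type u} [CommRing A]

/-- Lengths over a quotient ring `A / J` of quotients by image ideals, computed over `A`. -/
lemma length_quotient_ideal (J 𝔞 : Ideal A) :
    Module.length (A ⧸ J) ((A ⧸ J) ⧸ 𝔞.map (Ideal.Quotient.mk J)) =
      Module.length A (A ⧸ (𝔞 ⊔ J)) := by
  have h := Vale.Agent.Lib.P202.length_quotient_map (R := A) (S := A) J 𝔞
  have e1 : 𝔞.map (algebraMap A (A ⧸ J)) = 𝔞.map (Ideal.Quotient.mk J) := rfl
  have e2 : 𝔞.map (algebraMap A A) = 𝔞 := Ideal.map_id 𝔞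
  rw [e1, e2, sup_comm] at h
  exact h

variable [IsLocalRing A]

/-- The maximal ideal of a local quotient ring is the image of the maximal ideal. -/
lemma maximalIdeal_quotient (J : Ideal A) [IsLocalRing (A ⧸ J)] :
    maximalIdeal (A ⧸ J) = (maximalIdeal A).map (Ideal.Quotient.mk J) := by
  have hJ : J ≤ maximalIdeal A := by
    apply IsLocalRing.le_maximalIdeal
    intro h
    have h1 : (1 : A ⧸ J) = 0 := by
      rw [← map_one (Ideal.Quotient.mk J), Ideal.Quotient.eq_zero_iff_mem, h]
      trivial
    exact one_ne_zero h1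
  have hloc : IsLocalHom (Ideal.Quotient.mk J) :=
    IsLocalHom.of_surjective _ Ideal.Quotient.mk_surjective
  ext x
  obtain ⟨x, rfl⟩ := Ideal.Quotient.mk_surjective x
  rw [mem_maximalIdeal, mem_nonunits_iff, isUnit_map_iff,
    Ideal.mem_map_iff_of_surjective _ Ideal.Quotient.mk_surjective]
  constructor
  · intro hx
    exact ⟨x, hx, rfl⟩
  · rintro ⟨x', hx', hxx'⟩
    have h5 : x - x' ∈ J := by
      rw [← Ideal.Quotient.eq_zero_iff_mem, map_sub, hxx', sub_self]
    have h6 : x = x' + (x - x') := by ring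
    have h7 : x ∈ maximalIdeal A := by
      rw [h6]
      exact Ideal.add_mem _ hx' (hJ h5)
    exact h7

/-- The Hilbert-Samuel function of a local quotient ring `A / J`, computed over `A`. -/
lemma length_quotient_pow (J : Ideal A) [IsLocalRing (A ⧸ J)] (N : ℕ) :
    Module.length (A ⧸ J) ((A ⧸ J) ⧸ maximalIdeal (A ⧸ J) ^ N) =
      Module.length A (A ⧸ (maximalIdeal A ^ N ⊔ J)) := by
  rw [maximalIdeal_quotient, ← Ideal.map_pow, length_quotient_ideal]

/-- The residue field of a local quotient ring is infinite when that of the ring is. -/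
lemma infinite_residueField_quotient (J : Ideal A) [IsLocalRing (A ⧸ J)]
    [Infinite (ResidueField A)] : Infinite (ResidueField (A ⧸ J)) := by
  have hloc : IsLocalHom (Ideal.Quotient.mk J) :=
    IsLocalHom.of_surjective _ Ideal.Quotient.mk_surjective
  exact Infinite.of_injective (ResidueField.map (Ideal.Quotient.mk J))
    (ResidueField.map (Ideal.Quotient.mk J)).injective

end bridge

end Vale.Agent.Lib.P202.Lech
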