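import Vale.Agent.Lib.P202.Lech.EmbTwoMain
import Vale.Agent.Lib.P202.Lech.General

/-!
# Lech's inequality for closed fibres of finite length and embedding dimension at most two
-/

namespace Vale.Agent.Lib.P202.Lech

open IsLocalRing Filter
open scoped ENNReal Nat Topology

universe u v

variable {R : Type v} {S : Type u} [CommRing R] [CommRing S] [IsLocalRing R] [IsLocalRing S]
  [IsNoetherianRing R] [IsNoetherianRing S] [Algebra R S] [IsLocalHom (algebraMap R S)]
  [Module.Flat R S]

/-- Lech's inequality for a flat local homomorphism of Noetherian local rings whose closed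
fibre has finite length and embedding dimension at most two. -/
theorem limsup_le_liminf_of_embDim_two
    (hfib : Module.length S (S ⧸ (maximalIdeal R).map (algebraMap R S)) ≠ ⊤) (a b : S)
    (hab : maximalIdeal S = (maximalIdeal R).map (algebraMap R S) ⊔ Ideal.span {a, b})
    (d : ℕ) (hd : 2 ≤ d) :
    limsup (fun N : ℕ => (d ! : ℝ≥0∞) *
        (Module.length R (R ⧸ maximalIdeal R ^ N)).toENNReal / (N : ℝ≥0∞) ^ d) atTop ≤
      liminf (fun N : ℕ => (d ! : ℝ≥0∞) *
        (Module.length S (S ⧸ maximalIdeal S ^ N)).toENNReal / (N : ℝ≥0∞) ^ d) atTop := by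
  obtain ⟨S', _, _, _, _, hflat, hloc, hinf, hmax⟩ := exists_infinite_residue_extension S
  letI : Algebra R S' := ((algebraMap S S').comp (algebraMap R S)).toAlgebra
  have htower : IsScalarTower R S S' := IsScalarTower.of_algebraMap_eq (fun _ => rfl)
  have hflat' : Module.Flat R S' := Module.Flat.trans R S S'
  have hloc' : IsLocalHom (algebraMap R S') := by
    have h : algebraMap R S' = (algebraMap S S').comp (algebraMap R S) := rfl
    rw [h]
    exact RingHom.isLocalHom_comp _ _
  have hone : Module.length S' (S' ⧸ (maximalIdeal S).map (algebraMap S S')) = 1 := by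
    rw [hmax]
    exact length_quot_maximalIdeal S'
  have hlen : ∀ I : Ideal S, Module.length S' (S' ⧸ I.map (algebraMap S S')) =
      Module.length S (S ⧸ I) := by
    intro I
    rw [Vale.Agent.Lib.P202.length_quot_map, hone, mul_one]
  have hmap : (maximalIdeal R).map (algebraMap R S') =
      ((maximalIdeal R).map (algebraMap R S)).map (algebraMap S S') := by
    rw [Ideal.map_map]
    rfl
  have hfib' : Module.length S' (S' ⧸ (maximalIdeal R).map (algebraMap R S')) ≠ ⊤ := by
    rw [hmap, hlen]
    exact hfib
  have hHS : ∀ N : ℕ, Module.length S' (S' ⧸ maximalIdeal S' ^ N) =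
      Module.length S (S ⧸ maximalIdeal S ^ N) := by
    intro N
    rw [← hmax, ← Ideal.map_pow, hlen]
  have hab' : maximalIdeal S' = (maximalIdeal R).map (algebraMap R S') ⊔
      Ideal.span {algebraMap S S' a, algebraMap S S' b} := by
    rw [← hmax, hmap]
    conv_lhs => rw [hab]
    rw [Ideal.map_sup, Ideal.map_span, Set.image_pair]
  have hmain := limsup_le_liminf_of_embDim_two_of_infinite (R := R) (S := S') hfib'
    (algebraMap S S' a) (algebraMap S S' b) hab' d hd
  simp only [hHS] at hmain
  exact hmain

end Vale.Agent.Lib.P202.Lech
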