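import Vale.Agent.Lib.P202.Lech.MLComb

/-!
# A sharp bound for powers of an ideal that is one element short of the maximal ideal
-/

namespace Vale.Agent.Lib.P202.Lech

open IsLocalRing

universe u

/-- The `j`-th power of `I + J` is contained in `I^j + J`. -/
lemma principalBound_sup_pow_le {A : Type u} [CommRing A] (I J : Ideal A) (j : ℕ) :
    (I ⊔ J) ^ j ≤ I ^ j ⊔ J := by
  cases j with
  | zero =>
    rw [pow_zero, pow_zero]
    exact le_sup_left
  | succ j =>
    have h1 : (I ⊔ J) ^ (j + 1) ≤ J * (I ⊔ J) ^ j ⊔ I ^ (j + 1) :=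
      Vale.Agent.Lib.P202.sup_pow_succ_le I J j
    have h2 : J * (I ⊔ J) ^ j ≤ J := Ideal.mul_le_left
    have h3 : J ≤ I ^ (j + 1) ⊔ J := le_sup_right
    have h4 : I ^ (j + 1) ≤ I ^ (j + 1) ⊔ J := le_sup_left
    exact h1.trans (sup_le (h2.trans h3) h4)

/-- If `I + v T` is the maximal ideal `n` then `I^j + v T = n^j + v T`. -/
lemma principalBound_sup_eq {T : Type u} [CommRing T] [IsLocalRing T] (I : Ideal T) (v : T)
    (hv : I ⊔ Ideal.span {v} = maximalIdeal T) (j : ℕ) :
    I ^ j ⊔ Ideal.span {v} = maximalIdeal T ^ j ⊔ Ideal.span {v} := by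
  apply le_antisymm
  · exact sup_le_sup_right (Ideal.pow_right_mono (le_sup_left.trans hv.le) j) _
  · refine sup_le ?_ le_sup_right
    rw [← hv]
    exact principalBound_sup_pow_le I (Ideal.span {v}) j

/-- If `v^c ∈ I` then `I^(N - k / c)` is contained in the colon ideal of `I^N` by `v^k`. -/
lemma principalBound_colon_le {A : Type u} [CommRing A] (I : Ideal A) (v : A) (c : ℕ)
    (hvc : v ^ c ∈ I) (N k : ℕ) (hk : k / c ≤ N) :
    I ^ (N - k / c) ≤ (I ^ N).colon {v ^ k} := by
  intro t ht
  rw [colon_mem_iff]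
  have hk' : v ^ k = (v ^ c) ^ (k / c) * v ^ (k % c) := by
    rw [← pow_mul, ← pow_add, Nat.div_add_mod]
  have h1 : (v ^ c) ^ (k / c) * t ∈ I ^ N := by
    have h2 := Ideal.mul_mem_mul (Ideal.pow_mem_pow hvc (k / c)) ht
    rw [← pow_add, Nat.add_sub_of_le hk] at h2
    exact h2
  have h3 : v ^ k * t = v ^ (k % c) * ((v ^ c) ^ (k / c) * t) := by
    rw [hk']
    ring
  rw [h3]
  exact Ideal.mul_mem_left _ _ h1

/-- Let `T` be a local ring with maximal ideal `n`, and `I` an ideal with
`length (T / I) ≤ c` and `I + v T = n`.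
Then `length (T / I^N) ≤ c ∑_{j = 1}^{N} length (T / (n^j + v T))`. -/
theorem length_quot_pow_le_of_sup_span_eq {T : Type u} [CommRing T] [IsLocalRing T]
    (I : Ideal T) (v : T) (c : ℕ) (hc : Module.length T (T ⧸ I) ≤ (c : ℕ∞))
    (hv : I ⊔ Ideal.span {v} = maximalIdeal T) (N : ℕ) :
    Module.length T (T ⧸ I ^ N) ≤ (c : ℕ∞) * ∑ j ∈ Finset.range N,
      Module.length T (T ⧸ (maximalIdeal T ^ (j + 1) ⊔ Ideal.span {v})) := by
  have hvn : v ∈ maximalIdeal T := by
    rw [← hv]
    exact Ideal.mem_sup_right (Ideal.mem_span_singleton_self v)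
  have hnc : maximalIdeal T ^ c ≤ I := maximalIdeal_pow_le_of_length_le I c hc
  have hvc : v ^ c ∈ I := hnc (Ideal.pow_mem_pow hvn c)
  have hmem : v ^ (c * N) ∈ I ^ N := by
    rw [pow_mul]
    exact Ideal.pow_mem_pow hvc N
  rw [length_quot_eq_sum_colon (I ^ N) v (c * N) hmem]
  rcases Nat.eq_zero_or_pos c with hc0 | hc0
  · rw [hc0, Nat.zero_mul, Finset.range_zero, Finset.sum_empty]
    exact zero_le
  · calc ∑ k ∈ Finset.range (c * N),
          Module.length T (T ⧸ ((I ^ N).colon {v ^ k} ⊔ Ideal.span {v}))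
        ≤ ∑ k ∈ Finset.range (c * N),
          Module.length T (T ⧸ (maximalIdeal T ^ (N - k / c) ⊔ Ideal.span {v})) := by
          refine Finset.sum_le_sum (fun k hk => ?_)
          have hkq : k / c < N := Nat.div_lt_of_lt_mul (Finset.mem_range.mp hk)
          rw [← principalBound_sup_eq I v hv (N - k / c)]
          exact Vale.Agent.Lib.P202.length_quot_anti
            (sup_le_sup_right (principalBound_colon_le I v c hvc N k hkq.le) _)
      _ = (c : ℕ∞) * ∑ q ∈ Finset.range N,
          Module.length T (T ⧸ (maximalIdeal T ^ (N - q) ⊔ Ideal.span {v})) :=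
          mlComb_sum_range_mul
            (fun q => Module.length T (T ⧸ (maximalIdeal T ^ (N - q) ⊔ Ideal.span {v}))) c N hc0
      _ = (c : ℕ∞) * ∑ j ∈ Finset.range N,
          Module.length T (T ⧸ (maximalIdeal T ^ (j + 1) ⊔ Ideal.span {v})) := by
          have hrefl := Finset.sum_range_reflect
            (fun j => Module.length T (T ⧸ (maximalIdeal T ^ (j + 1) ⊔ Ideal.span {v}))) N
          rw [← hrefl]
          congr 1
          refine Finset.sum_congr rfl (fun q hq => ?_)
          have hq' : q < N := Finset.mem_range.mp hq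
          have e : N - 1 - q + 1 = N - q := by omega
          show _ = Module.length T (T ⧸ (maximalIdeal T ^ (N - 1 - q + 1) ⊔ Ideal.span {v}))
          rw [e]

end Vale.Agent.Lib.P202.Lech
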