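import Vale.Agent.Lib.P202.Lech.KernelCount
import Vale.Agent.Lib.P202.Lech.PrincipalBound

/-!
# The difference inequality for closed fibres of embedding dimension at most two
-/

namespace Vale.Agent.Lib.P202.Lech

open IsLocalRing

variable {R S : Type*} [CommRing R] [CommRing S] [IsLocalRing R] [IsLocalRing S]
  [IsNoetherianRing R] [IsNoetherianRing S] [Algebra R S] [IsLocalHom (algebraMap R S)]
  [Module.Flat R S]

omit [IsLocalRing R] [IsNoetherianRing R] [IsNoetherianRing S] [Algebra R S]
  [IsLocalHom (algebraMap R S)] [Module.Flat R S] in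
/-- The maximal ideal of `S / (y)` is generated by the image of `a` and the class of `v` when
the maximal ideal of `S` is `a + (v) + (y)`. -/
theorem embTwo_max (a : Ideal S) (y v : S)
    (hyv : maximalIdeal S = a ⊔ Ideal.span {v} ⊔ Ideal.span {y})
    [IsLocalRing (S ⧸ Ideal.span {y})] :
    a.map (Ideal.Quotient.mk (Ideal.span {y}))
        ⊔ Ideal.span {Ideal.Quotient.mk (Ideal.span {y}) v}
      = maximalIdeal (S ⧸ Ideal.span {y}) := by
  have hy0 : Ideal.Quotient.mk (Ideal.span {y}) y = 0 :=
    Ideal.Quotient.eq_zero_iff_mem.mpr (Ideal.subset_span (Set.mem_singleton y))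
  rw [maximalIdeal_quotient (Ideal.span {y}), hyv, Ideal.map_sup, Ideal.map_sup, Ideal.map_span,
    Ideal.map_span, Set.image_singleton, Set.image_singleton, hy0]
  have hbot : Ideal.span {(0 : S ⧸ Ideal.span {y})} = ⊥ := Ideal.span_singleton_eq_bot.mpr rfl
  rw [hbot, sup_bot_eq]

omit [IsLocalRing R] [IsNoetherianRing R] [IsNoetherianRing S] [Algebra R S]
  [IsLocalHom (algebraMap R S)] [Module.Flat R S] in
/-- The Hilbert-Samuel values of `S / (y)` modulo the class of `v`, computed over `S`. -/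
theorem embTwo_term (y v : S) [IsLocalRing (S ⧸ Ideal.span {y})] (j : ℕ) :
    Module.length (S ⧸ Ideal.span {y}) ((S ⧸ Ideal.span {y}) ⧸
        (maximalIdeal (S ⧸ Ideal.span {y}) ^ (j + 1)
          ⊔ Ideal.span {Ideal.Quotient.mk (Ideal.span {y}) v}))
      = Module.length S (S ⧸ (maximalIdeal S ^ (j + 1) ⊔ Ideal.span {v} ⊔ Ideal.span {y})) := by
  have e : maximalIdeal (S ⧸ Ideal.span {y}) ^ (j + 1)
        ⊔ Ideal.span {Ideal.Quotient.mk (Ideal.span {y}) v}
      = (maximalIdeal S ^ (j + 1) ⊔ Ideal.span {v}).map (Ideal.Quotient.mk (Ideal.span {y})) := by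
    rw [maximalIdeal_quotient (Ideal.span {y}), Ideal.map_sup, Ideal.map_pow, Ideal.map_span,
      Set.image_singleton]
  rw [e]
  exact length_quotient_ideal (Ideal.span {y}) _

/-- For a flat local homomorphism `R → S` of local rings with maximal ideals `m` and `n`, with
closed fibre of finite length and `n = m S + (v) + (y)`:
`H_R(N+1) - H_R(N) ≤ ∑_{j = 1}^{N+1} length (S / (n^j + (v) + (y)))`. -/
theorem emb_two_step
    (hfib : Module.length S (S ⧸ (maximalIdeal R).map (algebraMap R S)) ≠ ⊤) (y v : S)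
    (hyv : maximalIdeal S =
      (maximalIdeal R).map (algebraMap R S) ⊔ Ideal.span {v} ⊔ Ideal.span {y}) (N : ℕ) :
    Module.length R (R ⧸ maximalIdeal R ^ (N + 1)) ≤
      Module.length R (R ⧸ maximalIdeal R ^ N) + ∑ j ∈ Finset.range (N + 1),
        Module.length S (S ⧸ (maximalIdeal S ^ (j + 1) ⊔ Ideal.span {v} ⊔ Ideal.span {y})) := by
  have hyn : y ∈ maximalIdeal S := by
    rw [hyv]
    exact Ideal.mem_sup_right (Ideal.subset_span (Set.mem_singleton y))
  have hloc : IsLocalRing (S ⧸ Ideal.span {y}) :=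
    Vale.Agent.Lib.P202.isLocalRing_quotient_span hyn
  have hle : (maximalIdeal R).map (algebraMap R S) ⊔ Ideal.span {y} ≤ maximalIdeal S := by
    have h1 : (maximalIdeal R).map (algebraMap R S) ⊔ Ideal.span {y}
        ≤ (maximalIdeal R).map (algebraMap R S) ⊔ Ideal.span {v} ⊔ Ideal.span {y} :=
      sup_le (le_sup_of_le_left le_sup_left) le_sup_right
    rw [← hyv] at h1
    exact h1
  -- the length of the fibre modulo `y` is a positive natural number
  have hcc_top : Module.length S (S ⧸ ((maximalIdeal R).map (algebraMap R S) ⊔ Ideal.span {y}))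
      ≠ ⊤ := by
    have h1 : Module.length S (S ⧸ ((maximalIdeal R).map (algebraMap R S) ⊔ Ideal.span {y}))
        ≤ Module.length S (S ⧸ (maximalIdeal R).map (algebraMap R S)) :=
      Vale.Agent.Lib.P202.length_quot_anti le_sup_left
    exact ne_top_of_le_ne_top hfib h1
  have hcc_one : 1 ≤ Module.length S
      (S ⧸ ((maximalIdeal R).map (algebraMap R S) ⊔ Ideal.span {y})) := by
    have hne : (maximalIdeal R).map (algebraMap R S) ⊔ Ideal.span {y} ≠ ⊤ := by
      intro h
      rw [h] at hle
      exact Ideal.IsPrime.ne_top' (top_le_iff.mp hle)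
    have : Nontrivial (S ⧸ ((maximalIdeal R).map (algebraMap R S) ⊔ Ideal.span {y})) :=
      Ideal.Quotient.nontrivial_iff.mpr hne
    exact Order.one_le_iff_pos.mpr Module.length_pos
  obtain ⟨k, hk⟩ := ENat.ne_top_iff_exists.mp hcc_top
  have hk1 : 1 ≤ k := by
    rw [← hk] at hcc_one
    exact_mod_cast hcc_one
  -- the kernel count
  have hkc := kernel_count hfib y N
  rw [← hk] at hkc
  -- the quotient ring modulo `y`
  have hTI : Module.length (S ⧸ Ideal.span {y}) ((S ⧸ Ideal.span {y}) ⧸
      ((maximalIdeal R).map (algebraMap R S)).map (Ideal.Quotient.mk (Ideal.span {y})))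
      = (k : ℕ∞) := by
    rw [length_quotient_ideal (Ideal.span {y}) ((maximalIdeal R).map (algebraMap R S)), hk]
  have hTpow : Module.length (S ⧸ Ideal.span {y}) ((S ⧸ Ideal.span {y}) ⧸
      ((maximalIdeal R).map (algebraMap R S)).map (Ideal.Quotient.mk (Ideal.span {y})) ^ (N + 1))
      = Module.length S
          (S ⧸ ((maximalIdeal R ^ (N + 1)).map (algebraMap R S) ⊔ Ideal.span {y})) := by
    rw [← Ideal.map_pow, ← Ideal.map_pow]
    exact length_quotient_ideal (Ideal.span {y}) _
  have hbb := length_quot_pow_le_of_sup_span_eq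
    (((maximalIdeal R).map (algebraMap R S)).map (Ideal.Quotient.mk (Ideal.span {y})))
    (Ideal.Quotient.mk (Ideal.span {y}) v) k (le_of_eq hTI)
    (embTwo_max ((maximalIdeal R).map (algebraMap R S)) y v hyv) (N + 1)
  rw [hTpow, Finset.sum_congr rfl (fun j _ => embTwo_term y v j)] at hbb
  -- conclusion in the natural numbers
  by_cases hsum : (∑ j ∈ Finset.range (N + 1), Module.length S
      (S ⧸ (maximalIdeal S ^ (j + 1) ⊔ Ideal.span {v} ⊔ Ideal.span {y}))) = ⊤
  · rw [hsum, add_top]
    exact le_top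
  · obtain ⟨s, hs⟩ := ENat.ne_top_iff_exists.mp hsum
    obtain ⟨a, ha⟩ := ENat.ne_top_iff_exists.mp
      (Vale.Agent.Lib.P202.length_quot_pow_ne_top R N)
    obtain ⟨b, hb⟩ := ENat.ne_top_iff_exists.mp
      (Vale.Agent.Lib.P202.length_quot_pow_ne_top R (N + 1))
    rw [← hs] at hbb
    rw [← ha, ← hb] at hkc
    rw [← hs, ← ha, ← hb]
    have hmain : (b : ℕ∞) * (k : ℕ∞) ≤ (k : ℕ∞) * (s : ℕ∞) + (a : ℕ∞) * (k : ℕ∞) :=
      hkc.trans (add_le_add hbb le_rfl)
    have hmainN : b * k ≤ k * s + a * k := by exact_mod_cast hmain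
    have hfin : b ≤ a + s := by
      have h2 : b * k ≤ (a + s) * k := by
        have e : (a + s) * k = k * s + a * k := by ring
        rw [e]
        exact hmainN
      exact Nat.le_of_mul_le_mul_right h2 hk1
    exact_mod_cast hfin

end Vale.Agent.Lib.P202.Lech
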