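import Vale.Agent.Lib.P202.Lech.Defs

/-!
# Lower bounds for the Hilbert-Samuel function: the inductive step
-/

namespace Vale.Agent.Lib.P202.Lech

open IsLocalRing

universe u

lemma lowerStep_aux (δ M : ℕ) :
    (M + 1) ^ (δ + 1) ≤ M ^ (δ + 1) + (δ + 1) * (M + 1) ^ δ := by
  induction δ with
  | zero => simp
  | succ δ ih =>
    have h1 : M * (M + 1) ^ δ ≤ (M + 1) ^ (δ + 1) := by
      rw [pow_succ']
      exact Nat.mul_le_mul_right _ (Nat.le_succ M)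
    calc (M + 1) ^ (δ + 1 + 1) = M * (M + 1) ^ (δ + 1) + (M + 1) ^ (δ + 1) := by ring
      _ ≤ M * (M ^ (δ + 1) + (δ + 1) * (M + 1) ^ δ) + (M + 1) ^ (δ + 1) :=
          Nat.add_le_add_right (Nat.mul_le_mul_left _ ih) _
      _ = M ^ (δ + 1 + 1) + (δ + 1) * (M * (M + 1) ^ δ) + (M + 1) ^ (δ + 1) := by ring
      _ ≤ M ^ (δ + 1 + 1) + (δ + 1) * (M + 1) ^ (δ + 1) + (M + 1) ^ (δ + 1) :=
          Nat.add_le_add_right (Nat.add_le_add_left (Nat.mul_le_mul_left _ h1) _) _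
      _ = M ^ (δ + 1 + 1) + (δ + 1 + 1) * (M + 1) ^ (δ + 1) := by ring

/-- `M ^ (δ + 1) ≤ (δ + 1) ∑_{j < M} (j + 1) ^ δ`. -/
lemma pow_succ_le_sum (δ M : ℕ) :
    M ^ (δ + 1) ≤ (δ + 1) * ∑ j ∈ Finset.range M, (j + 1) ^ δ := by
  induction M with
  | zero => simp
  | succ M ih =>
    rw [Finset.sum_range_succ, mul_add]
    have key := lowerStep_aux δ M
    omega

lemma lowerStep_core (δ E C K : ℕ) (hδ : 1 ≤ δ) (x f : ℕ → ℕ∞)
    (ha : ∀ N, x N + f N ≤ f (N + 1) + (C : ℕ∞))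
    (hx : ∀ N, ((E * (N + 1) ^ δ : ℕ) : ℕ∞) ≤
      (δ.factorial : ℕ∞) * x N + ((K * (N + 1) ^ (δ - 1) : ℕ) : ℕ∞))
    (M : ℕ) :
    ((E * M ^ (δ + 1) : ℕ) : ℕ∞) ≤ ((δ + 1).factorial : ℕ∞) * f M +
      (((δ + 1) * (K + δ.factorial * C) * M ^ (δ + 1 - 1) : ℕ) : ℕ∞) := by
  have hsum : ∀ M : ℕ, ∑ N ∈ Finset.range M, x N ≤ f M + (C : ℕ∞) * (M : ℕ∞) := by
    intro M
    induction M with
    | zero => simp
    | succ M ih =>
      rw [Finset.sum_range_succ]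
      calc ∑ N ∈ Finset.range M, x N + x M ≤ (f M + (C : ℕ∞) * (M : ℕ∞)) + x M :=
            add_le_add ih le_rfl
        _ = (x M + f M) + (C : ℕ∞) * (M : ℕ∞) := by ring
        _ ≤ (f (M + 1) + (C : ℕ∞)) + (C : ℕ∞) * (M : ℕ∞) := add_le_add (ha M) le_rfl
        _ = f (M + 1) + (C : ℕ∞) * ((M + 1 : ℕ) : ℕ∞) := by push_cast; ring
  have h1 : E * M ^ (δ + 1) ≤ (δ + 1) * ∑ N ∈ Finset.range M, E * (N + 1) ^ δ := by
    rw [← Finset.mul_sum]
    calc E * M ^ (δ + 1) ≤ E * ((δ + 1) * ∑ j ∈ Finset.range M, (j + 1) ^ δ) :=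
          Nat.mul_le_mul_left _ (pow_succ_le_sum δ M)
      _ = (δ + 1) * (E * ∑ j ∈ Finset.range M, (j + 1) ^ δ) := by ring
  have h2 : ∑ N ∈ Finset.range M, K * (N + 1) ^ (δ - 1) ≤ K * M ^ δ := by
    calc ∑ N ∈ Finset.range M, K * (N + 1) ^ (δ - 1)
          ≤ ∑ N ∈ Finset.range M, K * M ^ (δ - 1) := by
          apply Finset.sum_le_sum
          intro N hN
          have h5 : N + 1 ≤ M := by
            have h6 := Finset.mem_range.1 hN
            omega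
          exact Nat.mul_le_mul_left _ (Nat.pow_le_pow_left h5 _)
      _ = M * (K * M ^ (δ - 1)) := by
          rw [Finset.sum_const, Finset.card_range, smul_eq_mul]
      _ = K * M ^ δ := by
          obtain ⟨d, rfl⟩ : ∃ d, δ = d + 1 := ⟨δ - 1, by omega⟩
          rw [Nat.add_sub_cancel, pow_succ]
          ring
  have h3 : (((δ + 1) * ∑ N ∈ Finset.range M, E * (N + 1) ^ δ : ℕ) : ℕ∞) ≤
      ((δ + 1 : ℕ) : ℕ∞) * ((δ.factorial : ℕ∞) * ∑ N ∈ Finset.range M, x N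
        + ((K * M ^ δ : ℕ) : ℕ∞)) := by
    rw [Nat.cast_mul, Nat.cast_sum]
    apply mul_le_mul le_rfl _ zero_le zero_le
    calc ∑ N ∈ Finset.range M, ((E * (N + 1) ^ δ : ℕ) : ℕ∞)
          ≤ ∑ N ∈ Finset.range M, ((δ.factorial : ℕ∞) * x N
              + ((K * (N + 1) ^ (δ - 1) : ℕ) : ℕ∞)) :=
          Finset.sum_le_sum (fun N _ => hx N)
      _ = (δ.factorial : ℕ∞) * ∑ N ∈ Finset.range M, x N
            + ((∑ N ∈ Finset.range M, K * (N + 1) ^ (δ - 1) : ℕ) : ℕ∞) := by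
          rw [Finset.sum_add_distrib, Finset.mul_sum, Nat.cast_sum]
      _ ≤ (δ.factorial : ℕ∞) * ∑ N ∈ Finset.range M, x N + ((K * M ^ δ : ℕ) : ℕ∞) :=
          add_le_add le_rfl (Nat.cast_le.2 h2)
  have h4 : M ≤ M ^ δ := by
    rcases Nat.eq_zero_or_pos M with h0 | h0
    · rw [h0]; exact Nat.zero_le _
    · calc M = M ^ 1 := (pow_one M).symm
        _ ≤ M ^ δ := Nat.pow_le_pow_right h0 hδ
  have h5 : (δ + 1) * (δ.factorial * C * M + K * M ^ δ) ≤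
      (δ + 1) * (K + δ.factorial * C) * M ^ (δ + 1 - 1) := by
    rw [Nat.add_sub_cancel]
    calc (δ + 1) * (δ.factorial * C * M + K * M ^ δ)
          ≤ (δ + 1) * (δ.factorial * C * M ^ δ + K * M ^ δ) :=
          Nat.mul_le_mul_left _ (Nat.add_le_add_right (Nat.mul_le_mul_left _ h4) _)
      _ = (δ + 1) * (K + δ.factorial * C) * M ^ δ := by ring
  calc ((E * M ^ (δ + 1) : ℕ) : ℕ∞)
        ≤ (((δ + 1) * ∑ N ∈ Finset.range M, E * (N + 1) ^ δ : ℕ) : ℕ∞) := Nat.cast_le.2 h1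
    _ ≤ ((δ + 1 : ℕ) : ℕ∞) * ((δ.factorial : ℕ∞) * ∑ N ∈ Finset.range M, x N
          + ((K * M ^ δ : ℕ) : ℕ∞)) := h3
    _ ≤ ((δ + 1 : ℕ) : ℕ∞) * ((δ.factorial : ℕ∞) * (f M + (C : ℕ∞) * (M : ℕ∞))
          + ((K * M ^ δ : ℕ) : ℕ∞)) :=
        mul_le_mul le_rfl (add_le_add (mul_le_mul le_rfl (hsum M) zero_le zero_le)
          le_rfl) zero_le zero_le
    _ = ((δ + 1).factorial : ℕ∞) * f M
          + (((δ + 1) * (δ.factorial * C * M + K * M ^ δ) : ℕ) : ℕ∞) := by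
        rw [Nat.factorial_succ]
        push_cast
        ring
    _ ≤ ((δ + 1).factorial : ℕ∞) * f M +
          (((δ + 1) * (K + δ.factorial * C) * M ^ (δ + 1 - 1) : ℕ) : ℕ∞) :=
        add_le_add le_rfl (Nat.cast_le.2 h5)

variable {A : Type u} [CommRing A] [IsLocalRing A] [IsNoetherianRing A]

/-- Inductive step for lower bounds: if `length (A / (n^(N+1) + (y))) ≤
length (A / n^(N+1)) - length (A / n^N) + C` for all `N`, then a lower bound of order `δ` with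
leading coefficient `E` for `A / (y)` gives one of order `δ + 1` for `A`. -/
theorem lowerHS_succ (y : A) [IsLocalRing (A ⧸ Ideal.span {y})] (δ E C : ℕ) (hδ : 1 ≤ δ)
    (ha : ∀ N : ℕ, Module.length A (A ⧸ (maximalIdeal A ^ (N + 1) ⊔ Ideal.span {y})) +
        Module.length A (A ⧸ maximalIdeal A ^ N) ≤
      Module.length A (A ⧸ maximalIdeal A ^ (N + 1)) + (C : ℕ∞))
    (h : LowerHS (A ⧸ Ideal.span {y}) δ E) : LowerHS A (δ + 1) E := by
  obtain ⟨K, hK⟩ := h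
  refine ⟨(δ + 1) * (K + δ.factorial * C), fun M => ?_⟩
  exact lowerStep_core δ E C K hδ
    (fun N => Module.length A (A ⧸ (maximalIdeal A ^ (N + 1) ⊔ Ideal.span {y})))
    (fun N => Module.length A (A ⧸ maximalIdeal A ^ N)) ha
    (fun N => by
      have h1 := hK (N + 1)
      rw [length_quotient_pow] at h1
      exact h1) M

end Vale.Agent.Lib.P202.Lech
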