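import Vale.Agent.Lib.P202.Lech.Colon

/-!
# Consequences of superficiality for the Hilbert-Samuel function
-/

namespace Vale.Agent.Lib.P202.Lech

open IsLocalRing

universe u

variable {A : Type u} [CommRing A] [IsLocalRing A] [IsNoetherianRing A]

omit [IsLocalRing A] [IsNoetherianRing A] in
/-- Membership in a colon ideal by a single element, in multiplicative form. -/
lemma supBound_mem_colon {I : Ideal A} {y a : A} : a ∈ I.colon {y} ↔ y * a ∈ I := by
  rw [Submodule.mem_colon_singleton, smul_eq_mul, mul_comm]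

omit [IsNoetherianRing A] in
/-- For a superficial element `y` from degree `c` on, an element of `n^c` that is multiplied
by `y` into `n^(N+1)` lies in `n^N`. -/
lemma supBound_colon_inf_le (y : A) (c : ℕ) (h : Superficial A y c) (N : ℕ) :
    (maximalIdeal A ^ (N + 1)).colon {y} ⊓ maximalIdeal A ^ c ≤ maximalIdeal A ^ N := by
  intro a ha
  obtain ⟨ha1, ha2⟩ := Submodule.mem_inf.mp ha
  rw [supBound_mem_colon] at ha1
  rcases Nat.lt_or_ge N c with hNc | hcN
  · exact Ideal.pow_le_pow_right hNc.le ha2
  · have key : ∀ j : ℕ, c ≤ j → j ≤ N → a ∈ maximalIdeal A ^ j := by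
      intro j hcj
      induction j, hcj using Nat.le_induction with
      | base => intro _; exact ha2
      | succ j hcj ih =>
        intro hjN
        have haj : a ∈ maximalIdeal A ^ j := ih (by omega)
        have hya : y * a ∈ maximalIdeal A ^ (j + 2) :=
          Ideal.pow_le_pow_right (by omega) ha1
        exact h.2 j hcj a haj hya
    exact key N hcN le_rfl

/-- For a superficial element `y` (from degree `c` on):
`length (A / (n^(N+1) + (y))) + length (A / n^N) ≤ length (A / n^(N+1)) + length (A / n^c)`. -/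
theorem superficial_bound_quot (y : A) (c : ℕ) (h : Superficial A y c) (N : ℕ) :
    Module.length A (A ⧸ (maximalIdeal A ^ (N + 1) ⊔ Ideal.span {y})) +
        Module.length A (A ⧸ maximalIdeal A ^ N) ≤
      Module.length A (A ⧸ maximalIdeal A ^ (N + 1)) +
        Module.length A (A ⧸ maximalIdeal A ^ c) := by
  have _hfin := Vale.Agent.Lib.P202.length_quot_pow_ne_top A N
  have h1 := length_quot_colon_add (maximalIdeal A ^ (N + 1)) y
  have h2 := length_quot_inf_add_sup ((maximalIdeal A ^ (N + 1)).colon {y}) (maximalIdeal A ^ c)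
  have h3 : Module.length A (A ⧸ maximalIdeal A ^ N) ≤
      Module.length A (A ⧸ ((maximalIdeal A ^ (N + 1)).colon {y} ⊓ maximalIdeal A ^ c)) :=
    Vale.Agent.Lib.P202.length_quot_anti (supBound_colon_inf_le y c h N)
  have h4 : Module.length A (A ⧸ ((maximalIdeal A ^ (N + 1)).colon {y} ⊓ maximalIdeal A ^ c)) ≤
      Module.length A (A ⧸ (maximalIdeal A ^ (N + 1)).colon {y}) +
        Module.length A (A ⧸ maximalIdeal A ^ c) := by
    rw [← h2]
    exact le_self_add
  calc Module.length A (A ⧸ (maximalIdeal A ^ (N + 1) ⊔ Ideal.span {y})) +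
        Module.length A (A ⧸ maximalIdeal A ^ N)
      ≤ Module.length A (A ⧸ (maximalIdeal A ^ (N + 1) ⊔ Ideal.span {y})) +
          (Module.length A (A ⧸ (maximalIdeal A ^ (N + 1)).colon {y}) +
            Module.length A (A ⧸ maximalIdeal A ^ c)) := by
        gcongr
        exact h3.trans h4
    _ = Module.length A (A ⧸ maximalIdeal A ^ (N + 1)) +
          Module.length A (A ⧸ maximalIdeal A ^ c) := by
        rw [← add_assoc, h1]

omit [IsNoetherianRing A] in
/-- For a superficial element `y` from degree `c` on and `N ≥ c`: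
`(n^(N+2) : y) ∩ n^N = n^(N+1)`. -/
lemma supBound_colon_inf_eq (y : A) (c : ℕ) (h : Superficial A y c) (N : ℕ) (hN : c ≤ N) :
    (maximalIdeal A ^ (N + 2)).colon {y} ⊓ maximalIdeal A ^ N = maximalIdeal A ^ (N + 1) := by
  apply le_antisymm
  · intro a ha
    obtain ⟨ha1, ha2⟩ := Submodule.mem_inf.mp ha
    rw [supBound_mem_colon] at ha1
    exact h.2 N hN a ha2 ha1
  · intro a ha
    refine Submodule.mem_inf.mpr ⟨?_, Ideal.pow_le_pow_right (Nat.le_succ N) ha⟩
    rw [supBound_mem_colon]
    have hmul : y * a ∈ maximalIdeal A * maximalIdeal A ^ (N + 1) := Ideal.mul_mem_mul h.1 ha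
    rw [← pow_succ'] at hmul
    exact hmul

omit [IsNoetherianRing A] in
/-- `n^(N+2) + y n^N ⊆ n^(N+1)` for `y ∈ n`. -/
lemma supBound_sup_le (y : A) (hy : y ∈ maximalIdeal A) (N : ℕ) :
    maximalIdeal A ^ (N + 2) ⊔ Ideal.span {y} * maximalIdeal A ^ N ≤ maximalIdeal A ^ (N + 1) := by
  apply sup_le
  · exact Ideal.pow_le_pow_right (Nat.le_succ (N + 1))
  · have h1 : Ideal.span {y} ≤ maximalIdeal A := (Ideal.span_singleton_le_iff_mem _).mpr hy
    calc Ideal.span {y} * maximalIdeal A ^ N ≤ maximalIdeal A * maximalIdeal A ^ N :=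
          Ideal.mul_mono_left h1
      _ = maximalIdeal A ^ (N + 1) := (pow_succ' _ _).symm

/-- For a superficial element `y` (from degree `c` on), the Hilbert-Samuel function is convex
from `c` on. -/
theorem superficial_convex (y : A) (c : ℕ) (h : Superficial A y c) (N : ℕ) (hN : c ≤ N) :
    2 * Module.length A (A ⧸ maximalIdeal A ^ (N + 1)) ≤
      Module.length A (A ⧸ maximalIdeal A ^ (N + 2)) +
        Module.length A (A ⧸ maximalIdeal A ^ N) := by
  have _hfin := Vale.Agent.Lib.P202.length_quot_pow_ne_top A N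
  have h1 := length_quot_colon_add (maximalIdeal A ^ (N + 2)) y
  have h2 := length_quot_colon_add' (maximalIdeal A ^ (N + 2)) (maximalIdeal A ^ N) y
  have h3 := length_quot_inf_add_sup ((maximalIdeal A ^ (N + 2)).colon {y}) (maximalIdeal A ^ N)
  rw [supBound_colon_inf_eq y c h N hN] at h3
  have h4 : Module.length A (A ⧸ maximalIdeal A ^ (N + 1)) ≤
      Module.length A (A ⧸ (maximalIdeal A ^ (N + 2) ⊔ Ideal.span {y} * maximalIdeal A ^ N)) :=
    Vale.Agent.Lib.P202.length_quot_anti (supBound_sup_le y h.1 N)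
  calc 2 * Module.length A (A ⧸ maximalIdeal A ^ (N + 1))
      = Module.length A (A ⧸ maximalIdeal A ^ (N + 1)) +
          Module.length A (A ⧸ maximalIdeal A ^ (N + 1)) := two_mul _
    _ ≤ Module.length A (A ⧸ maximalIdeal A ^ (N + 1)) +
          Module.length A (A ⧸ (maximalIdeal A ^ (N + 2) ⊔
            Ideal.span {y} * maximalIdeal A ^ N)) := by
        gcongr
    _ = Module.length A (A ⧸ maximalIdeal A ^ (N + 1)) +
          (Module.length A (A ⧸ ((maximalIdeal A ^ (N + 2)).colon {y} ⊔ maximalIdeal A ^ N)) +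
            Module.length A (A ⧸ (maximalIdeal A ^ (N + 2) ⊔ Ideal.span {y}))) := by
        rw [h2]
    _ = (Module.length A (A ⧸ (maximalIdeal A ^ (N + 2)).colon {y}) +
          Module.length A (A ⧸ maximalIdeal A ^ N)) +
            Module.length A (A ⧸ (maximalIdeal A ^ (N + 2) ⊔ Ideal.span {y})) := by
        rw [← add_assoc, h3]
    _ = Module.length A (A ⧸ maximalIdeal A ^ (N + 2)) +
          Module.length A (A ⧸ maximalIdeal A ^ N) := by
        rw [← h1]
        ring

end Vale.Agent.Lib.P202.Lech
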