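import Vale.Agent.Lib.P202.Lech.Defs

/-!
# Avoiding finitely many ideals inside the maximal ideal (infinite residue field)
-/

namespace Vale.Agent.Lib.P202.Lech

open IsLocalRing

universe u

/-- A submodule of the cotangent space over the ring is stable under the residue field. -/
theorem supAvoid_span_eq {A : Type u} [CommRing A] [IsLocalRing A]
    (M : Submodule A (CotangentSpace A)) (v : CotangentSpace A)
    (hv : v ∈ Submodule.span (ResidueField A) (M : Set (CotangentSpace A))) : v ∈ M := by
  induction hv using Submodule.span_induction with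
  | mem x hx => exact hx
  | zero => exact M.zero_mem
  | add x y _ _ hx hy => exact M.add_mem hx hy
  | smul c x _ hx =>
    obtain ⟨r, rfl⟩ := IsLocalRing.residue_surjective c
    have h1 : (IsLocalRing.residue A r) • x = r • x :=
      algebraMap_smul (ResidueField A) r x
    rw [h1]
    exact M.smul_mem r hx

/-- In a Noetherian local ring with infinite residue field, the maximal ideal is not contained
in a finite union of ideals none of which contains it. -/
theorem exists_mem_maximalIdeal_notMem (A : Type u) [CommRing A] [IsLocalRing A]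
    [IsNoetherianRing A] [Infinite (ResidueField A)] (s : Finset (Ideal A))
    (hs : ∀ W ∈ s, ¬ maximalIdeal A ≤ W) :
    ∃ y ∈ maximalIdeal A, ∀ W ∈ s, y ∉ W := by
  classical
  let MW : Ideal A → Submodule A (CotangentSpace A) := fun W =>
    Submodule.map (maximalIdeal A).toCotangent (Submodule.comap (maximalIdeal A).subtype W)
  let VW : Ideal A → Subspace (ResidueField A) (CotangentSpace A) := fun W =>
    Submodule.span (ResidueField A) (MW W : Set (CotangentSpace A))
  have hne : ∀ W ∈ s, VW W ≠ ⊤ := by
    intro W hW htop
    apply hs W hW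
    have hle : maximalIdeal A ≤ W ⊔ maximalIdeal A • maximalIdeal A := by
      intro a ha
      have h1 : (maximalIdeal A).toCotangent ⟨a, ha⟩ ∈ VW W := by
        rw [htop]; exact Submodule.mem_top
      have h2 := supAvoid_span_eq (MW W) _ h1
      obtain ⟨b, hb, hbe⟩ := h2
      have h3 : ((b : A) - a) ∈ maximalIdeal A ^ 2 := (Ideal.toCotangent_eq _).mp hbe
      have h4 : a = (b : A) + (a - b) := by ring
      rw [h4]
      refine Submodule.add_mem_sup hb ?_
      have h5 : a - (b : A) ∈ maximalIdeal A ^ 2 := by
        have := (maximalIdeal A ^ 2).neg_mem h3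
        simpa using this
      rwa [pow_two] at h5
    have hfg : (maximalIdeal A : Submodule A A).FG := IsNoetherian.noetherian _
    have hjac : maximalIdeal A ≤ Ideal.jacobson ⊥ := by
      rw [IsLocalRing.jacobson_eq_maximalIdeal ⊥ bot_ne_top]
    exact Submodule.le_of_le_smul_of_le_jacobson_bot hfg hjac hle
  have htop : (⊤ : Subspace (ResidueField A) (CotangentSpace A)) ∉ s.image VW := by
    intro h
    obtain ⟨W, hW, hWe⟩ := Finset.mem_image.mp h
    exact hne W hW hWe
  have hcov := Subspace.biUnion_ne_univ_of_top_notMem htop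
  obtain ⟨v, hv⟩ : ∃ v, v ∉ ⋃ p ∈ s.image VW, (p : Set (CotangentSpace A)) := by
    by_contra hcon
    push Not at hcon
    exact hcov (Set.eq_univ_of_forall hcon)
  obtain ⟨y, rfl⟩ := (maximalIdeal A).toCotangent_surjective v
  refine ⟨y, y.2, fun W hW hyW => hv ?_⟩
  rw [Set.mem_iUnion₂]
  exact ⟨VW W, Finset.mem_image_of_mem _ hW, Submodule.subset_span ⟨y, hyW, rfl⟩⟩

end Vale.Agent.Lib.P202.Lech
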