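import Vale.Agent.Lib.P202.Lech.Defs

/-!
# Finitely many ideals to avoid (primary decomposition)
-/

namespace Vale.Agent.Lib.P202.Lech

universe u

/-- In a Noetherian ring `G` with an ideal `𝔤` there are finitely many ideals `P`, none of them
containing `𝔤`, and a number `c` such that every `g` outside all these `P` is a nonzerodivisor
on `𝔤 ^ c`. -/
theorem exists_finset_avoid (G : Type u) [CommRing G] [IsNoetherianRing G] (𝔤 : Ideal G) :
    ∃ (s : Finset (Ideal G)) (c : ℕ), (∀ P ∈ s, ¬ 𝔤 ≤ P) ∧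
      ∀ g : G, (∀ P ∈ s, g ∉ P) → ∀ h ∈ 𝔤 ^ c, g * h = 0 → h = 0 := by
  classical
  obtain ⟨t, ht, hprim⟩ := Submodule.isLasker G G (⊥ : Submodule G G)
  have hfg : 𝔤.FG := (isNoetherianRing_iff_ideal_fg G).1 inferInstance 𝔤
  have hex : ∀ Q : Ideal G, ∃ k : ℕ, 𝔤 ≤ Q.radical → 𝔤 ^ k ≤ Q := by
    intro Q
    by_cases hQ : 𝔤 ≤ Q.radical
    · obtain ⟨k, hk⟩ := Ideal.exists_pow_le_of_le_radical_of_fg hQ hfg
      exact ⟨k, fun _ => hk⟩
    · exact ⟨0, fun h => absurd h hQ⟩
  choose k hk using hex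
  refine ⟨(t.filter (fun Q => ¬ 𝔤 ≤ Ideal.radical Q)).image Ideal.radical, t.sup k, ?_, ?_⟩
  · intro P hP
    rw [Finset.mem_image] at hP
    obtain ⟨Q, hQ, rfl⟩ := hP
    exact (Finset.mem_filter.1 hQ).2
  · intro g hg h hh hgh
    have hmem : ∀ Q ∈ t, h ∈ Q := by
      intro Q hQ
      by_cases hrad : 𝔤 ≤ Ideal.radical Q
      · have h1 : 𝔤 ^ t.sup k ≤ 𝔤 ^ k Q := Ideal.pow_le_pow_right (Finset.le_sup hQ)
        exact hk Q hrad (h1 hh)
      · have hgQ : g ∉ Ideal.radical Q := by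
          apply hg
          rw [Finset.mem_image]
          exact ⟨Q, Finset.mem_filter.2 ⟨hQ, hrad⟩, rfl⟩
        have hp : Ideal.IsPrimary Q := hprim hQ
        rw [Ideal.isPrimary_iff] at hp
        have h0 : h * g ∈ Q := by
          rw [mul_comm, hgh]
          exact Q.zero_mem
        rcases hp.2 h0 with h2 | h2
        · exact h2
        · exact absurd h2 hgQ
    have hbot : h ∈ t.inf id := by
      rw [Submodule.mem_finsetInf]
      intro Q hQ
      exact hmem Q hQ
    rw [ht] at hbot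
    simpa using hbot

end Vale.Agent.Lib.P202.Lech
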