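import Vale.Agent.Lib.P202.Lech.GrApi
import Vale.Agent.Lib.P202.Lech.SupCore
import Vale.Agent.Lib.P202.Lech.SupAvoid

/-!
# Existence of superficial elements (infinite residue field)
-/

namespace Vale.Agent.Lib.P202.Lech

open IsLocalRing

universe u

/-- A Noetherian local ring with infinite residue field has a superficial element. -/
theorem exists_superficial (A : Type u) [CommRing A] [IsLocalRing A] [IsNoetherianRing A]
    [Infinite (ResidueField A)] : ∃ (y : A) (c : ℕ), Superficial A y c := by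
  classical
  obtain ⟨s, c, hs, hnzd⟩ := exists_finset_avoid (Gr (maximalIdeal A)) (grPlus (maximalIdeal A))
  have hW : ∀ W ∈ s.image (grPreimage (maximalIdeal A)), ¬ maximalIdeal A ≤ W := by
    intro W hW hle
    obtain ⟨P, hP, rfl⟩ := Finset.mem_image.mp hW
    apply hs P hP
    unfold grPlus
    rw [Ideal.span_le]
    rintro _ ⟨a, rfl⟩
    exact ((mem_grPreimage (maximalIdeal A) P a).mp (hle a.2)).2
  obtain ⟨y, hy, hyW⟩ :=
    exists_mem_maximalIdeal_notMem A (s.image (grPreimage (maximalIdeal A))) hW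
  refine ⟨y, c, hy, ?_⟩
  intro N hN a ha hya
  have hg : ∀ P ∈ s, grMk (maximalIdeal A) 1 y ∉ P := by
    intro P hP hmem
    exact hyW _ (Finset.mem_image_of_mem _ hP)
      ((mem_grPreimage (maximalIdeal A) P y).mpr ⟨hy, hmem⟩)
  have hy1 : y ∈ maximalIdeal A ^ 1 := by
    rw [pow_one]
    exact hy
  have hh : grMk (maximalIdeal A) N a ∈ grPlus (maximalIdeal A) ^ c :=
    Ideal.pow_le_pow_right hN (grMk_mem_grPlus_pow (maximalIdeal A) N a ha)
  have hmem : y * a ∈ maximalIdeal A ^ (1 + N) := by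
    rw [pow_add]
    exact Ideal.mul_mem_mul hy1 ha
  have hmul : grMk (maximalIdeal A) 1 y * grMk (maximalIdeal A) N a = 0 := by
    rw [← grMk_mul (maximalIdeal A) 1 N y a hy1 ha,
      grMk_eq_zero_iff (maximalIdeal A) (1 + N) (y * a) hmem]
    have h2 : 1 + N + 1 = N + 2 := by ring
    rw [h2]
    exact hya
  have h0 := hnzd _ hg _ hh hmul
  exact (grMk_eq_zero_iff (maximalIdeal A) N a ha).mp h0

end Vale.Agent.Lib.P202.Lech
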