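import Vale.Agent.Lib.P202.Lech.SharpDefs
import Vale.Agent.Lib.P202.Lech.Colon

/-!
# Upper bounds for the Hilbert-Samuel function: the inductive step
-/

namespace Vale.Agent.Lib.P202.Lech

open IsLocalRing

universe u

/-- Bernoulli's inequality in homogeneous form: `N^(k+1) + (k+1) N^k ≤ (N+1)^(k+1)`. -/
lemma upperStep_bernoulli (N k : ℕ) :
    N ^ (k + 1) + (k + 1) * N ^ k ≤ (N + 1) ^ (k + 1) := by
  induction k with
  | zero => simp
  | succ k ih =>
    have h1 : (N + 1) ^ (k + 1 + 1) = (N + 1) * (N + 1) ^ (k + 1) := by ring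
    have h2 := Nat.mul_le_mul_left (N + 1) ih
    have h3 : (N + 1) * (N ^ (k + 1) + (k + 1) * N ^ k) =
        N ^ (k + 1 + 1) + (k + 1 + 1) * N ^ (k + 1) + (k + 1) * N ^ k := by ring
    rw [h1]
    omega

/-- `N^(k+1) + (N+1)^k ≤ (N+1)^(k+1)`. -/
lemma upperStep_pow_step (N k : ℕ) : N ^ (k + 1) + (N + 1) ^ k ≤ (N + 1) ^ (k + 1) := by
  have h1 : N ^ k ≤ (N + 1) ^ k := Nat.pow_le_pow_left (Nat.le_succ N) k
  have h2 : (N + 1) ^ (k + 1) = N * (N + 1) ^ k + (N + 1) ^ k := by ring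
  have h3 : N ^ (k + 1) = N * N ^ k := by ring
  have h4 := Nat.mul_le_mul_left N h1
  omega

/-- The arithmetic heart of the inductive step for upper bounds. -/
lemma upperStep_arith (e b k N : ℕ) :
    e * N ^ (k + 2) + (k + 2) * (b + e) * N ^ (k + 1)
        + (k + 2) * (e * (N + 1) ^ (k + 1) + b * (N + 1) ^ k)
      ≤ e * (N + 1) ^ (k + 2) + (k + 2) * (b + e) * (N + 1) ^ (k + 1) := by
  have F1 := upperStep_bernoulli N (k + 1)
  have F2 := upperStep_pow_step N k
  have h1 := Nat.mul_le_mul_left e F1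
  have h2 := Nat.mul_le_mul_left ((k + 2) * b) F2
  nlinarith [h1, h2]

variable {A : Type u} [CommRing A] [IsLocalRing A] [IsNoetherianRing A]

/-- `H_A(N+1) ≤ H_A(N) + length (A / (n^(N+1) + (y)))` for `y ∈ n`. -/
lemma hs_succ_le (y : A) (hy : y ∈ maximalIdeal A) (N : ℕ) :
    Module.length A (A ⧸ maximalIdeal A ^ (N + 1)) ≤
      Module.length A (A ⧸ maximalIdeal A ^ N) +
        Module.length A (A ⧸ (maximalIdeal A ^ (N + 1) ⊔ Ideal.span {y})) := by
  have _hnoeth : IsNoetherianRing A := inferInstance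
  have h1 := length_quot_colon_add (maximalIdeal A ^ (N + 1)) y
  have h2 : maximalIdeal A ^ N ≤ (maximalIdeal A ^ (N + 1)).colon {y} := by
    intro t ht
    rw [colon_mem_iff, pow_succ']
    exact Ideal.mul_mem_mul hy ht
  have h3 := Vale.Agent.Lib.P202.length_quot_anti h2
  rw [← h1, add_comm]
  gcongr

/-- Inductive step for upper bounds: an upper bound of order `δ` with leading coefficient `e`
for `A / (y)` gives one of order `δ + 1` with the same leading coefficient for `A`. -/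
theorem upperHS_succ (y : A) (hy : y ∈ maximalIdeal A) [IsLocalRing (A ⧸ Ideal.span {y})]
    (δ e b : ℕ) (hδ : 1 ≤ δ) (h : UpperHS (A ⧸ Ideal.span {y}) δ e b) :
    ∃ b' : ℕ, UpperHS A (δ + 1) e b' := by
  obtain ⟨k, rfl⟩ : ∃ k, δ = k + 1 := ⟨δ - 1, by omega⟩
  refine ⟨(k + 2) * (b + e), ?_⟩
  have hX : ∀ N : ℕ, ((k + 1).factorial : ℕ∞) *
      Module.length A (A ⧸ (maximalIdeal A ^ N ⊔ Ideal.span {y})) ≤
      ((e * N ^ (k + 1) + b * N ^ k : ℕ) : ℕ∞) := by
    intro N
    have h1 := h N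
    rw [length_quotient_pow] at h1
    exact h1
  intro N
  induction N with
  | zero =>
    have h0 : Module.length A (A ⧸ maximalIdeal A ^ 0) = 0 := by
      rw [Module.length_eq_zero_iff, Ideal.Quotient.subsingleton_iff, pow_zero,
        Ideal.one_eq_top]
    rw [h0, mul_zero]
    exact bot_le
  | succ N ih =>
    have hs := hs_succ_le y hy N
    have hx := hX (N + 1)
    have har := upperStep_arith e b k N
    have ih' : ((k + 1 + 1).factorial : ℕ∞) * Module.length A (A ⧸ maximalIdeal A ^ N) ≤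
        ((e * N ^ (k + 2) + (k + 2) * (b + e) * N ^ (k + 1) : ℕ) : ℕ∞) := ih
    show ((k + 1 + 1).factorial : ℕ∞) * Module.length A (A ⧸ maximalIdeal A ^ (N + 1)) ≤
      ((e * (N + 1) ^ (k + 2) + (k + 2) * (b + e) * (N + 1) ^ (k + 1) : ℕ) : ℕ∞)
    calc ((k + 1 + 1).factorial : ℕ∞) * Module.length A (A ⧸ maximalIdeal A ^ (N + 1))
        ≤ ((k + 1 + 1).factorial : ℕ∞) * (Module.length A (A ⧸ maximalIdeal A ^ N) +
            Module.length A (A ⧸ (maximalIdeal A ^ (N + 1) ⊔ Ideal.span {y}))) := by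
          gcongr
      _ = ((k + 1 + 1).factorial : ℕ∞) * Module.length A (A ⧸ maximalIdeal A ^ N) +
            ((k + 2 : ℕ) : ℕ∞) * (((k + 1).factorial : ℕ∞) *
              Module.length A (A ⧸ (maximalIdeal A ^ (N + 1) ⊔ Ideal.span {y}))) := by
          rw [Nat.factorial_succ (k + 1)]
          push_cast
          ring
      _ ≤ ((e * N ^ (k + 2) + (k + 2) * (b + e) * N ^ (k + 1) : ℕ) : ℕ∞) +
            ((k + 2 : ℕ) : ℕ∞) *
              ((e * (N + 1) ^ (k + 1) + b * (N + 1) ^ k : ℕ) : ℕ∞) := by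
          gcongr
      _ ≤ ((e * (N + 1) ^ (k + 2) + (k + 2) * (b + e) * (N + 1) ^ (k + 1) : ℕ) : ℕ∞) := by
          rw [← Nat.cast_mul, ← Nat.cast_add, Nat.cast_le]
          exact har

end Vale.Agent.Lib.P202.Lech
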