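import Vale.Agent.Lib.P202.Lech.SharpOne
import Vale.Agent.Lib.P202.Lech.UpperStep
import Vale.Agent.Lib.P202.Lech.LowerStep
import Vale.Agent.Lib.P202.Lech.SupBound
import Vale.Agent.Lib.P202.Lech.SupExists

/-!
# Hilbert-Samuel functions of local rings with infinite residue field are sharply of every order
-/

namespace Vale.Agent.Lib.P202.Lech

open IsLocalRing

universe u

/-- For every Noetherian local ring with infinite residue field and every `δ ≥ 1`, the
Hilbert-Samuel function is sharply of order `δ`: induction on `δ`, dividing by a superficial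
element. -/
theorem sharpGood (δ : ℕ) (hδ : 1 ≤ δ) :
    ∀ (A : Type u) [CommRing A] [IsLocalRing A] [IsNoetherianRing A]
      [Infinite (ResidueField A)], SharpGood A δ := by
  induction δ, hδ using Nat.le_induction with
  | base =>
    intro A _ _ _ _
    obtain ⟨y, c, hyc⟩ := exists_superficial A
    exact sharpGood_one c (fun N hN => superficial_convex y c hyc N hN)
  | succ δ hδ ih =>
    intro A _ _ _ _
    obtain ⟨y, c, hyc⟩ := exists_superficial A
    have hloc : IsLocalRing (A ⧸ Ideal.span {y}) :=
      Vale.Agent.Lib.P202.isLocalRing_quotient_span hyc.1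
    have hinf : Infinite (ResidueField (A ⧸ Ideal.span {y})) :=
      infinite_residueField_quotient _
    have hfin : Module.length A (A ⧸ maximalIdeal A ^ c) ≠ ⊤ :=
      Vale.Agent.Lib.P202.length_quot_pow_ne_top A c
    obtain ⟨C, hC⟩ := ENat.ne_top_iff_exists.mp hfin
    have ha : ∀ N : ℕ, Module.length A (A ⧸ (maximalIdeal A ^ (N + 1) ⊔ Ideal.span {y})) +
        Module.length A (A ⧸ maximalIdeal A ^ N) ≤
        Module.length A (A ⧸ maximalIdeal A ^ (N + 1)) + (C : ℕ∞) := by
      intro N
      rw [hC]
      exact superficial_bound_quot y c hyc N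
    rcases ih (A ⧸ Ideal.span {y}) with ⟨e, b, hup, hlow⟩ | hall
    · left
      obtain ⟨b', hb'⟩ := upperHS_succ y hyc.1 δ e b hδ hup
      exact ⟨e, b', hb', lowerHS_succ y δ e C hδ ha hlow⟩
    · right
      intro E
      exact lowerHS_succ y δ E C hδ ha (hall E)

end Vale.Agent.Lib.P202.Lech
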