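import Vale.Agent.Lib.P202.Lech.SupExistsAvoid

/-!
# A superficial pair generating the maximal ideal modulo a given ideal
-/

namespace Vale.Agent.Lib.P202.Lech

open IsLocalRing

universe u

/-- Solving `w = μ + α g + r` for `g` when `α` is a unit. -/
private lemma supPair_core {S : Type u} [CommRing S] (J K : Ideal S) {w g μ r α : S}
    (hα : IsUnit α) (hμ : μ ∈ J) (hr : r ∈ K) (hw : w = μ + α * g + r) :
    g ∈ J ⊔ Ideal.span {w} ⊔ K := by
  obtain ⟨u, rfl⟩ := hα
  have hg : g = ↑u⁻¹ * (w - μ - r) := by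
    rw [hw]
    have e : μ + ↑u * g + r - μ - r = ↑u * g := by ring
    rw [e, Units.inv_mul_cancel_left]
  rw [hg]
  apply Ideal.mul_mem_left
  apply Ideal.sub_mem
  · apply Ideal.sub_mem
    · exact Ideal.mem_sup_left (Ideal.mem_sup_right (Ideal.subset_span (Set.mem_singleton w)))
    · exact Ideal.mem_sup_left (Ideal.mem_sup_left hμ)
  · exact Ideal.mem_sup_right hr

/-- Nakayama: if `n ≤ J + n^2` then `n ≤ J`. -/
private lemma supPair_nak {S : Type u} [CommRing S] [IsLocalRing S] [IsNoetherianRing S]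
    (J : Ideal S) (h : maximalIdeal S ≤ J ⊔ maximalIdeal S * maximalIdeal S) :
    maximalIdeal S ≤ J := by
  refine Submodule.le_of_le_smul_of_le_jacobson_bot (I := maximalIdeal S)
    (IsNoetherian.noetherian _) ?_ h
  rw [IsLocalRing.jacobson_eq_maximalIdeal ⊥ bot_ne_top]

/-- Exchange with one generator: if `n = J + (g)` and `w ∈ n` is not in `J + n^2`, then
`n = J + (w)`. -/
private lemma supPair_exchange {S : Type u} [CommRing S] [IsLocalRing S] (J : Ideal S)
    {g w : S} (hn : maximalIdeal S = J ⊔ Ideal.span {g}) (hw : w ∈ maximalIdeal S)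
    (hwW : w ∉ J ⊔ maximalIdeal S * maximalIdeal S) :
    maximalIdeal S = J ⊔ Ideal.span {w} := by
  have hJn : J ≤ maximalIdeal S := by
    rw [hn]
    exact le_sup_left
  have hg : g ∈ maximalIdeal S := by
    rw [hn]
    exact Ideal.mem_sup_right (Ideal.subset_span (Set.mem_singleton g))
  have hw' : w ∈ J ⊔ Ideal.span {g} := by
    rw [← hn]
    exact hw
  obtain ⟨μ, hμ, z, hz, hμz⟩ := Submodule.mem_sup.mp hw'
  obtain ⟨β, rfl⟩ := Ideal.mem_span_singleton'.mp hz
  have hβ : IsUnit β := by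
    by_contra hβ
    apply hwW
    rw [← hμz]
    exact Ideal.add_mem _ (Ideal.mem_sup_left hμ)
      (Ideal.mem_sup_right (Ideal.mul_mem_mul ((IsLocalRing.mem_maximalIdeal β).mpr hβ) hg))
  have hgm : g ∈ J ⊔ Ideal.span {w} ⊔ (⊥ : Ideal S) :=
    supPair_core J ⊥ (r := 0) hβ hμ (Ideal.zero_mem _) (by rw [add_zero, hμz])
  rw [sup_bot_eq] at hgm
  apply le_antisymm
  · rw [hn]
    exact sup_le le_sup_left ((Ideal.span_singleton_le_iff_mem _).mpr hgm)
  · exact sup_le hJn ((Ideal.span_singleton_le_iff_mem _).mpr hw)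

/-- Exchange with two generators: if `n = J + (a, b)` and `w ∈ n` is not in `J + n^2`, then
`n = J + (w) + (b1)` for some `b1`. -/
private lemma supPair_exchange2 {S : Type u} [CommRing S] [IsLocalRing S] (J : Ideal S)
    {a b w : S} (hn : maximalIdeal S = J ⊔ Ideal.span {a, b}) (hw : w ∈ maximalIdeal S)
    (hwW : w ∉ J ⊔ maximalIdeal S * maximalIdeal S) :
    ∃ b1 : S, maximalIdeal S = J ⊔ Ideal.span {w} ⊔ Ideal.span {b1} := by
  have hJn : J ≤ maximalIdeal S := by
    rw [hn]
    exact le_sup_left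
  have ha : a ∈ maximalIdeal S := by
    rw [hn]
    exact Ideal.mem_sup_right (Ideal.subset_span (Set.mem_insert a {b}))
  have hb : b ∈ maximalIdeal S := by
    rw [hn]
    exact Ideal.mem_sup_right (Ideal.subset_span (Set.mem_insert_of_mem a (Set.mem_singleton b)))
  have hw' : w ∈ J ⊔ Ideal.span {a, b} := by
    rw [← hn]
    exact hw
  obtain ⟨μ, hμ, z, hz, hμz⟩ := Submodule.mem_sup.mp hw'
  obtain ⟨α, β, rfl⟩ := Ideal.mem_span_pair.mp hz
  by_cases hα : IsUnit α
  · have ham : a ∈ J ⊔ Ideal.span {w} ⊔ Ideal.span {b} :=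
      supPair_core J (Ideal.span {b}) (r := β * b) hα hμ
        (Ideal.mul_mem_left _ _ (Ideal.subset_span (Set.mem_singleton b)))
        (by rw [← hμz]; ring)
    refine ⟨b, le_antisymm ?_ ?_⟩
    · rw [hn]
      refine sup_le (le_sup_left.trans le_sup_left) ?_
      rw [Ideal.span_le]
      intro x hx
      rcases hx with rfl | hx
      · exact ham
      · rw [Set.mem_singleton_iff] at hx
        rw [hx]
        exact Ideal.mem_sup_right (Ideal.subset_span (Set.mem_singleton b))
    · exact sup_le (sup_le hJn ((Ideal.span_singleton_le_iff_mem _).mpr hw))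
        ((Ideal.span_singleton_le_iff_mem _).mpr hb)
  · have hβ : IsUnit β := by
      by_contra hβ
      apply hwW
      rw [← hμz]
      refine Ideal.add_mem _ (Ideal.mem_sup_left hμ) (Ideal.mem_sup_right ?_)
      exact Ideal.add_mem _
        (Ideal.mul_mem_mul ((IsLocalRing.mem_maximalIdeal α).mpr hα) ha)
        (Ideal.mul_mem_mul ((IsLocalRing.mem_maximalIdeal β).mpr hβ) hb)
    have hbm : b ∈ J ⊔ Ideal.span {w} ⊔ Ideal.span {a} :=
      supPair_core J (Ideal.span {a}) (r := α * a) hβ hμ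
        (Ideal.mul_mem_left _ _ (Ideal.subset_span (Set.mem_singleton a)))
        (by rw [← hμz]; ring)
    refine ⟨a, le_antisymm ?_ ?_⟩
    · rw [hn]
      refine sup_le (le_sup_left.trans le_sup_left) ?_
      rw [Ideal.span_le]
      intro x hx
      rcases hx with rfl | hx
      · exact Ideal.mem_sup_right (Ideal.subset_span (Set.mem_singleton x))
      · rw [Set.mem_singleton_iff] at hx
        rw [hx]
        exact hbm
    · exact sup_le (sup_le hJn ((Ideal.span_singleton_le_iff_mem _).mpr hw))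
        ((Ideal.span_singleton_le_iff_mem _).mpr ha)

/-- Step 1: a superficial element `y` with `n = 𝔠 + (y) + (b1)`. -/
private lemma supPair_step1 (S : Type u) [CommRing S] [IsLocalRing S] [IsNoetherianRing S]
    [Infinite (ResidueField S)] (𝔠 : Ideal S) (a b : S)
    (h : maximalIdeal S = 𝔠 ⊔ Ideal.span {a, b}) :
    ∃ (y : S) (c₁ : ℕ) (b1 : S), Superficial S y c₁ ∧
      maximalIdeal S = 𝔠 ⊔ Ideal.span {y} ⊔ Ideal.span {b1} := by
  have hcn : 𝔠 ≤ maximalIdeal S := by
    rw [h]
    exact le_sup_left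
  have hb : b ∈ maximalIdeal S := by
    rw [h]
    exact Ideal.mem_sup_right (Ideal.subset_span (Set.mem_insert_of_mem a (Set.mem_singleton b)))
  by_cases hcase : maximalIdeal S ≤ 𝔠 ⊔ maximalIdeal S * maximalIdeal S
  · have hnc := supPair_nak 𝔠 hcase
    obtain ⟨y, c₁, hy⟩ := exists_superficial S
    refine ⟨y, c₁, b, hy, le_antisymm ?_ ?_⟩
    · exact hnc.trans (le_sup_left.trans le_sup_left)
    · exact sup_le (sup_le hcn ((Ideal.span_singleton_le_iff_mem _).mpr hy.1))
        ((Ideal.span_singleton_le_iff_mem _).mpr hb)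
  · obtain ⟨y, c₁, hy, hyW⟩ := exists_superficial_notMem S
      {𝔠 ⊔ maximalIdeal S * maximalIdeal S} (by
        intro W hW
        rw [Finset.mem_singleton] at hW
        rw [hW]
        exact hcase)
    obtain ⟨b1, hb1⟩ := supPair_exchange2 𝔠 h hy.1 (hyW _ (Finset.mem_singleton_self _))
    exact ⟨y, c₁, b1, hy, hb1⟩

/-- Step 2: an element `v` whose class is superficial modulo `y`, with `n = J + (v)`. -/
private lemma supPair_step2 (S : Type u) [CommRing S] [IsLocalRing S] [IsNoetherianRing S]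
    [Infinite (ResidueField S)] (J : Ideal S) (y b1 : S) (hy : y ∈ maximalIdeal S)
    (hyJ : y ∈ J) (hn : maximalIdeal S = J ⊔ Ideal.span {b1}) :
    ∃ (v : S) (c₂ : ℕ),
      @Superficial (S ⧸ Ideal.span {y}) _ (Vale.Agent.Lib.P202.isLocalRing_quotient_span hy)
        (Ideal.Quotient.mk (Ideal.span {y}) v) c₂ ∧
      maximalIdeal S = J ⊔ Ideal.span {v} := by
  have hloc : IsLocalRing (S ⧸ Ideal.span {y}) :=
    Vale.Agent.Lib.P202.isLocalRing_quotient_span hy
  have hinf : Infinite (ResidueField (S ⧸ Ideal.span {y})) := infinite_residueField_quotient _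
  have hJn : J ≤ maximalIdeal S := by
    rw [hn]
    exact le_sup_left
  have hlift : ∀ v : S, Ideal.Quotient.mk (Ideal.span {y}) v ∈ maximalIdeal (S ⧸ Ideal.span {y})
      → v ∈ maximalIdeal S := by
    intro v hv
    by_contra hvn
    have hu : IsUnit v := IsLocalRing.notMem_maximalIdeal.mp hvn
    exact (IsLocalRing.mem_maximalIdeal _).mp hv (hu.map (Ideal.Quotient.mk (Ideal.span {y})))
  by_cases hcase : maximalIdeal S ≤ J ⊔ maximalIdeal S * maximalIdeal S
  · have hnJ : maximalIdeal S ≤ J := supPair_nak J hcase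
    obtain ⟨t, c₂, ht⟩ := exists_superficial (S ⧸ Ideal.span {y})
    obtain ⟨v, rfl⟩ := Ideal.Quotient.mk_surjective t
    refine ⟨v, c₂, ht, le_antisymm ?_ ?_⟩
    · exact hnJ.trans le_sup_left
    · exact sup_le hJn ((Ideal.span_singleton_le_iff_mem _).mpr (hlift v ht.1))
  · have hW : ∀ W ∈ ({(J ⊔ maximalIdeal S * maximalIdeal S).map
          (Ideal.Quotient.mk (Ideal.span {y}))} : Finset (Ideal (S ⧸ Ideal.span {y}))),
        ¬ maximalIdeal (S ⧸ Ideal.span {y}) ≤ W := by
      intro W hW hle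
      rw [Finset.mem_singleton] at hW
      subst hW
      apply hcase
      intro x hx
      have h1 : Ideal.Quotient.mk (Ideal.span {y}) x ∈ maximalIdeal (S ⧸ Ideal.span {y}) := by
        rw [maximalIdeal_quotient]
        exact Ideal.mem_map_of_mem _ hx
      have h2 := hle h1
      rw [Ideal.mem_map_iff_of_surjective _ Ideal.Quotient.mk_surjective] at h2
      obtain ⟨w, hw, hwx⟩ := h2
      have h3 : w - x ∈ Ideal.span {y} := Ideal.Quotient.eq.mp hwx
      have h4 : x = w - (w - x) := by ring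
      rw [h4]
      refine Ideal.sub_mem _ hw ?_
      exact Ideal.mem_sup_left ((Ideal.span_singleton_le_iff_mem _).mpr hyJ h3)
    obtain ⟨t, c₂, ht, htW⟩ := exists_superficial_notMem (S ⧸ Ideal.span {y}) _ hW
    obtain ⟨v, rfl⟩ := Ideal.Quotient.mk_surjective t
    have hvn : v ∈ maximalIdeal S := hlift v ht.1
    have hvW : v ∉ J ⊔ maximalIdeal S * maximalIdeal S := by
      intro hv
      exact htW _ (Finset.mem_singleton_self _) (Ideal.mem_map_of_mem _ hv)
    exact ⟨v, c₂, ht, supPair_exchange J hn hvn hvW⟩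

/-- Let `(S, n)` be a Noetherian local ring with infinite residue field and `n = 𝔠 + (a, b)`.
Then there are `y, v ∈ n` with `n = 𝔠 + (v) + (y)` such that `y` is superficial on `S` and the
class of `v` is superficial on `S / (y)`. -/
theorem exists_superficial_pair (S : Type u) [CommRing S] [IsLocalRing S] [IsNoetherianRing S]
    [Infinite (ResidueField S)] (𝔠 : Ideal S) (a b : S)
    (h : maximalIdeal S = 𝔠 ⊔ Ideal.span {a, b}) :
    ∃ (y : S) (hy : y ∈ maximalIdeal S) (v : S) (c₁ c₂ : ℕ), Superficial S y c₁ ∧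
      @Superficial (S ⧸ Ideal.span {y}) _ (Vale.Agent.Lib.P202.isLocalRing_quotient_span hy)
        (Ideal.Quotient.mk (Ideal.span {y}) v) c₂ ∧
      maximalIdeal S = 𝔠 ⊔ Ideal.span {v} ⊔ Ideal.span {y} := by
  obtain ⟨y, c₁, b1, hy, hn⟩ := supPair_step1 S 𝔠 a b h
  obtain ⟨v, c₂, hv, hn2⟩ := supPair_step2 S (𝔠 ⊔ Ideal.span {y}) y b1 hy.1
    (Ideal.mem_sup_right (Ideal.subset_span (Set.mem_singleton y))) hn
  refine ⟨y, hy.1, v, c₁, c₂, hy, hv, ?_⟩
  rw [hn2, sup_right_comm]

end Vale.Agent.Lib.P202.Lech
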