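import Vale.Agent.Lib.P202.Lech.Main
import Vale.Agent.Lib.P202.Lech.SharpGood
import Vale.Agent.Lib.P202.Lech.SupPair
import Vale.Agent.Lib.P202.Lech.EmbTwoStep
import Vale.Agent.Lib.P202.Lech.Asymp2

/-!
# Lech's inequality for closed fibres of finite length and embedding dimension at most two
(infinite residue field)
-/

namespace Vale.Agent.Lib.P202.Lech

open IsLocalRing Filter
open scoped ENNReal Nat Topology

universe u v

variable {R : Type v} {S : Type u} [CommRing R] [CommRing S] [IsLocalRing R] [IsLocalRing S]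
  [IsNoetherianRing R] [IsNoetherianRing S] [Algebra R S] [IsLocalHom (algebraMap R S)]
  [Module.Flat R S]

omit [IsLocalRing R] [IsNoetherianRing R] [Algebra R S] [IsLocalHom (algebraMap R S)]
  [Module.Flat R S] [CommRing R] [IsNoetherianRing S] in
/-- The Hilbert-Samuel function of `(S / (y)) / (v)`, computed over `S`. -/
lemma length_quotient_quotient_pow (y v : S) (hy : y ∈ maximalIdeal S)
    [IsLocalRing (S ⧸ Ideal.span {y})]
    [IsLocalRing ((S ⧸ Ideal.span {y}) ⧸
      Ideal.span {Ideal.Quotient.mk (Ideal.span {y}) v})] (j : ℕ) :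
    Module.length ((S ⧸ Ideal.span {y}) ⧸ Ideal.span {Ideal.Quotient.mk (Ideal.span {y}) v})
        (((S ⧸ Ideal.span {y}) ⧸ Ideal.span {Ideal.Quotient.mk (Ideal.span {y}) v}) ⧸
          maximalIdeal ((S ⧸ Ideal.span {y}) ⧸
            Ideal.span {Ideal.Quotient.mk (Ideal.span {y}) v}) ^ j) =
      Module.length S (S ⧸ (maximalIdeal S ^ j ⊔ Ideal.span {v} ⊔ Ideal.span {y})) := by
  rw [length_quotient_pow]
  have e : maximalIdeal (S ⧸ Ideal.span {y}) ^ j ⊔
      Ideal.span {Ideal.Quotient.mk (Ideal.span {y}) v} =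
      (maximalIdeal S ^ j ⊔ Ideal.span {v}).map (Ideal.Quotient.mk (Ideal.span {y})) := by
    rw [Ideal.map_sup, Ideal.map_pow, Ideal.map_span, Set.image_singleton, maximalIdeal_quotient]
  rw [e, length_quotient_ideal]

/-- Lech's inequality for a flat local homomorphism whose closed fibre has finite length and
embedding dimension at most two, when the target has infinite residue field. -/
theorem limsup_le_liminf_of_embDim_two_of_infinite
    (hfib : Module.length S (S ⧸ (maximalIdeal R).map (algebraMap R S)) ≠ ⊤)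
    [Infinite (ResidueField S)] (a b : S)
    (hab : maximalIdeal S = (maximalIdeal R).map (algebraMap R S) ⊔ Ideal.span {a, b})
    (d : ℕ) (hd : 2 ≤ d) :
    limsup (fun N : ℕ => (d ! : ℝ≥0∞) *
        (Module.length R (R ⧸ maximalIdeal R ^ N)).toENNReal / (N : ℝ≥0∞) ^ d) atTop ≤
      liminf (fun N : ℕ => (d ! : ℝ≥0∞) *
        (Module.length S (S ⧸ maximalIdeal S ^ N)).toENNReal / (N : ℝ≥0∞) ^ d) atTop := by
  rcases Nat.lt_or_ge d 3 with hd3 | hd3
  · have hd2 : d = 2 := by omega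
    subst hd2
    have h := limsup_le_factorial_mul_liminf_of_infinite (R := R) (S := S) hfib 2 le_rfl
    have h1 : (((2 - 1) ! : ℕ) : ℝ≥0∞) = 1 := by norm_num
    rw [h1, one_mul] at h
    exact h
  obtain ⟨y, hy, v, c₁, c₂, hsy, hsv, hn⟩ :=
    exists_superficial_pair S ((maximalIdeal R).map (algebraMap R S)) a b hab
  have hlocT : IsLocalRing (S ⧸ Ideal.span {y}) :=
    Vale.Agent.Lib.P202.isLocalRing_quotient_span hy
  have hinfT : Infinite (ResidueField (S ⧸ Ideal.span {y})) :=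
    infinite_residueField_quotient _
  have hsv' : Superficial (S ⧸ Ideal.span {y}) (Ideal.Quotient.mk (Ideal.span {y}) v) c₂ := hsv
  have hvT : Ideal.Quotient.mk (Ideal.span {y}) v ∈ maximalIdeal (S ⧸ Ideal.span {y}) := hsv'.1
  have hlocU : IsLocalRing ((S ⧸ Ideal.span {y}) ⧸
      Ideal.span {Ideal.Quotient.mk (Ideal.span {y}) v}) :=
    Vale.Agent.Lib.P202.isLocalRing_quotient_span hvT
  have hinfU : Infinite (ResidueField ((S ⧸ Ideal.span {y}) ⧸
      Ideal.span {Ideal.Quotient.mk (Ideal.span {y}) v})) :=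
    infinite_residueField_quotient _
  obtain ⟨C₁, hC₁⟩ := ENat.ne_top_iff_exists.mp
    (Vale.Agent.Lib.P202.length_quot_pow_ne_top S c₁)
  obtain ⟨C₂, hC₂⟩ := ENat.ne_top_iff_exists.mp
    (Vale.Agent.Lib.P202.length_quot_pow_ne_top (S ⧸ Ideal.span {y}) c₂)
  have ha₁ : ∀ N : ℕ, Module.length S (S ⧸ (maximalIdeal S ^ (N + 1) ⊔ Ideal.span {y})) +
      Module.length S (S ⧸ maximalIdeal S ^ N) ≤
      Module.length S (S ⧸ maximalIdeal S ^ (N + 1)) + (C₁ : ℕ∞) := by
    intro N
    rw [hC₁]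
    exact superficial_bound_quot y c₁ hsy N
  have ha₂ : ∀ N : ℕ, Module.length (S ⧸ Ideal.span {y}) ((S ⧸ Ideal.span {y}) ⧸
        (maximalIdeal (S ⧸ Ideal.span {y}) ^ (N + 1) ⊔
          Ideal.span {Ideal.Quotient.mk (Ideal.span {y}) v})) +
      Module.length (S ⧸ Ideal.span {y})
        ((S ⧸ Ideal.span {y}) ⧸ maximalIdeal (S ⧸ Ideal.span {y}) ^ N) ≤
      Module.length (S ⧸ Ideal.span {y})
        ((S ⧸ Ideal.span {y}) ⧸ maximalIdeal (S ⧸ Ideal.span {y}) ^ (N + 1)) + (C₂ : ℕ∞) := by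
    intro N
    rw [hC₂]
    exact superficial_bound_quot _ c₂ hsv' N
  have hd2 : d - 2 + 1 + 1 = d := by omega
  have hgood := sharpGood (d - 2) (by omega) ((S ⧸ Ideal.span {y}) ⧸
      Ideal.span {Ideal.Quotient.mk (Ideal.span {y}) v})
  have hlow : ∀ E : ℕ, LowerHS ((S ⧸ Ideal.span {y}) ⧸
      Ideal.span {Ideal.Quotient.mk (Ideal.span {y}) v}) (d - 2) E → LowerHS S d E := by
    intro E h
    have h1 := lowerHS_succ (Ideal.Quotient.mk (Ideal.span {y}) v) (d - 2) E C₂ (by omega) ha₂ h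
    have h2 := lowerHS_succ y (d - 2 + 1) E C₁ (by omega) ha₁ h1
    rw [hd2] at h2
    exact h2
  have hlim : ∀ E : ℕ, LowerHS S d E → (E : ℝ≥0∞) ≤ liminf (fun N : ℕ => (d ! : ℝ≥0∞) *
      (Module.length S (S ⧸ maximalIdeal S ^ N)).toENNReal / (N : ℝ≥0∞) ^ d) atTop := by
    rintro E ⟨K, hK⟩
    exact le_liminf_of_lower d E K (by omega) _ hK
  rcases hgood with ⟨e, b, hup, hlowU⟩ | hall
  · have h1 := hlim e (hlow e hlowU)
    have h2 : limsup (fun N : ℕ => (d ! : ℝ≥0∞) *
        (Module.length R (R ⧸ maximalIdeal R ^ N)).toENNReal / (N : ℝ≥0∞) ^ d) atTop ≤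
        (e : ℝ≥0∞) := by
      apply limsup_le_of_step_sum d e b hd3
        (fun N => Module.length R (R ⧸ maximalIdeal R ^ N))
        (fun j => Module.length S (S ⧸ (maximalIdeal S ^ j ⊔ Ideal.span {v} ⊔ Ideal.span {y})))
      · rw [Module.length_eq_zero_iff, Ideal.Quotient.subsingleton_iff, pow_zero,
          Ideal.one_eq_top]
      · intro j
        have h3 := hup j
        rw [length_quotient_quotient_pow y v hy j] at h3
        exact h3
      · intro N
        exact emb_two_step hfib y v hn N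
    exact h2.trans h1
  · have htop : liminf (fun N : ℕ => (d ! : ℝ≥0∞) *
        (Module.length S (S ⧸ maximalIdeal S ^ N)).toENNReal / (N : ℝ≥0∞) ^ d) atTop = ⊤ :=
      ENNReal.eq_top_of_forall_nnreal_le (fun r => by
        obtain ⟨E, hE⟩ := exists_nat_ge r
        calc (r : ℝ≥0∞) ≤ ((E : NNReal) : ℝ≥0∞) := ENNReal.coe_le_coe.mpr hE
          _ = (E : ℝ≥0∞) := ENNReal.coe_natCast E
          _ ≤ _ := hlim E (hlow E (hall E)))
    rw [htop]
    exact le_top

end Vale.Agent.Lib.P202.Lech
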