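import Vale.Agent.Lib.P202.Lech.SupExistsAvoid

/-!
# A superficial element that replaces one of finitely many generators modulo an ideal
-/

namespace Vale.Agent.Lib.P202.Lech

open IsLocalRing

universe u

/-- Solving `w = μ + α g + r` for `g` when `α` is a unit. -/
private lemma exchange_core {S : Type u} [CommRing S] (J K : Ideal S) {w g μ r α : S}
    (hα : IsUnit α) (hμ : μ ∈ J) (hr : r ∈ K) (hw : w = μ + α * g + r) :
    g ∈ J ⊔ Ideal.span {w} ⊔ K := by
  obtain ⟨u, rfl⟩ := hα
  have hg : g = ↑u⁻¹ * (w - μ - r) := by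
    rw [hw]
    have e : μ + ↑u * g + r - μ - r = ↑u * g := by ring
    rw [e, Units.inv_mul_cancel_left]
  rw [hg]
  apply Ideal.mul_mem_left
  apply Ideal.sub_mem
  · apply Ideal.sub_mem
    · exact Ideal.mem_sup_left (Ideal.mem_sup_right (Ideal.subset_span (Set.mem_singleton w)))
    · exact Ideal.mem_sup_left (Ideal.mem_sup_left hμ)
  · exact Ideal.mem_sup_right hr

/-- Nakayama: if `n ≤ J + n^2` then `n ≤ J`. -/
private lemma exchange_nak {S : Type u} [CommRing S] [IsLocalRing S] [IsNoetherianRing S]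
    (J : Ideal S) (h : maximalIdeal S ≤ J ⊔ maximalIdeal S * maximalIdeal S) :
    maximalIdeal S ≤ J := by
  refine Submodule.le_of_le_smul_of_le_jacobson_bot (I := maximalIdeal S)
    (IsNoetherian.noetherian _) ?_ h
  rw [IsLocalRing.jacobson_eq_maximalIdeal ⊥ bot_ne_top]

open Classical in
/-- Let `(A, n)` be a Noetherian local ring with infinite residue field, `I` an ideal not
containing `n`, and `s` a finite set with `n = I + (s)`.  Then there are a superficial element
`y` and an element `g ∈ s` with `n = I + (y) + (s ∖ {g})`. -/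
theorem exists_superficial_exchange (A : Type u) [CommRing A] [IsLocalRing A]
    [IsNoetherianRing A] [Infinite (ResidueField A)] (I : Ideal A) (s : Finset A)
    (hn : maximalIdeal A = I ⊔ Ideal.span (s : Set A)) (hI : ¬ maximalIdeal A ≤ I) :
    ∃ (y : A) (c₁ : ℕ) (g : A), Superficial A y c₁ ∧ g ∈ s ∧
      maximalIdeal A = I ⊔ Ideal.span {y} ⊔ Ideal.span ((s.erase g : Finset A) : Set A) := by
  have hnak : ¬ maximalIdeal A ≤ I ⊔ maximalIdeal A * maximalIdeal A :=
    fun h => hI (exchange_nak I h)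
  obtain ⟨y, c₁, hy, hyW⟩ := exists_superficial_notMem A
    {I ⊔ maximalIdeal A * maximalIdeal A}
    (by
      intro W hW
      rw [Finset.mem_singleton] at hW
      rw [hW]
      exact hnak)
  have hyW' : y ∉ I ⊔ maximalIdeal A * maximalIdeal A := hyW _ (Finset.mem_singleton_self _)
  have hIn : I ≤ maximalIdeal A := by
    rw [hn]
    exact le_sup_left
  have hsn : ∀ a ∈ s, a ∈ maximalIdeal A := by
    intro a ha
    rw [hn]
    exact Ideal.mem_sup_right (Ideal.subset_span (Finset.mem_coe.mpr ha))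
  have hy' : y ∈ I ⊔ Ideal.span (s : Set A) := by
    rw [← hn]
    exact hy.1
  obtain ⟨μ, hμ, z, hz, hμz⟩ := Submodule.mem_sup.mp hy'
  obtain ⟨f, -, hf⟩ := Submodule.mem_span_finset.mp hz
  have hunit : ∃ g ∈ s, IsUnit (f g) := by
    by_contra hno
    apply hyW'
    rw [← hμz]
    refine Ideal.add_mem _ (Ideal.mem_sup_left hμ) (Ideal.mem_sup_right ?_)
    rw [← hf]
    refine Ideal.sum_mem _ (fun a ha => ?_)
    rw [smul_eq_mul]
    have hna : ¬ IsUnit (f a) := fun hu => hno ⟨a, ha, hu⟩
    exact Ideal.mul_mem_mul ((IsLocalRing.mem_maximalIdeal _).mpr hna) (hsn a ha)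
  obtain ⟨g, hg, hu⟩ := hunit
  have hgm : g ∈ I ⊔ Ideal.span {y} ⊔ Ideal.span ((s.erase g : Finset A) : Set A) := by
    refine exchange_core I (Ideal.span ((s.erase g : Finset A) : Set A))
      (r := ∑ a ∈ s.erase g, f a • a) hu hμ ?_ ?_
    · refine Ideal.sum_mem _ (fun a ha => ?_)
      rw [smul_eq_mul]
      exact Ideal.mul_mem_left _ _ (Ideal.subset_span (Finset.mem_coe.mpr ha))
    · rw [← hμz, ← hf, ← Finset.add_sum_erase s (fun a => f a • a) hg]
      simp only [smul_eq_mul]
      ring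
  refine ⟨y, c₁, g, hy, hg, le_antisymm ?_ ?_⟩
  · rw [hn]
    refine sup_le (le_sup_left.trans le_sup_left) ?_
    rw [Ideal.span_le]
    intro x hx
    have hx' : x ∈ s := Finset.mem_coe.mp hx
    by_cases hxg : x = g
    · rw [hxg]
      exact hgm
    · exact Ideal.mem_sup_right
        (Ideal.subset_span (Finset.mem_coe.mpr (Finset.mem_erase.mpr ⟨hxg, hx'⟩)))
  · refine sup_le (sup_le hIn ((Ideal.span_singleton_le_iff_mem _).mpr hy.1)) ?_
    rw [Ideal.span_le]
    intro x hx
    exact hsn x (Finset.mem_of_mem_erase (Finset.mem_coe.mp hx))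

end Vale.Agent.Lib.P202.Lech
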