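import Vale.Agent.Lib.P202.Lech.Colon

/-!
# Iterated colon sums

For a list `z_1, …, z_s` of elements of a commutative ring `A`, an ideal `𝔄` and exponents
`t_1, …, t_s < T`, form successively `𝔄 ↦ (𝔄 : z_1^(t_1)) + (z_1)`, then the same with `z_2`,
and so on.  `colonSum T zs w 𝔄` is the sum of the weights `w` of the resulting ideals over all
exponent vectors in `[0, T)^s`; `scaledSum T a zs w 𝔅` is the same sum with every exponent `t`
replaced by `t / a`.
-/

namespace Vale.Agent.Lib.P202.Lech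

universe u

variable {A : Type u} [CommRing A]

open Classical in
/-- The weight that is `0` on the unit ideal and `1` on every other ideal. -/
noncomputable def chiTop (𝔅 : Ideal A) : ℕ∞ := if 𝔅 = ⊤ then 0 else 1

/-- The iterated colon sum over the exponent box `[0, T)^s`. -/
noncomputable def colonSum (T : ℕ) : List A → (Ideal A → ℕ∞) → Ideal A → ℕ∞
  | [], w, 𝔄 => w 𝔄
  | z :: zs, w, 𝔄 =>
    ∑ t ∈ Finset.range T, colonSum T zs w (𝔄.colon {z ^ t} ⊔ Ideal.span {z})

/-- The iterated colon sum over the exponent box `[0, T)^s` with all exponents divided by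
`a`. -/
noncomputable def scaledSum (T a : ℕ) : List A → (Ideal A → ℕ∞) → Ideal A → ℕ∞
  | [], w, 𝔅 => w 𝔅
  | z :: zs, w, 𝔅 =>
    ∑ t ∈ Finset.range T, scaledSum T a zs w (𝔅.colon {z ^ (t / a)} ⊔ Ideal.span {z})

/-- The colon sum is monotone in the weight. -/
theorem factColon_mono (T : ℕ) (zs : List A) {w w' : Ideal A → ℕ∞} (hw : ∀ 𝔅, w 𝔅 ≤ w' 𝔅)
    (𝔄 : Ideal A) : colonSum T zs w 𝔄 ≤ colonSum T zs w' 𝔄 := by
  induction zs generalizing 𝔄 with
  | nil => exact hw 𝔄
  | cons z zs ih =>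
    rw [colonSum, colonSum]
    exact Finset.sum_le_sum (fun t _ => ih _)

/-- The weight `chiTop` is at most the length of the quotient. -/
theorem factColon_chi_le (𝔅 : Ideal A) : chiTop 𝔅 ≤ Module.length A (A ⧸ 𝔅) := by
  unfold chiTop
  split_ifs with h
  · exact zero_le
  · have hnt : Nontrivial (A ⧸ 𝔅) := Ideal.Quotient.nontrivial_iff.mpr h
    exact Order.one_le_iff_pos.mpr Module.length_pos

/-- Replacing `t` by `t / a` in a sum over `range T` multiplies it by at most `a`. -/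
theorem factColon_div_sum (T a : ℕ) (ha : 1 ≤ a) (Ψ : ℕ → ℕ∞) :
    ∑ t ∈ Finset.range T, Ψ (t / a) ≤ (a : ℕ∞) * ∑ τ ∈ Finset.range T, Ψ τ := by
  have hapos : 0 < a := ha
  have hmaps : ∀ t ∈ Finset.range T, t / a ∈ Finset.range T := by
    intro t ht
    rw [Finset.mem_range] at ht ⊢
    exact lt_of_le_of_lt (Nat.div_le_self t a) ht
  rw [← Finset.sum_fiberwise_of_maps_to hmaps (fun t => Ψ (t / a)), Finset.mul_sum]
  refine Finset.sum_le_sum (fun τ _ => ?_)
  have h1 : ∑ t ∈ Finset.range T with t / a = τ, Ψ (t / a)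
      = ∑ t ∈ Finset.range T with t / a = τ, Ψ τ := by
    refine Finset.sum_congr rfl (fun t ht => ?_)
    rw [(Finset.mem_filter.mp ht).2]
  rw [h1, Finset.sum_const, nsmul_eq_mul]
  have hsub : (Finset.range T).filter (fun t => t / a = τ)
      ⊆ Finset.Ico (a * τ) (a * τ + a) := by
    intro t ht
    obtain ⟨_, ht2⟩ := Finset.mem_filter.mp ht
    rw [Finset.mem_Ico, ← ht2]
    have h3 := Nat.lt_mul_div_succ t hapos
    have h4 : a * (t / a + 1) = a * (t / a) + a := by ring
    exact ⟨Nat.mul_div_le t a, by omega⟩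
  have hcard : ((Finset.range T).filter (fun t => t / a = τ)).card ≤ a := by
    calc ((Finset.range T).filter (fun t => t / a = τ)).card
        ≤ (Finset.Ico (a * τ) (a * τ + a)).card := Finset.card_le_card hsub
      _ = a := by
        rw [Nat.card_Ico]
        omega
  have hcast : (((Finset.range T).filter (fun t => t / a = τ)).card : ℕ∞) ≤ (a : ℕ∞) := by
    exact_mod_cast hcard
  exact mul_le_mul_left hcast (Ψ τ)

/-- The iterated staircase identity: the lengths of the final quotients add up to the length of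
`A / 𝔄`, if the `T`-th powers of all `z_i` lie in `𝔄`. -/
theorem colonSum_length (T : ℕ) (zs : List A) (𝔄 : Ideal A) (h : ∀ z ∈ zs, z ^ T ∈ 𝔄) :
    colonSum T zs (fun 𝔅 => Module.length A (A ⧸ 𝔅)) 𝔄 = Module.length A (A ⧸ 𝔄) := by
  induction zs generalizing 𝔄 with
  | nil => rfl
  | cons z zs ih =>
    have hz : z ^ T ∈ 𝔄 := h z List.mem_cons_self
    rw [colonSum, length_quot_eq_sum_colon 𝔄 z T hz]
    refine Finset.sum_congr rfl (fun t _ => ?_)
    apply ih
    intro y hy
    exact (le_sup_of_le_left Ideal.le_colon : 𝔄 ≤ 𝔄.colon {z ^ t} ⊔ Ideal.span {z})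
      (h y (List.mem_cons_of_mem _ hy))

/-- The number of exponent vectors whose final ideal is proper is at most the length. -/
theorem colonSum_chi_le (T : ℕ) (zs : List A) (𝔄 : Ideal A) (h : ∀ z ∈ zs, z ^ T ∈ 𝔄) :
    colonSum T zs chiTop 𝔄 ≤ Module.length A (A ⧸ 𝔄) := by
  rw [← colonSum_length T zs 𝔄 h]
  exact factColon_mono T zs factColon_chi_le 𝔄

/-- Dividing all exponents by `a ≥ 1` multiplies the sum by at most `a^s`. -/
theorem scaledSum_le (T a : ℕ) (ha : 1 ≤ a) (zs : List A) (w : Ideal A → ℕ∞) (𝔅 : Ideal A) :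
    scaledSum T a zs w 𝔅 ≤ ((a ^ zs.length : ℕ) : ℕ∞) * colonSum T zs w 𝔅 := by
  induction zs generalizing 𝔅 with
  | nil => simp [scaledSum, colonSum]
  | cons z zs ih =>
    rw [scaledSum, colonSum]
    calc ∑ t ∈ Finset.range T, scaledSum T a zs w (𝔅.colon {z ^ (t / a)} ⊔ Ideal.span {z})
        ≤ ∑ t ∈ Finset.range T, ((a ^ zs.length : ℕ) : ℕ∞)
            * colonSum T zs w (𝔅.colon {z ^ (t / a)} ⊔ Ideal.span {z}) :=
          Finset.sum_le_sum (fun t _ => ih _)
      _ = ((a ^ zs.length : ℕ) : ℕ∞) * ∑ t ∈ Finset.range T,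
            colonSum T zs w (𝔅.colon {z ^ (t / a)} ⊔ Ideal.span {z}) := by
          rw [Finset.mul_sum]
      _ ≤ ((a ^ zs.length : ℕ) : ℕ∞) * ((a : ℕ∞) * ∑ τ ∈ Finset.range T,
            colonSum T zs w (𝔅.colon {z ^ τ} ⊔ Ideal.span {z})) :=
          mul_le_mul_right (factColon_div_sum T a ha
            (fun τ => colonSum T zs w (𝔅.colon {z ^ τ} ⊔ Ideal.span {z}))) _
      _ = ((a ^ (z :: zs).length : ℕ) : ℕ∞) * ∑ τ ∈ Finset.range T,
            colonSum T zs w (𝔅.colon {z ^ τ} ⊔ Ideal.span {z}) := by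
          rw [List.length_cons, pow_succ, Nat.cast_mul, mul_assoc]

end Vale.Agent.Lib.P202.Lech
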