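import Vale.Agent.Lib.P202.Lech.FactColon

/-!
# The counting inequality for powers of an ideal that is `s` generators short

Let `I` be an ideal of a commutative ring `A` and `z_1, …, z_s` elements of `A`, and put
`h(m) = length (A / (I^m + (z_1, …, z_s)))`.  Then
`length (A / I^N) ≤ length (A / I) ∑_{a = 1}^{N} (h(N - a + 1) - h(N - a)) a^s`.
-/

namespace Vale.Agent.Lib.P202.Lech

universe u

variable {A : Type u} [CommRing A]

/-- An ideal is contained in each of its colon ideals. -/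
private lemma factCore_le_colon (𝔄 : Ideal A) (y : A) : 𝔄 ≤ 𝔄.colon {y} := by
  intro x hx
  rw [colon_mem_iff]
  exact Ideal.mul_mem_left _ _ hx

/-- A power of a sum lies in the power of the first summand plus the second summand. -/
private lemma factCore_sup_pow (X Y : Ideal A) (a : ℕ) : (X ⊔ Y) ^ a ≤ X ^ a ⊔ Y := by
  induction a with
  | zero =>
    rw [pow_zero, pow_zero]
    exact le_sup_left
  | succ a ih =>
    rw [pow_succ]
    refine le_trans (Ideal.mul_mono ih le_rfl) ?_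
    rw [Ideal.sup_mul]
    refine sup_le ?_ (le_sup_of_le_right Ideal.mul_le_left)
    rw [Ideal.mul_sup]
    refine sup_le ?_ (le_sup_of_le_right Ideal.mul_le_right)
    rw [← pow_succ]
    exact le_sup_left

/-- Elements of the `a`-th power of a colon ideal by `z ^ τ` are carried into the `a`-th power
of the ideal by `z ^ (τ * a)`. -/
private lemma factCore_colon_pow (𝔅 : Ideal A) (z : A) (τ : ℕ) (a : ℕ) :
    ∀ x ∈ (𝔅.colon {z ^ τ}) ^ a, z ^ (τ * a) * x ∈ 𝔅 ^ a := by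
  induction a with
  | zero =>
    intro x _
    rw [pow_zero, Ideal.one_eq_top]
    exact Submodule.mem_top
  | succ a ih =>
    intro x hx
    rw [pow_succ] at hx
    refine Submodule.mul_induction_on
      (C := fun x => z ^ (τ * (a + 1)) * x ∈ 𝔅 ^ (a + 1)) hx ?_ ?_
    · intro m hm n hn
      have h1 := ih m hm
      have h2 := (colon_mem_iff 𝔅 (z ^ τ) n).mp hn
      have e : z ^ (τ * (a + 1)) * (m * n) = (z ^ (τ * a) * m) * (z ^ τ * n) := by
        rw [mul_add, mul_one, pow_add]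
        ring
      show z ^ (τ * (a + 1)) * (m * n) ∈ 𝔅 ^ (a + 1)
      rw [e, pow_succ]
      exact Ideal.mul_mem_mul h1 h2
    · intro x y hx hy
      show z ^ (τ * (a + 1)) * (x + y) ∈ 𝔅 ^ (a + 1)
      rw [mul_add]
      exact Ideal.add_mem _ hx hy

/-- The invariant of the induction. -/
private lemma factCore_step (𝔄 𝔅 J : Ideal A) (z : A) (a τ t : ℕ)
    (h : 𝔅 ^ a * J ≤ 𝔄) (hτ : τ * a ≤ t) :
    (𝔅.colon {z ^ τ} ⊔ Ideal.span {z}) ^ a * J ≤ 𝔄.colon {z ^ t} ⊔ Ideal.span {z} := by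
  refine le_trans (Ideal.mul_mono (factCore_sup_pow _ _ a) le_rfl) ?_
  rw [Ideal.sup_mul]
  refine sup_le_sup ?_ Ideal.mul_le_left
  intro x hx
  rw [colon_mem_iff]
  refine Submodule.mul_induction_on (C := fun x => z ^ t * x ∈ 𝔄) hx ?_ ?_
  · intro m hm j hj
    have h1 := factCore_colon_pow 𝔅 z τ a m hm
    have e : z ^ t * (m * j) = z ^ (t - τ * a) * ((z ^ (τ * a) * m) * j) := by
      have e' : z ^ t = z ^ (t - τ * a) * z ^ (τ * a) := by
        rw [← pow_add, Nat.sub_add_cancel hτ]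
      rw [e']
      ring
    show z ^ t * (m * j) ∈ 𝔄
    rw [e]
    exact Ideal.mul_mem_left _ _ (h (Ideal.mul_mem_mul h1 hj))
  · intro x y hx hy
    show z ^ t * (x + y) ∈ 𝔄
    rw [mul_add]
    exact Ideal.add_mem _ hx hy

/-- The last index up to `n` at which a family of ideals is the unit ideal. -/
private lemma factCore_last_top (𝔅 : ℕ → Ideal A) (n : ℕ) :
    ∃ k, k ≤ n ∧ (k = 0 ∨ 𝔅 k = ⊤) ∧ ∀ a, k < a → a ≤ n → 𝔅 a ≠ ⊤ := by
  induction n with
  | zero => exact ⟨0, le_rfl, Or.inl rfl, fun a h1 h2 => absurd h1 (by omega)⟩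
  | succ n ih =>
    by_cases hn : 𝔅 (n + 1) = ⊤
    · exact ⟨n + 1, le_rfl, Or.inr hn, fun a h1 h2 => absurd h1 (by omega)⟩
    · obtain ⟨k, hk, hk0, hka⟩ := ih
      refine ⟨k, by omega, hk0, fun a h1 h2 => ?_⟩
      rcases Nat.lt_or_ge a (n + 1) with h | h
      · exact hka a h1 (by omega)
      · have e : a = n + 1 := by omega
        rw [e]
        exact hn

/-- The telescoping sum of the increments of a monotone function, read downwards. -/
private lemma factCore_tele (H : ℕ → ℕ) (hmono : Monotone H) (N k : ℕ) (hk : k ≤ N) :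
    ∑ a ∈ Finset.Ioc k N, (H (N - a + 1) - H (N - a)) = H (N - k) - H 0 := by
  rw [← Finset.sum_range_tsub hmono (N - k)]
  refine Finset.sum_nbij' (fun a => N - a) (fun b => N - b) ?_ ?_ ?_ ?_ ?_
  · intro a ha
    rw [Finset.mem_Ioc] at ha
    rw [Finset.mem_range]
    omega
  · intro b hb
    rw [Finset.mem_range] at hb
    rw [Finset.mem_Ioc]
    omega
  · intro a ha
    rw [Finset.mem_Ioc] at ha
    show N - (N - a) = a
    omega
  · intro b hb
    rw [Finset.mem_range] at hb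
    show N - (N - b) = b
    omega
  · intro a _
    rfl

/-- The generalized statement proved by induction on the list. -/
private lemma factCore_claim (I : Ideal A) (N T : ℕ) (zs : List A) :
    ∀ (𝔷 𝔄 : Ideal A) (𝔅 : ℕ → Ideal A), 𝔷 ≤ 𝔄 → I ^ N ≤ 𝔄 →
      (∀ a, 1 ≤ a → a ≤ N → (𝔅 a) ^ a * I ^ (N - a) ≤ 𝔄) →
      (∀ m : ℕ, Module.length A (A ⧸ (I ^ m ⊔ (𝔷 ⊔ Ideal.ofList zs))) ≠ ⊤) →
      colonSum T zs (fun 𝔛 => Module.length A (A ⧸ 𝔛)) 𝔄 ≤
        ∑ a ∈ Finset.Icc 1 N,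
          (((Module.length A (A ⧸ (I ^ (N - a + 1) ⊔ (𝔷 ⊔ Ideal.ofList zs)))).toNat -
            (Module.length A (A ⧸ (I ^ (N - a) ⊔ (𝔷 ⊔ Ideal.ofList zs)))).toNat : ℕ) : ℕ∞) *
            scaledSum T a zs chiTop (𝔅 a) := by
  induction zs with
  | nil =>
    intro 𝔷 𝔄 𝔅 h1 h2 h3 hfin
    have h𝔴le : 𝔷 ⊔ Ideal.ofList ([] : List A) ≤ 𝔄 := by
      rw [Ideal.ofList_nil, sup_bot_eq]
      exact h1
    obtain ⟨H, hH⟩ : ∃ H : ℕ → ℕ, ∀ m, H m =
        (Module.length A (A ⧸ (I ^ m ⊔ (𝔷 ⊔ Ideal.ofList ([] : List A))))).toNat :=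
      ⟨_, fun _ => rfl⟩
    have hHcast : ∀ m, ((H m : ℕ) : ℕ∞) =
        Module.length A (A ⧸ (I ^ m ⊔ (𝔷 ⊔ Ideal.ofList ([] : List A)))) := by
      intro m
      rw [hH]
      exact ENat.natCast_toNat (hfin m)
    have hmono : Monotone H := by
      refine monotone_nat_of_le_succ (fun m => ?_)
      rw [hH, hH]
      refine ENat.toNat_le_toNat ?_ (hfin (m + 1))
      exact length_quot_anti (sup_le_sup_right (Ideal.pow_le_pow_right (Nat.le_succ m)) _)
    have hH0 : H 0 = 0 := by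
      have e : Module.length A (A ⧸ (I ^ 0 ⊔ (𝔷 ⊔ Ideal.ofList ([] : List A)))) = 0 := by
        rw [Module.length_eq_zero_iff, pow_zero, Ideal.one_eq_top, top_sup_eq]
        exact Ideal.Quotient.subsingleton_iff.mpr rfl
      rw [hH, e]
      rfl
    obtain ⟨k, hkN, hk0, hka⟩ := factCore_last_top 𝔅 N
    have hIk : I ^ (N - k) ≤ 𝔄 := by
      rcases Nat.eq_zero_or_pos k with hk | hk
      · rw [hk, Nat.sub_zero]
        exact h2
      · rcases hk0 with hk0 | hk0
        · omega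
        · have h := h3 k hk hkN
          rwa [hk0, Ideal.top_pow, Ideal.top_mul] at h
    have hlen : Module.length A (A ⧸ 𝔄) ≤ ((H (N - k) : ℕ) : ℕ∞) := by
      rw [hHcast]
      exact length_quot_anti (sup_le hIk h𝔴le)
    simp only [← hH]
    show Module.length A (A ⧸ 𝔄) ≤ ∑ a ∈ Finset.Icc 1 N,
      ((H (N - a + 1) - H (N - a) : ℕ) : ℕ∞) * chiTop (𝔅 a)
    refine le_trans hlen ?_
    have hsub : Finset.Ioc k N ⊆ Finset.Icc 1 N := by
      intro a ha
      rw [Finset.mem_Ioc] at ha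
      rw [Finset.mem_Icc]
      omega
    refine le_trans ?_ (Finset.sum_le_sum_of_subset hsub)
    have hcong : ∀ a ∈ Finset.Ioc k N,
        ((H (N - a + 1) - H (N - a) : ℕ) : ℕ∞) * chiTop (𝔅 a)
          = ((H (N - a + 1) - H (N - a) : ℕ) : ℕ∞) := by
      intro a ha
      rw [Finset.mem_Ioc] at ha
      have e : chiTop (𝔅 a) = 1 := by
        unfold chiTop
        rw [if_neg (hka a ha.1 ha.2)]
      rw [e, mul_one]
    rw [Finset.sum_congr rfl hcong, ← Nat.cast_sum, factCore_tele H hmono N k hkN, hH0,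
      Nat.sub_zero]
  | cons z zs ih =>
    intro 𝔷 𝔄 𝔅 h1 h2 h3 hfin
    have hE : (𝔷 ⊔ Ideal.span {z}) ⊔ Ideal.ofList zs = 𝔷 ⊔ Ideal.ofList (z :: zs) := by
      rw [Ideal.ofList_cons, sup_assoc]
    have hcol : ∀ t : ℕ, 𝔄 ≤ 𝔄.colon {z ^ t} ⊔ Ideal.span {z} :=
      fun t => le_sup_of_le_left (factCore_le_colon 𝔄 (z ^ t))
    have key : ∀ t ∈ Finset.range T,
        colonSum T zs (fun 𝔛 => Module.length A (A ⧸ 𝔛))
            (𝔄.colon {z ^ t} ⊔ Ideal.span {z}) ≤
          ∑ a ∈ Finset.Icc 1 N,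
            (((Module.length A
                (A ⧸ (I ^ (N - a + 1) ⊔ (𝔷 ⊔ Ideal.ofList (z :: zs))))).toNat -
              (Module.length A
                (A ⧸ (I ^ (N - a) ⊔ (𝔷 ⊔ Ideal.ofList (z :: zs))))).toNat : ℕ) : ℕ∞) *
              scaledSum T a zs chiTop ((𝔅 a).colon {z ^ (t / a)} ⊔ Ideal.span {z}) := by
      intro t _
      have h := ih (𝔷 ⊔ Ideal.span {z}) (𝔄.colon {z ^ t} ⊔ Ideal.span {z})
        (fun a => (𝔅 a).colon {z ^ (t / a)} ⊔ Ideal.span {z})
        (sup_le (le_trans h1 (hcol t)) le_sup_right) (le_trans h2 (hcol t))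
        (fun a ha haN => factCore_step 𝔄 (𝔅 a) (I ^ (N - a)) z a (t / a) t (h3 a ha haN)
          (Nat.div_mul_le_self t a))
        (fun m => by rw [hE]; exact hfin m)
      rw [hE] at h
      exact h
    show (∑ t ∈ Finset.range T, colonSum T zs (fun 𝔛 => Module.length A (A ⧸ 𝔛))
        (𝔄.colon {z ^ t} ⊔ Ideal.span {z})) ≤ _
    refine le_trans (Finset.sum_le_sum key) ?_
    rw [Finset.sum_comm]
    refine le_of_eq (Finset.sum_congr rfl (fun a _ => ?_))
    rw [← Finset.mul_sum]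
    rfl

/-- The counting inequality. -/
theorem fact_core (I : Ideal A) (zs : List A) (N T : ℕ)
    (hT : ∀ z ∈ zs, z ^ T ∈ I ^ N) (hT1 : ∀ z ∈ zs, z ^ T ∈ I)
    (hfin : ∀ m : ℕ, Module.length A (A ⧸ (I ^ m ⊔ Ideal.ofList zs)) ≠ ⊤) :
    Module.length A (A ⧸ I ^ N) ≤
      Module.length A (A ⧸ I) *
        ((∑ a ∈ Finset.Icc 1 N,
          ((Module.length A (A ⧸ (I ^ (N - a + 1) ⊔ Ideal.ofList zs))).toNat -
            (Module.length A (A ⧸ (I ^ (N - a) ⊔ Ideal.ofList zs))).toNat) *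
              a ^ zs.length : ℕ) : ℕ∞) := by
  have hcl := factCore_claim I N T zs ⊥ (I ^ N) (fun _ => I) bot_le le_rfl
    (fun a _ haN => by rw [← pow_add, Nat.add_sub_cancel' haN])
    (fun m => by rw [bot_sup_eq]; exact hfin m)
  rw [colonSum_length T zs (I ^ N) hT] at hcl
  rw [bot_sup_eq] at hcl
  refine le_trans hcl ?_
  rw [Nat.cast_sum, Finset.mul_sum]
  refine Finset.sum_le_sum (fun a ha => ?_)
  rw [Finset.mem_Icc] at ha
  have h1 := scaledSum_le T a ha.1 zs chiTop I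
  have h2 := colonSum_chi_le T zs I hT1
  have h3 : scaledSum T a zs chiTop I ≤
      ((a ^ zs.length : ℕ) : ℕ∞) * Module.length A (A ⧸ I) :=
    le_trans h1 (mul_le_mul' le_rfl h2)
  refine le_trans (mul_le_mul' le_rfl h3) ?_
  rw [Nat.cast_mul]
  exact le_of_eq (by ring)

end Vale.Agent.Lib.P202.Lech
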