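import Vale.Agent.Lib.P202.Lech.FactMain
import Vale.Agent.Lib.P202.Lech.Concl

/-!
# Closed fibres of finite length and embedding dimension at most `ρ`

For a flat local homomorphism `(R, m) → (S, n)` with closed fibre of finite length and
`n = m S + (t)` for a finite set `t` of at most `ρ ≥ 1` elements (infinite residue field):
`e(R) ≤ (min d ρ - 1)! e(S)` in every order `d ≥ 2`, in the form `Concl`.
-/

namespace Vale.Agent.Lib.P202.Lech

open IsLocalRing Filter
open scoped ENNReal Nat Topology

universe u v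

variable {R : Type v} {S : Type u} [CommRing R] [CommRing S] [IsLocalRing R] [IsLocalRing S]

/-- The statement `Concl` is monotone in the constant. -/
theorem concl_mono (d δ : ℕ) {κ κ' : ℕ} (h : κ ≤ κ') (hc : Concl R S d δ κ) :
    Concl R S d δ κ' := by
  rcases hc with ⟨e, h1, h2⟩ | hall
  · refine Or.inl ⟨e, h1.trans ?_, h2⟩
    exact_mod_cast Nat.mul_le_mul_right e h
  · exact Or.inr hall

/-- Arithmetic of the step inequality: cancel the colength `L ≥ 1`. -/
theorem factEmb_arith (F P L Q a1 a0 M : ℕ) (hL : 1 ≤ L) (hkc : a1 * L ≤ M + a0 * L)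
    (hup : F * M ≤ P * L * Q) : F * a1 ≤ F * a0 + P * Q := by
  have h1 : (F * a1) * L ≤ (F * a0 + P * Q) * L := by
    calc (F * a1) * L = F * (a1 * L) := by ring
      _ ≤ F * (M + a0 * L) := Nat.mul_le_mul_left F hkc
      _ = F * M + F * a0 * L := by ring
      _ ≤ P * L * Q + F * a0 * L := Nat.add_le_add_right hup _
      _ = (F * a0 + P * Q) * L := by ring
  exact Nat.le_of_mul_le_mul_right h1 (by omega)

variable [IsNoetherianRing R] [IsNoetherianRing S] [Algebra R S] [IsLocalHom (algebraMap R S)]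
  [Module.Flat R S]

/-- Base case with the factor `(min d ρ - 1)!`: closed fibre of finite length and embedding
dimension at most `ρ`. -/
theorem concl_embGen
    (hfib : Module.length S (S ⧸ (maximalIdeal R).map (algebraMap R S)) ≠ ⊤)
    [Infinite (ResidueField S)] (ρ : ℕ) (hρ : 1 ≤ ρ) (t : Finset S) (ht : t.card ≤ ρ)
    (hn : maximalIdeal S = (maximalIdeal R).map (algebraMap R S) ⊔ Ideal.span (t : Set S))
    (d : ℕ) (hd : 2 ≤ d) : Concl R S d d (min d ρ - 1)! := by
  classical
  rcases Nat.lt_or_ge ρ d with hρd | hdρ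
  swap
  · rw [Nat.min_eq_left hdρ]
    exact concl_factorial hfib d hd
  rw [Nat.min_eq_right hρd.le]
  have hmSle : (maximalIdeal R).map (algebraMap R S) ≤ maximalIdeal S :=
    Vale.Agent.Lib.P202.map_maximalIdeal_le
  by_cases hcase : maximalIdeal S ≤ (maximalIdeal R).map (algebraMap R S)
  · have hab : maximalIdeal S
        = (maximalIdeal R).map (algebraMap R S) ⊔ Ideal.span {(0 : S), (0 : S)} := by
      have hbot : Ideal.span {(0 : S), (0 : S)} = ⊥ := by
        rw [Set.pair_eq_singleton]
        exact Ideal.span_singleton_eq_bot.mpr rfl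
      rw [hbot, sup_bot_eq]
      exact le_antisymm hcase hmSle
    have h1 := concl_embTwo hfib 0 0 hab d hd
    exact concl_mono d d (Nat.succ_le_of_lt (Nat.factorial_pos _)) h1
  · obtain ⟨y, c₁, g, hsy, hgs, hn'⟩ :=
      exists_superficial_exchange S ((maximalIdeal R).map (algebraMap R S)) t hn hcase
    have hy : y ∈ maximalIdeal S := hsy.1
    have hloc : IsLocalRing (S ⧸ Ideal.span {y}) :=
      Vale.Agent.Lib.P202.isLocalRing_quotient_span hy
    have hinf : Infinite (ResidueField (S ⧸ Ideal.span {y})) :=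
      infinite_residueField_quotient _
    have hcard : ((t.erase g).image (Ideal.Quotient.mk (Ideal.span {y}))).card ≤ ρ - 1 := by
      refine Finset.card_image_le.trans ?_
      rw [Finset.card_erase_of_mem hgs]
      omega
    have hnq : maximalIdeal (S ⧸ Ideal.span {y}) =
        ((maximalIdeal R).map (algebraMap R S)).map (Ideal.Quotient.mk (Ideal.span {y})) ⊔
          Ideal.span (((t.erase g).image (Ideal.Quotient.mk (Ideal.span {y})) :
            Finset (S ⧸ Ideal.span {y})) : Set (S ⧸ Ideal.span {y})) := by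
      have h0 : Ideal.Quotient.mk (Ideal.span {y}) y = 0 :=
        Ideal.Quotient.eq_zero_iff_mem.mpr (Ideal.subset_span (Set.mem_singleton y))
      have hbot : Ideal.span {(0 : S ⧸ Ideal.span {y})} = ⊥ :=
        Ideal.span_singleton_eq_bot.mpr rfl
      rw [maximalIdeal_quotient, hn', Ideal.map_sup, Ideal.map_sup, Ideal.map_span,
        Ideal.map_span, Set.image_singleton, Finset.coe_image, h0, hbot, sup_bot_eq]
    have hccfin : Module.length S
        (S ⧸ ((maximalIdeal R).map (algebraMap R S) ⊔ Ideal.span {y})) ≠ ⊤ := by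
      intro h
      apply hfib
      have h1 : Module.length S (S ⧸ ((maximalIdeal R).map (algebraMap R S) ⊔ Ideal.span {y}))
          ≤ Module.length S (S ⧸ (maximalIdeal R).map (algebraMap R S)) :=
        Vale.Agent.Lib.P202.length_quot_anti le_sup_left
      rw [h] at h1
      exact top_le_iff.mp h1
    have hcc1 : 1 ≤ Module.length S
        (S ⧸ ((maximalIdeal R).map (algebraMap R S) ⊔ Ideal.span {y})) := by
      apply Vale.Agent.Lib.P202.one_le_length_quot
      exact sup_le hmSle ((Ideal.span_singleton_le_iff_mem _).mpr hy)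
    obtain ⟨L, hL⟩ := ENat.ne_top_iff_exists.mp hccfin
    have hL1 : 1 ≤ L := by
      rw [← hL] at hcc1
      exact_mod_cast hcc1
    have hLT : Module.length (S ⧸ Ideal.span {y}) ((S ⧸ Ideal.span {y}) ⧸
        ((maximalIdeal R).map (algebraMap R S)).map (Ideal.Quotient.mk (Ideal.span {y})))
          = (L : ℕ∞) := by
      rw [length_quotient_ideal, hL]
    obtain ⟨C, hC⟩ := ENat.ne_top_iff_exists.mp
      (Vale.Agent.Lib.P202.length_quot_pow_ne_top S c₁)
    have ha : ∀ N : ℕ, Module.length S (S ⧸ (maximalIdeal S ^ (N + 1) ⊔ Ideal.span {y})) +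
        Module.length S (S ⧸ maximalIdeal S ^ N) ≤
        Module.length S (S ⧸ maximalIdeal S ^ (N + 1)) + (C : ℕ∞) := by
      intro N
      rw [hC]
      exact superficial_bound_quot y c₁ hsy N
    have hd1 : d - 1 + 1 = d := by omega
    have hlow : ∀ E : ℕ, LowerHS (S ⧸ Ideal.span {y}) (d - 1) E → LowerHS S d E := by
      intro E h
      have h1 := lowerHS_succ y (d - 1) E C (by omega) ha h
      rw [hd1] at h1
      exact h1
    rcases upperI_fact (ρ - 1) (d - 1) (by omega) (S ⧸ Ideal.span {y})
        (((maximalIdeal R).map (algebraMap R S)).map (Ideal.Quotient.mk (Ideal.span {y})))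
        ((t.erase g).image (Ideal.Quotient.mk (Ideal.span {y}))) hcard hnq L hLT with
      ⟨e, b, hup, hlowT⟩ | hall
    · refine Or.inl ⟨e, ?_, hlow e hlowT⟩
      have hstep : ∀ N : ℕ,
          (((d - 1)! : ℕ) : ℕ∞) * Module.length R (R ⧸ maximalIdeal R ^ (N + 1)) ≤
            (((d - 1)! : ℕ) : ℕ∞) * Module.length R (R ⧸ maximalIdeal R ^ N) +
              (((ρ - 1)! * e * (N + 1) ^ (d - 1) + (ρ - 1)! * b * (N + 1) ^ (d - 2) : ℕ)
                : ℕ∞) := by
        intro N
        have hkc := kernel_count hfib y N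
        have hupN := hup (N + 1)
        rw [← Ideal.map_pow, ← Ideal.map_pow, length_quotient_ideal] at hupN
        have hfin1 : Module.length R (R ⧸ maximalIdeal R ^ (N + 1)) ≠ ⊤ :=
          Vale.Agent.Lib.P202.length_quot_pow_ne_top R (N + 1)
        have hfin0 : Module.length R (R ⧸ maximalIdeal R ^ N) ≠ ⊤ :=
          Vale.Agent.Lib.P202.length_quot_pow_ne_top R N
        have hfinM : Module.length S (S ⧸ ((maximalIdeal R ^ (N + 1)).map (algebraMap R S) ⊔
            Ideal.span {y})) ≠ ⊤ := by
          intro h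
          rw [h, ENat.mul_top (by exact_mod_cast Nat.factorial_ne_zero (d - 1))] at hupN
          exact ENat.natCast_ne_top _ (top_le_iff.mp hupN)
        obtain ⟨a1, ha1⟩ := ENat.ne_top_iff_exists.mp hfin1
        obtain ⟨a0, ha0⟩ := ENat.ne_top_iff_exists.mp hfin0
        obtain ⟨M, hM⟩ := ENat.ne_top_iff_exists.mp hfinM
        rw [← ha1, ← ha0, ← hM, ← hL] at hkc
        rw [← hM] at hupN
        rw [← ha1, ← ha0]
        have hkc' : a1 * L ≤ M + a0 * L := by exact_mod_cast hkc
        have hupN' : (d - 1)! * M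
            ≤ (ρ - 1)! * L * (e * (N + 1) ^ (d - 1) + b * (N + 1) ^ (d - 1 - 1)) := by
          exact_mod_cast hupN
        have hdd : d - 1 - 1 = d - 2 := by omega
        rw [hdd] at hupN'
        have h8 := factEmb_arith (d - 1)! (ρ - 1)! L
          (e * (N + 1) ^ (d - 1) + b * (N + 1) ^ (d - 2)) a1 a0 M hL1 hkc' hupN'
        have h9 : (ρ - 1)! * (e * (N + 1) ^ (d - 1) + b * (N + 1) ^ (d - 2))
            = (ρ - 1)! * e * (N + 1) ^ (d - 1) + (ρ - 1)! * b * (N + 1) ^ (d - 2) := by ring
        rw [h9] at h8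
        exact_mod_cast h8
      have h0 : (((d - 1)! : ℕ) : ℕ∞) * Module.length R (R ⧸ maximalIdeal R ^ 0) = 0 := by
        have hz : Module.length R (R ⧸ maximalIdeal R ^ 0) = 0 := by
          rw [Module.length_eq_zero_iff, Ideal.Quotient.subsingleton_iff, pow_zero,
            Ideal.one_eq_top]
        rw [hz, mul_zero]
      have H := limsup_le_of_step d ((ρ - 1)! * e) ((ρ - 1)! * b) hd
        (fun N => (((d - 1)! : ℕ) : ℕ∞) * Module.length R (R ⧸ maximalIdeal R ^ N)) h0 hstep
      have hfun : (fun N : ℕ => (d ! : ℝ≥0∞)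
            * ((((d - 1)! : ℕ) : ℕ∞) * Module.length R (R ⧸ maximalIdeal R ^ N)).toENNReal
              / (N : ℝ≥0∞) ^ d)
          = fun N : ℕ => (((d - 1)! : ℕ) : ℝ≥0∞)
            * ((d ! : ℝ≥0∞) * (Module.length R (R ⧸ maximalIdeal R ^ N)).toENNReal
              / (N : ℝ≥0∞) ^ d) := by
        funext N
        rw [ENat.toENNReal_mul, ENat.toENNReal_coe, mul_div_assoc, mul_div_assoc,
          mul_div_assoc, mul_left_comm]
      rw [hfun, ENNReal.limsup_const_mul_of_ne_top (ENNReal.natCast_ne_top _), Nat.cast_mul]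
        at H
      have hne : (((d - 1)! : ℕ) : ℝ≥0∞) ≠ 0 := by
        exact_mod_cast Nat.factorial_ne_zero (d - 1)
      exact (ENNReal.mul_le_mul_iff_right hne (ENNReal.natCast_ne_top _)).mp H
    · exact Or.inr (fun E => hlow E (hall E))

end Vale.Agent.Lib.P202.Lech
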