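import Vale.Agent.Lib.P202.Lech.FactNum
import Vale.Agent.Lib.P202.Lech.Asymp2

/-!
# Polynomial bounds for iterated sums
-/

namespace Vale.Agent.Lib.P202.Lech

open scoped Nat

/-- The inductive step, with the degree written as `m + 1`. -/
theorem factPoly_step (m e b : ℕ) (g : ℕ → ℕ)
    (hg : ∀ N : ℕ, (m + 1)! * g N ≤ e * N ^ (m + 1) + b * N ^ m) (N : ℕ) :
    (m + 2)! * ∑ j ∈ Finset.range N, g (j + 1)
      ≤ e * N ^ (m + 2) + ((m + 2) * (e + b)) * N ^ (m + 1) := by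
  have h1 : (m + 2)! * ∑ j ∈ Finset.range N, g (j + 1)
      = (m + 2) * ∑ j ∈ Finset.range N, (m + 1)! * g (j + 1) := by
    rw [Nat.factorial_succ (m + 1), mul_assoc, Finset.mul_sum]
  rw [h1]
  refine le_trans ?_ (asymp2_nat_bound m e b N)
  refine Nat.mul_le_mul_left _ ?_
  exact Finset.sum_le_sum fun j _ => hg (j + 1)

/-- The statement with the degree written as `κ = k + 1`. -/
theorem factPoly_aux (k e b : ℕ) (h : ℕ → ℕ)
    (hup : ∀ m : ℕ, (k + 1)! * h m ≤ e * m ^ (k + 1) + b * m ^ k) (s : ℕ) :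
    ∃ b' : ℕ, ∀ N : ℕ,
      (k + s + 1)! * iterNat h s N ≤ e * N ^ (k + s + 1) + b' * N ^ (k + s) := by
  induction s with
  | zero => exact ⟨b, fun N => hup N⟩
  | succ s ih =>
    obtain ⟨b', hb'⟩ := ih
    refine ⟨(k + s + 2) * (e + b'), fun N => ?_⟩
    have := factPoly_step (k + s) e b' (iterNat h s) hb' N
    exact this

/-- A polynomial bound of degree `κ` for `h` gives one of degree `κ + s` with the same leading
coefficient for the `s`-fold iterated sum. -/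
theorem fact_iter_poly (κ e b : ℕ) (hκ : 1 ≤ κ) (h : ℕ → ℕ)
    (hup : ∀ m : ℕ, κ ! * h m ≤ e * m ^ κ + b * m ^ (κ - 1)) (s : ℕ) :
    ∃ b' : ℕ, ∀ N : ℕ, (κ + s)! * iterNat h s N ≤ e * N ^ (κ + s) + b' * N ^ (κ + s - 1) := by
  obtain ⟨k, rfl⟩ : ∃ k, κ = k + 1 := ⟨κ - 1, by omega⟩
  obtain ⟨b', hb'⟩ := factPoly_aux k e b h (by simpa using hup) s
  refine ⟨b', fun N => ?_⟩
  have e1 : k + 1 + s = k + s + 1 := by omega
  have e2 : k + 1 + s - 1 = k + s := by omega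
  rw [e1, show k + s + 1 - 1 = k + s from rfl]
  exact hb' N

end Vale.Agent.Lib.P202.Lech
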