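import Vale.Agent.Lib.P202.Lech.IadicMain

/-!
# A superficial sequence generating the maximal ideal modulo an ideal

Let `(A, n)` be a Noetherian local ring with infinite residue field and `I` an ideal with
`n = I + (t)` for a finite set `t` of at most `s` elements, and let `δ ≥ s + 1`.  Then there is
a list `zs` of at most `s` elements of `n` with `n = I + (zs)` such that the function
`m ↦ length (A / (I^m + (zs)))` has an upper bound of order `δ - |zs|` whose leading
coefficient `e` is also the leading coefficient of a lower bound of order `δ` for the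
Hilbert-Samuel function of `A` (or the latter grows faster than every multiple of `N^δ`).
-/

namespace Vale.Agent.Lib.P202.Lech

open IsLocalRing
open scoped Nat

universe u

/-- If `z ∈ 𝔟` and the class of `a` lies in the image of `𝔟` in `A / (z)`, then `a ∈ 𝔟`. -/
lemma factSeq_mem_of_mk_mem {A : Type u} [CommRing A] (z : A) (𝔟 : Ideal A) (hz : z ∈ 𝔟) {a : A}
    (h : Ideal.Quotient.mk (Ideal.span {z}) a ∈ 𝔟.map (Ideal.Quotient.mk (Ideal.span {z}))) :
    a ∈ 𝔟 := by
  rw [Ideal.mem_map_iff_of_surjective _ Ideal.Quotient.mk_surjective] at h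
  obtain ⟨x, hx, hxa⟩ := h
  rw [Ideal.Quotient.eq] at hxa
  have hle : Ideal.span {z} ≤ 𝔟 := by
    rw [Ideal.span_singleton_le_iff_mem]
    exact hz
  have hax : a = x - (x - a) := by ring
  rw [hax]
  exact 𝔟.sub_mem hx (hle hxa)

/-- The case `I = n`: the empty list works. -/
lemma factSeq_base (δ : ℕ) (hδ : 1 ≤ δ) (A : Type u) [CommRing A]
    [IsLocalRing A] [IsNoetherianRing A] [Infinite (ResidueField A)] (I : Ideal A) (s : ℕ)
    (hIn : I = maximalIdeal A) :
    ∃ zs : List A, zs.length ≤ s ∧ (∀ z ∈ zs, z ∈ maximalIdeal A) ∧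
      maximalIdeal A = I ⊔ Ideal.ofList zs ∧
      ((∃ e b : ℕ, (∀ m : ℕ, (((δ - zs.length)! : ℕ) : ℕ∞) *
          Module.length A (A ⧸ (I ^ m ⊔ Ideal.ofList zs)) ≤
            ((e * m ^ (δ - zs.length) + b * m ^ (δ - zs.length - 1) : ℕ) : ℕ∞)) ∧
          LowerHS A δ e) ∨ ∀ E : ℕ, LowerHS A δ E) := by
  refine ⟨[], Nat.zero_le _, fun z hz => absurd hz List.not_mem_nil, ?_, ?_⟩
  · rw [Ideal.ofList_nil, sup_bot_eq, hIn]
  · rcases sharpGood δ hδ A with ⟨e, b, hup, hlow⟩ | hall
    · left
      refine ⟨e, b, fun m => ?_, hlow⟩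
      have h := hup m
      have hbot : I ^ m ⊔ Ideal.ofList ([] : List A) = maximalIdeal A ^ m := by
        rw [Ideal.ofList_nil, sup_bot_eq, hIn]
      simp only [List.length_nil, Nat.sub_zero]
      rw [hbot]
      exact h
    · right
      exact hall

/-- Existence of the superficial sequence. -/
theorem exists_sup_seq (s : ℕ) : ∀ (δ : ℕ), s + 1 ≤ δ → ∀ (A : Type u) [CommRing A]
    [IsLocalRing A] [IsNoetherianRing A] [Infinite (ResidueField A)] (I : Ideal A)
    (t : Finset A), t.card ≤ s → maximalIdeal A = I ⊔ Ideal.span (t : Set A) →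
    ∃ zs : List A, zs.length ≤ s ∧ (∀ z ∈ zs, z ∈ maximalIdeal A) ∧
      maximalIdeal A = I ⊔ Ideal.ofList zs ∧
      ((∃ e b : ℕ, (∀ m : ℕ, (((δ - zs.length)! : ℕ) : ℕ∞) *
          Module.length A (A ⧸ (I ^ m ⊔ Ideal.ofList zs)) ≤
            ((e * m ^ (δ - zs.length) + b * m ^ (δ - zs.length - 1) : ℕ) : ℕ∞)) ∧
          LowerHS A δ e) ∨ ∀ E : ℕ, LowerHS A δ E) := by
  classical
  induction s with
  | zero =>
    intro δ hδ A _ _ _ _ I t ht hn
    have ht0 : t = ∅ := Finset.card_eq_zero.mp (Nat.le_zero.mp ht)
    have hIn : I = maximalIdeal A := by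
      rw [hn, ht0, Finset.coe_empty, Ideal.span_empty, sup_bot_eq]
    exact factSeq_base δ (by omega) A I 0 hIn
  | succ s ih =>
    intro δ hδ A _ _ _ _ I t ht hn
    have hIle : I ≤ maximalIdeal A := by
      rw [hn]
      exact le_sup_left
    by_cases hcase : maximalIdeal A ≤ I
    · exact factSeq_base δ (by omega) A I (s + 1) (le_antisymm hIle hcase)
    · obtain ⟨y, c₁, g, hsy, hgs, hn'⟩ := exists_superficial_exchange A I t hn hcase
      have hy : y ∈ maximalIdeal A := hsy.1
      have hloc : IsLocalRing (A ⧸ Ideal.span {y}) :=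
        Vale.Agent.Lib.P202.isLocalRing_quotient_span hy
      have hinf : Infinite (ResidueField (A ⧸ Ideal.span {y})) :=
        infinite_residueField_quotient _
      have hcard : ((t.erase g).image (Ideal.Quotient.mk (Ideal.span {y}))).card ≤ s := by
        refine Finset.card_image_le.trans ?_
        rw [Finset.card_erase_of_mem hgs]
        omega
      have hnq : maximalIdeal (A ⧸ Ideal.span {y}) =
          I.map (Ideal.Quotient.mk (Ideal.span {y})) ⊔
            Ideal.span (((t.erase g).image (Ideal.Quotient.mk (Ideal.span {y})) :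
              Finset (A ⧸ Ideal.span {y})) : Set (A ⧸ Ideal.span {y})) := by
        have h0 : Ideal.Quotient.mk (Ideal.span {y}) y = 0 :=
          Ideal.Quotient.eq_zero_iff_mem.mpr (Ideal.subset_span (Set.mem_singleton y))
        have hbot : Ideal.span {(0 : A ⧸ Ideal.span {y})} = ⊥ :=
          Ideal.span_singleton_eq_bot.mpr rfl
        rw [maximalIdeal_quotient, hn', Ideal.map_sup, Ideal.map_sup, Ideal.map_span,
          Ideal.map_span, Set.image_singleton, Finset.coe_image, h0, hbot, sup_bot_eq]
      obtain ⟨C₁, hC₁⟩ := ENat.ne_top_iff_exists.mp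
        (Vale.Agent.Lib.P202.length_quot_pow_ne_top A c₁)
      have ha : ∀ N : ℕ, Module.length A (A ⧸ (maximalIdeal A ^ (N + 1) ⊔ Ideal.span {y})) +
          Module.length A (A ⧸ maximalIdeal A ^ N) ≤
          Module.length A (A ⧸ maximalIdeal A ^ (N + 1)) + (C₁ : ℕ∞) := by
        intro N
        rw [hC₁]
        exact superficial_bound_quot y c₁ hsy N
      have hd1 : δ - 1 + 1 = δ := by omega
      obtain ⟨zs₁, hlen₁, hmem₁, hsup₁, hmain₁⟩ := ih (δ - 1) (by omega) (A ⧸ Ideal.span {y})
          (I.map (Ideal.Quotient.mk (Ideal.span {y})))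
          ((t.erase g).image (Ideal.Quotient.mk (Ideal.span {y}))) hcard hnq
      obtain ⟨zs', hzs'⟩ : ∃ zs' : List A,
          zs'.map (Ideal.Quotient.mk (Ideal.span {y})) = zs₁ :=
        List.map_surjective_iff.mpr Ideal.Quotient.mk_surjective zs₁
      have hlen' : zs'.length = zs₁.length := by
        rw [← hzs', List.length_map]
      have hmap : (Ideal.ofList zs').map (Ideal.Quotient.mk (Ideal.span {y})) =
          Ideal.ofList zs₁ := by
        rw [Ideal.map_ofList, hzs']
      have hmemz : ∀ z ∈ zs', z ∈ maximalIdeal A := by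
        intro z hz
        have h1 : Ideal.Quotient.mk (Ideal.span {y}) z ∈ zs₁ := by
          rw [← hzs']
          exact List.mem_map_of_mem hz
        have h2 := hmem₁ _ h1
        rw [maximalIdeal_quotient] at h2
        exact factSeq_mem_of_mk_mem y (maximalIdeal A) hy h2
      have hofle : Ideal.ofList zs' ≤ maximalIdeal A :=
        Ideal.span_le.mpr (fun z hz => hmemz z hz)
      have hysp : Ideal.span {y} ≤ maximalIdeal A := by
        rw [Ideal.span_singleton_le_iff_mem]
        exact hy
      have hid : ∀ 𝔞 : Ideal A, 𝔞 ⊔ Ideal.ofList (y :: zs') =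
          (𝔞 ⊔ Ideal.ofList zs') ⊔ Ideal.span {y} := by
        intro 𝔞
        rw [Ideal.ofList_cons, sup_assoc, sup_comm (Ideal.ofList zs')]
      have hlenq : ∀ m : ℕ, Module.length A (A ⧸ (I ^ m ⊔ Ideal.ofList (y :: zs'))) =
          Module.length (A ⧸ Ideal.span {y}) ((A ⧸ Ideal.span {y}) ⧸
            ((I.map (Ideal.Quotient.mk (Ideal.span {y}))) ^ m ⊔ Ideal.ofList zs₁)) := by
        intro m
        rw [← hmap, ← Ideal.map_pow, ← Ideal.map_sup, length_quotient_ideal, hid]
      have he1 : δ - (y :: zs').length = δ - 1 - zs₁.length := by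
        rw [List.length_cons, hlen']
        omega
      refine ⟨y :: zs', ?_, ?_, ?_, ?_⟩
      · rw [List.length_cons, hlen']
        omega
      · intro z hz
        rcases List.mem_cons.mp hz with rfl | hz
        · exact hy
        · exact hmemz z hz
      · rw [hid]
        apply le_antisymm
        · intro x hx
          have h1 : Ideal.Quotient.mk (Ideal.span {y}) x ∈
              maximalIdeal (A ⧸ Ideal.span {y}) := by
            rw [maximalIdeal_quotient]
            exact Ideal.mem_map_of_mem _ hx
          rw [hsup₁, ← hmap, ← Ideal.map_sup] at h1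
          exact factSeq_mem_of_mk_mem y _
            (Ideal.mem_sup_right (Ideal.subset_span (Set.mem_singleton y)))
            (Ideal.map_mono le_sup_left h1)
        · exact sup_le (sup_le hIle hofle) hysp
      · rcases hmain₁ with ⟨e, b, hup, hlow⟩ | hall
        · left
          refine ⟨e, b, fun m => ?_, ?_⟩
          · rw [he1, hlenq m]
            exact hup m
          · have h1 := lowerHS_succ y (δ - 1) e C₁ (by omega) ha hlow
            rw [hd1] at h1
            exact h1
        · right
          intro E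
          have h1 := lowerHS_succ y (δ - 1) E C₁ (by omega) ha (hall E)
          rw [hd1] at h1
          exact h1

end Vale.Agent.Lib.P202.Lech
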