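import Vale.Agent.Lib.P202.Lech.FactCore
import Vale.Agent.Lib.P202.Lech.FactPoly
import Vale.Agent.Lib.P202.Lech.FactSeq

/-!
# Lech's inequality with `s!` for an ideal that is `s` generators short of the maximal ideal

Let `(A, n)` be a Noetherian local ring with infinite residue field and `I` an ideal of finite
colength `L` with `n = I + (t)` for a finite set `t` of at most `s` elements.  Then, in every
order `δ ≥ s + 1`, the Hilbert-Samuel function of `I` is at most `s! L` times that of `n`, to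
leading order: `e(I) ≤ s! length (A / I) e(A)`.
-/

namespace Vale.Agent.Lib.P202.Lech

open IsLocalRing
open scoped Nat

universe u

/-- The upper bound for the Hilbert-Samuel function of `I` with the constant `s! L`. -/
theorem upperI_fact (s δ : ℕ) (hδ : s + 1 ≤ δ) (A : Type u) [CommRing A] [IsLocalRing A]
    [IsNoetherianRing A] [Infinite (ResidueField A)] (I : Ideal A) (t : Finset A)
    (ht : t.card ≤ s) (hn : maximalIdeal A = I ⊔ Ideal.span (t : Set A)) (L : ℕ)
    (hL : Module.length A (A ⧸ I) = (L : ℕ∞)) :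
    (∃ e b : ℕ, UpperI A I δ (s ! * L) e b ∧ LowerHS A δ e) ∨ ∀ E : ℕ, LowerHS A δ E := by
  obtain ⟨zs, hlen, hmem, -, hcases⟩ := exists_sup_seq s δ hδ A I t ht hn
  rcases hcases with ⟨e, b, hup, hlow⟩ | hall
  · left
    obtain ⟨κ, hκ⟩ : ∃ κ, κ = δ - zs.length := ⟨_, rfl⟩
    rw [← hκ] at hup
    have hκ1 : 1 ≤ κ := by omega
    have hδκ : κ + zs.length = δ := by omega
    have hfin : ∀ m : ℕ, Module.length A (A ⧸ (I ^ m ⊔ Ideal.ofList zs)) ≠ ⊤ := by
      intro m htop
      have h1 := hup m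
      have hne : ((κ ! : ℕ) : ℕ∞) ≠ 0 := by
        exact_mod_cast (Nat.factorial_pos κ).ne'
      rw [htop, ENat.mul_top hne] at h1
      exact (ENat.natCast_ne_top _) (top_le_iff.mp h1)
    obtain ⟨hnat, hhnat⟩ : ∃ f : ℕ → ℕ, ∀ m,
        f m = (Module.length A (A ⧸ (I ^ m ⊔ Ideal.ofList zs))).toNat := ⟨_, fun _ => rfl⟩
    have hcoe : ∀ m, ((hnat m : ℕ) : ℕ∞) =
        Module.length A (A ⧸ (I ^ m ⊔ Ideal.ofList zs)) := by
      intro m
      rw [hhnat m]
      exact ENat.natCast_toNat (hfin m)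
    have hmono : Monotone hnat := by
      apply monotone_nat_of_le_succ
      intro m
      have h1 : Module.length A (A ⧸ (I ^ m ⊔ Ideal.ofList zs)) ≤
          Module.length A (A ⧸ (I ^ (m + 1) ⊔ Ideal.ofList zs)) :=
        Vale.Agent.Lib.P202.length_quot_anti
          (sup_le_sup_right (Ideal.pow_le_pow_right (Nat.le_succ m)) _)
      rw [← hcoe m, ← hcoe (m + 1)] at h1
      exact_mod_cast h1
    have h0 : hnat 0 = 0 := by
      have h1 : Module.length A (A ⧸ (I ^ 0 ⊔ Ideal.ofList zs)) = 0 := by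
        rw [Module.length_eq_zero_iff, Ideal.Quotient.subsingleton_iff, pow_zero,
          Ideal.one_eq_top, top_sup_eq]
      have h2 := hcoe 0
      rw [h1] at h2
      exact_mod_cast h2
    have hupn : ∀ m, κ ! * hnat m ≤ e * m ^ κ + b * m ^ (κ - 1) := by
      intro m
      have h1 := hup m
      rw [← hcoe m] at h1
      exact_mod_cast h1
    obtain ⟨b', hb'⟩ := fact_iter_poly κ e b hκ1 hnat hupn zs.length
    refine ⟨e, b', ?_, hlow⟩
    intro N
    rcases Nat.eq_zero_or_pos N with hN0 | hNpos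
    · subst hN0
      have h1 : Module.length A (A ⧸ I ^ 0) = 0 := by
        rw [Module.length_eq_zero_iff, Ideal.Quotient.subsingleton_iff, pow_zero,
          Ideal.one_eq_top]
      rw [h1, mul_zero]
      exact zero_le
    have hLI : maximalIdeal A ^ L ≤ I := maximalIdeal_pow_le_of_length_le I L (le_of_eq hL)
    have hT : ∀ z ∈ zs, z ^ (L * N) ∈ I ^ N := by
      intro z hz
      have h1 : z ^ (L * N) ∈ maximalIdeal A ^ (L * N) := Ideal.pow_mem_pow (hmem z hz) _
      rw [pow_mul] at h1
      exact Ideal.pow_right_mono hLI N h1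
    have hT1 : ∀ z ∈ zs, z ^ (L * N) ∈ I := by
      intro z hz
      exact Ideal.pow_le_self (Nat.pos_iff_ne_zero.mp hNpos) (hT z hz)
    have hcore := fact_core I zs N (L * N) hT hT1 hfin
    simp only [← hhnat] at hcore
    rw [hL] at hcore
    have hnum := fact_num_iter zs.length hnat hmono h0 N
    have hpoly := hb' N
    rw [hδκ] at hpoly
    have hfac : zs.length ! ≤ s ! := Nat.factorial_le hlen
    have key : δ ! * (L * ∑ a ∈ Finset.Icc 1 N,
        (hnat (N - a + 1) - hnat (N - a)) * a ^ zs.length) ≤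
        s ! * L * (e * N ^ δ + b' * N ^ (δ - 1)) := by
      calc δ ! * (L * ∑ a ∈ Finset.Icc 1 N,
            (hnat (N - a + 1) - hnat (N - a)) * a ^ zs.length)
          ≤ δ ! * (L * (zs.length ! * iterNat hnat zs.length N)) :=
            Nat.mul_le_mul_left _ (Nat.mul_le_mul_left _ hnum)
        _ = zs.length ! * L * (δ ! * iterNat hnat zs.length N) := by ring
        _ ≤ zs.length ! * L * (e * N ^ δ + b' * N ^ (δ - 1)) :=
            Nat.mul_le_mul_left _ hpoly
        _ ≤ s ! * L * (e * N ^ δ + b' * N ^ (δ - 1)) :=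
            Nat.mul_le_mul_right _ (Nat.mul_le_mul_right _ hfac)
    calc (δ.factorial : ℕ∞) * Module.length A (A ⧸ I ^ N)
        ≤ (δ.factorial : ℕ∞) * ((L : ℕ∞) * ((∑ a ∈ Finset.Icc 1 N,
            (hnat (N - a + 1) - hnat (N - a)) * a ^ zs.length : ℕ) : ℕ∞)) :=
          mul_le_mul_right hcore _
      _ = ((δ ! * (L * ∑ a ∈ Finset.Icc 1 N,
            (hnat (N - a + 1) - hnat (N - a)) * a ^ zs.length) : ℕ) : ℕ∞) := by
          push_cast
          rfl
      _ ≤ ((s ! * L * (e * N ^ δ + b' * N ^ (δ - 1)) : ℕ) : ℕ∞) := by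
          exact_mod_cast key
  · right
    exact hall

end Vale.Agent.Lib.P202.Lech
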