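import Mathlib

/-!
# Numerical estimates for the counting inequality
-/

namespace Vale.Agent.Lib.P202.Lech

open scoped Nat

/-- Iterated summation of a function with natural values: `iterNat f 0 = f` and
`iterNat f (t + 1) N = ∑_{j < N} iterNat f t (j + 1)`. -/
def iterNat (f : ℕ → ℕ) : ℕ → ℕ → ℕ
  | 0, N => f N
  | t + 1, N => ∑ j ∈ Finset.range N, iterNat f t (j + 1)

/-- The weighted sum of the increments in increasing order of the index. -/
def factNumG (h : ℕ → ℕ) (s N : ℕ) : ℕ :=
  ∑ j ∈ Finset.range N, (h (j + 1) - h j) * (N - j) ^ s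

theorem factNum_reindex (s : ℕ) (h : ℕ → ℕ) (N : ℕ) :
    ∑ a ∈ Finset.Icc 1 N, (h (N - a + 1) - h (N - a)) * a ^ s = factNumG h s N := by
  unfold factNumG
  refine Finset.sum_nbij' (fun a => N - a) (fun j => N - j) ?_ ?_ ?_ ?_ ?_
  · intro a ha
    simp only [Finset.mem_Icc] at ha
    simp only [Finset.mem_range]
    omega
  · intro j hj
    simp only [Finset.mem_range] at hj
    simp only [Finset.mem_Icc]
    omega
  · intro a ha
    simp only [Finset.mem_Icc] at ha
    omega
  · intro j hj
    simp only [Finset.mem_range] at hj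
    omega
  · intro a ha
    simp only [Finset.mem_Icc] at ha
    have e : N - (N - a) = a := by omega
    rw [e]

theorem factNum_pow_succ (s X : ℕ) :
    (X + 1) ^ (s + 1) ≤ X ^ (s + 1) + (s + 1) * (X + 1) ^ s := by
  induction s with
  | zero => simp
  | succ s ih =>
    have h1 : X ^ (s + 1) ≤ (X + 1) ^ (s + 1) := Nat.pow_le_pow_left (Nat.le_succ X) _
    calc (X + 1) ^ (s + 1 + 1) = (X + 1) * (X + 1) ^ (s + 1) := by ring
      _ ≤ (X + 1) * (X ^ (s + 1) + (s + 1) * (X + 1) ^ s) := Nat.mul_le_mul_left _ ih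
      _ = X ^ (s + 1 + 1) + X ^ (s + 1) + (s + 1) * (X + 1) ^ (s + 1) := by ring
      _ ≤ X ^ (s + 1 + 1) + (X + 1) ^ (s + 1) + (s + 1) * (X + 1) ^ (s + 1) := by omega
      _ = X ^ (s + 1 + 1) + (s + 1 + 1) * (X + 1) ^ (s + 1) := by ring

theorem factNum_pow_le_sum (s X : ℕ) :
    X ^ (s + 1) ≤ (s + 1) * ∑ x ∈ Finset.range X, (x + 1) ^ s := by
  induction X with
  | zero => simp
  | succ X ih =>
    rw [Finset.sum_range_succ, Nat.mul_add]
    exact (factNum_pow_succ s X).trans (Nat.add_le_add_right ih _)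

theorem factNum_exchange (h : ℕ → ℕ) (s N : ℕ) :
    ∑ w ∈ Finset.range N, factNumG h s (w + 1)
      = ∑ j ∈ Finset.range N, (h (j + 1) - h j) * ∑ x ∈ Finset.range (N - j), (x + 1) ^ s := by
  induction N with
  | zero => simp
  | succ N ih =>
    rw [Finset.sum_range_succ, ih]
    have e : ∀ j ∈ Finset.range (N + 1),
        (h (j + 1) - h j) * ∑ x ∈ Finset.range (N + 1 - j), (x + 1) ^ s
          = (h (j + 1) - h j) * ∑ x ∈ Finset.range (N - j), (x + 1) ^ s
            + (h (j + 1) - h j) * (N + 1 - j) ^ s := by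
      intro j hj
      simp only [Finset.mem_range] at hj
      have e1 : N + 1 - j = (N - j) + 1 := by omega
      rw [e1, Finset.sum_range_succ, Nat.mul_add]
    rw [Finset.sum_congr rfl e, Finset.sum_add_distrib,
      Finset.sum_range_succ
        (fun j => (h (j + 1) - h j) * ∑ x ∈ Finset.range (N - j), (x + 1) ^ s) N]
    simp [factNumG]

theorem factNum_main (h : ℕ → ℕ) (hmono : Monotone h) (h0 : h 0 = 0) (s : ℕ) :
    ∀ N, factNumG h s N ≤ s ! * iterNat h s N := by
  induction s with
  | zero =>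
    intro N
    unfold factNumG
    simp only [pow_zero, mul_one, Nat.factorial_zero, one_mul]
    rw [Finset.sum_range_tsub hmono N, h0, Nat.sub_zero]
    exact le_of_eq rfl
  | succ s ih =>
    intro N
    calc factNumG h (s + 1) N
        = ∑ j ∈ Finset.range N, (h (j + 1) - h j) * (N - j) ^ (s + 1) := rfl
      _ ≤ ∑ j ∈ Finset.range N,
            (h (j + 1) - h j) * ((s + 1) * ∑ x ∈ Finset.range (N - j), (x + 1) ^ s) :=
          Finset.sum_le_sum fun j _ => Nat.mul_le_mul_left _ (factNum_pow_le_sum s (N - j))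
      _ = (s + 1) * ∑ j ∈ Finset.range N,
            (h (j + 1) - h j) * ∑ x ∈ Finset.range (N - j), (x + 1) ^ s := by
          rw [Finset.mul_sum]
          refine Finset.sum_congr rfl fun j _ => ?_
          ring
      _ = (s + 1) * ∑ w ∈ Finset.range N, factNumG h s (w + 1) := by
          rw [factNum_exchange]
      _ ≤ (s + 1) * ∑ w ∈ Finset.range N, s ! * iterNat h s (w + 1) :=
          Nat.mul_le_mul_left _ (Finset.sum_le_sum fun w _ => ih (w + 1))
      _ = (s + 1)! * iterNat h (s + 1) N := by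
          rw [← Finset.mul_sum, ← Nat.mul_assoc, Nat.factorial_succ]
          rfl

/-- The weighted sum of the increments of a monotone function is at most `s!` times its
`s`-fold iterated sum. -/
theorem fact_num_iter (s : ℕ) (h : ℕ → ℕ) (hmono : Monotone h) (h0 : h 0 = 0) (N : ℕ) :
    ∑ a ∈ Finset.Icc 1 N, (h (N - a + 1) - h (N - a)) * a ^ s ≤ s ! * iterNat h s N := by
  rw [factNum_reindex]
  exact factNum_main h hmono h0 s N

end Vale.Agent.Lib.P202.Lech
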