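import Vale.Agent.Lib.P202.Lech.QuotList
import Vale.Agent.Lib.P202.Lech.CMGeneral

/-!
# Lech-type inequalities for quotients of flat local algebras with Cohen-Macaulay closed fibre
-/

namespace Vale.Agent.Lib.P202.Lech

open IsLocalRing Filter
open scoped ENNReal Nat Topology

universe u v

variable {R : Type v} {S : Type u} [CommRing R] [CommRing S] [IsLocalRing R] [IsLocalRing S]
  [IsNoetherianRing R] [IsNoetherianRing S] [Algebra R S] [IsLocalHom (algebraMap R S)]
  [Module.Flat R S]

/-- Let `S` be flat and local over `R` with closed fibre Cohen-Macaulay of dimension `r` (in the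
sense of `CMmod`), and let `fs` be a list of elements of `n`.  For `δ + fs.length = d + r`,
`δ ≥ 1`, the Hilbert-Samuel function `N ↦ length (S / (n^N + (fs)))` of `S / (fs)`, normalised
in order `δ`, is compared with that of `R` normalised in order `d`: with the factor `(d - 1)!`
in general, and with the factor `1` when `n` is generated by `m S` and `r + 2` elements. -/
theorem limsup_le_of_cmmod_quot (r : ℕ) (hcm : CMmod r ((maximalIdeal R).map (algebraMap R S)))
    (fs : List S) (hfs : ∀ f ∈ fs, f ∈ maximalIdeal S)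
    (d δ : ℕ) (hd : 2 ≤ d) (hδ : 1 ≤ δ) (hlen : δ + fs.length = d + r) :
    limsup (fun N : ℕ => (d ! : ℝ≥0∞) *
        (Module.length R (R ⧸ maximalIdeal R ^ N)).toENNReal / (N : ℝ≥0∞) ^ d) atTop ≤
      ((d - 1) ! : ℝ≥0∞) * liminf (fun N : ℕ => (δ ! : ℝ≥0∞) *
        (Module.length S (S ⧸ (maximalIdeal S ^ N ⊔ Ideal.ofList fs))).toENNReal /
          (N : ℝ≥0∞) ^ δ) atTop ∧
    ((∃ g : Fin (r + 2) → S, maximalIdeal S =
        (maximalIdeal R).map (algebraMap R S) ⊔ Ideal.span (Set.range g)) →
      limsup (fun N : ℕ => (d ! : ℝ≥0∞) *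
          (Module.length R (R ⧸ maximalIdeal R ^ N)).toENNReal / (N : ℝ≥0∞) ^ d) atTop ≤
        liminf (fun N : ℕ => (δ ! : ℝ≥0∞) *
          (Module.length S (S ⧸ (maximalIdeal S ^ N ⊔ Ideal.ofList fs))).toENNReal /
            (N : ℝ≥0∞) ^ δ) atTop) := by
  obtain ⟨S', _, _, _, _, hflat, hloc, hinf, hmax⟩ := exists_infinite_residue_extension S
  letI : Algebra R S' := ((algebraMap S S').comp (algebraMap R S)).toAlgebra
  have htower : IsScalarTower R S S' := IsScalarTower.of_algebraMap_eq (fun _ => rfl)
  have hflat' : Module.Flat R S' := Module.Flat.trans R S S'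
  have hloc' : IsLocalHom (algebraMap R S') := by
    have h : algebraMap R S' = (algebraMap S S').comp (algebraMap R S) := rfl
    rw [h]
    exact RingHom.isLocalHom_comp _ _
  have hone : Module.length S' (S' ⧸ (maximalIdeal S).map (algebraMap S S')) = 1 := by
    rw [hmax]
    exact length_quot_maximalIdeal S'
  have hlength : ∀ I : Ideal S, Module.length S' (S' ⧸ I.map (algebraMap S S')) =
      Module.length S (S ⧸ I) := by
    intro I
    rw [Vale.Agent.Lib.P202.length_quot_map, hone, mul_one]
  have hmap : (maximalIdeal R).map (algebraMap R S') =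
      ((maximalIdeal R).map (algebraMap R S)).map (algebraMap S S') := by
    rw [Ideal.map_map]
    rfl
  have hcm' : CMmod r ((maximalIdeal R).map (algebraMap R S')) := by
    rw [hmap]
    exact cmmod_map hmax r _ hcm
  have hlen' : (fs.map (algebraMap S S')).length = fs.length := List.length_map _
  have hmem' : ∀ g ∈ fs.map (algebraMap S S'), g ∈ maximalIdeal S' := by
    intro g hg
    obtain ⟨a, ha, rfl⟩ := List.mem_map.mp hg
    rw [← hmax]
    exact Ideal.mem_map_of_mem _ (hfs a ha)
  have hfun : (fun N => Module.length S'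
      (S' ⧸ (maximalIdeal S' ^ N ⊔ Ideal.ofList (fs.map (algebraMap S S'))))) =
      (fun N => Module.length S (S ⧸ (maximalIdeal S ^ N ⊔ Ideal.ofList fs))) := by
    funext N
    rw [← hlength, Ideal.map_sup, Ideal.map_pow, hmax, Ideal.map_ofList]
  obtain ⟨c1, c2⟩ := concl_cm (R := R) d hd r S' hcm'
  rw [← hlen] at c1 c2
  constructor
  · have h1 := conclFn_quot_list (R := R) d (d - 1)! fs.length S' (fs.map (algebraMap S S'))
      hlen' hmem' δ hδ c1
    rw [hfun] at h1
    exact limsup_le_of_conclFn _ d δ (d - 1)! hδ (Nat.factorial_pos _).ne' h1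
  · rintro ⟨g, hg⟩
    have hg' : maximalIdeal S' = (maximalIdeal R).map (algebraMap R S') ⊔
        Ideal.span (Set.range (fun i => algebraMap S S' (g i))) := by
      rw [← hmax, hmap]
      conv_lhs => rw [hg]
      rw [Ideal.map_sup, Ideal.map_span, ← Set.range_comp]
      rfl
    have h1 := conclFn_quot_list (R := R) d 1 fs.length S' (fs.map (algebraMap S S'))
      hlen' hmem' δ hδ (c2 ⟨_, hg'⟩)
    rw [hfun] at h1
    have h2 := limsup_le_of_conclFn _ d δ 1 hδ one_ne_zero h1
    simp only [Nat.cast_one, one_mul] at h2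
    exact h2

end Vale.Agent.Lib.P202.Lech
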