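import Vale.Agent.Lib.P202.Lech.FactCM
import Vale.Agent.Lib.P202.Lech.QuotGeneral

/-!
# Quotients of flat local algebras with Cohen-Macaulay closed fibre of embedding codimension `ρ`

The inequality with the constant `(min d ρ - 1)!` for the quotient `S / (fs)` of `S` by a list
of elements of the maximal ideal.
-/

namespace Vale.Agent.Lib.P202.Lech

open IsLocalRing Filter
open scoped ENNReal Nat Topology

universe u v

variable {R : Type v} {S : Type u} [CommRing R] [CommRing S] [IsLocalRing R] [IsLocalRing S]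
  [IsNoetherianRing R] [IsNoetherianRing S] [Algebra R S] [IsLocalHom (algebraMap R S)]
  [Module.Flat R S]

/-- The inequality for the Hilbert-Samuel function of `S / (fs)`, for a closed fibre that is
Cohen-Macaulay of dimension `r` in the sense of `CMmod`, with `n` generated by `m S` and
`r + ρ` elements. -/
theorem limsup_le_of_cmmod_quot_gen (r : ℕ)
    (hcm : CMmod r ((maximalIdeal R).map (algebraMap R S)))
    (ρ : ℕ) (hρ : 1 ≤ ρ) (g : Fin (r + ρ) → S)
    (hg : maximalIdeal S = (maximalIdeal R).map (algebraMap R S) ⊔ Ideal.span (Set.range g))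
    (fs : List S) (hfs : ∀ f ∈ fs, f ∈ maximalIdeal S)
    (d δ : ℕ) (hd : 2 ≤ d) (hδ : 1 ≤ δ) (hlen : δ + fs.length = d + r) :
    limsup (fun N : ℕ => (d ! : ℝ≥0∞) *
        (Module.length R (R ⧸ maximalIdeal R ^ N)).toENNReal / (N : ℝ≥0∞) ^ d) atTop ≤
      ((min d ρ - 1) ! : ℝ≥0∞) * liminf (fun N : ℕ => (δ ! : ℝ≥0∞) *
        (Module.length S (S ⧸ (maximalIdeal S ^ N ⊔ Ideal.ofList fs))).toENNReal /
          (N : ℝ≥0∞) ^ δ) atTop := by
  obtain ⟨S', _, _, _, _, hflat, hloc, hinf, hmax⟩ := exists_infinite_residue_extension S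
  letI : Algebra R S' := ((algebraMap S S').comp (algebraMap R S)).toAlgebra
  have htower : IsScalarTower R S S' := IsScalarTower.of_algebraMap_eq (fun _ => rfl)
  have hflat' : Module.Flat R S' := Module.Flat.trans R S S'
  have hloc' : IsLocalHom (algebraMap R S') := by
    have h : algebraMap R S' = (algebraMap S S').comp (algebraMap R S) := rfl
    rw [h]
    exact RingHom.isLocalHom_comp _ _
  have hone : Module.length S' (S' ⧸ (maximalIdeal S).map (algebraMap S S')) = 1 := by
    rw [hmax]
    exact length_quot_maximalIdeal S'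
  have hlength : ∀ I : Ideal S, Module.length S' (S' ⧸ I.map (algebraMap S S')) =
      Module.length S (S ⧸ I) := by
    intro I
    rw [Vale.Agent.Lib.P202.length_quot_map, hone, mul_one]
  have hmap : (maximalIdeal R).map (algebraMap R S') =
      ((maximalIdeal R).map (algebraMap R S)).map (algebraMap S S') := by
    rw [Ideal.map_map]
    rfl
  have hcm' : CMmod r ((maximalIdeal R).map (algebraMap R S')) := by
    rw [hmap]
    exact cmmod_map hmax r _ hcm
  have hlen' : (fs.map (algebraMap S S')).length = fs.length := List.length_map _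
  have hmem' : ∀ g ∈ fs.map (algebraMap S S'), g ∈ maximalIdeal S' := by
    intro g hg
    obtain ⟨a, ha, rfl⟩ := List.mem_map.mp hg
    rw [← hmax]
    exact Ideal.mem_map_of_mem _ (hfs a ha)
  have hfun : (fun N => Module.length S'
      (S' ⧸ (maximalIdeal S' ^ N ⊔ Ideal.ofList (fs.map (algebraMap S S'))))) =
      (fun N => Module.length S (S ⧸ (maximalIdeal S ^ N ⊔ Ideal.ofList fs))) := by
    funext N
    rw [← hlength, Ideal.map_sup, Ideal.map_pow, hmax, Ideal.map_ofList]
  have hg' : maximalIdeal S' = (maximalIdeal R).map (algebraMap R S') ⊔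
      Ideal.span (Set.range (fun i => algebraMap S S' (g i))) := by
    rw [← hmax, hmap]
    conv_lhs => rw [hg]
    rw [Ideal.map_sup, Ideal.map_span, ← Set.range_comp]
    rfl
  have c := concl_cm_gen (R := R) d hd ρ hρ r S' hcm' ⟨_, hg'⟩
  rw [← hlen] at c
  have h1 := conclFn_quot_list (R := R) d (min d ρ - 1)! fs.length S'
    (fs.map (algebraMap S S')) hlen' hmem' δ hδ c
  rw [hfun] at h1
  exact limsup_le_of_conclFn _ d δ (min d ρ - 1)! hδ (Nat.factorial_pos _).ne' h1

end Vale.Agent.Lib.P202.Lech
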