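import Vale.Agent.Lib.P202.Lech.Asymp

/-!
# From a polynomial upper bound to a bound for the upper limit
-/

namespace Vale.Agent.Lib.P202.Lech

open Filter
open scoped ENNReal Nat Topology

/-- If `d! h(N) ≤ e N^d + b N^(d-1)` for all `N`, then `limsup d! h(N) / N^d ≤ e`. -/
theorem limsup_le_of_upper (d e b : ℕ) (hd : 1 ≤ d) (h : ℕ → ℕ∞)
    (hu : ∀ N, (d ! : ℕ∞) * h N ≤ ((e * N ^ d + b * N ^ (d - 1) : ℕ) : ℕ∞)) :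
    limsup (fun N : ℕ => (d ! : ℝ≥0∞) * (h N).toENNReal / (N : ℝ≥0∞) ^ d) atTop ≤
      (e : ℝ≥0∞) := by
  obtain ⟨m, rfl⟩ : ∃ m, d = m + 1 := ⟨d - 1, by omega⟩
  have hbt : (b : ℝ≥0∞) ≠ ⊤ := ENNReal.natCast_ne_top b
  have hle : ∀ᶠ N : ℕ in atTop,
      ((m + 1)! : ℝ≥0∞) * (h N).toENNReal / (N : ℝ≥0∞) ^ (m + 1)
        ≤ (e : ℝ≥0∞) + (b : ℝ≥0∞) * (N : ℝ≥0∞)⁻¹ := by
    filter_upwards [eventually_ge_atTop 1] with N hN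
    have hN0 : (N : ℝ≥0∞) ≠ 0 := by
      have : N ≠ 0 := by omega
      exact_mod_cast this
    have hNt : (N : ℝ≥0∞) ≠ ⊤ := ENNReal.natCast_ne_top N
    have hinv : (N : ℝ≥0∞)⁻¹ * (N : ℝ≥0∞) = 1 := ENNReal.inv_mul_cancel hN0 hNt
    rw [ENNReal.div_le_iff_le_mul (Or.inl (pow_ne_zero _ hN0)) (Or.inl (ENNReal.pow_ne_top hNt))]
    have hk := ENat.toENNReal_le.mpr (hu N)
    rw [ENat.toENNReal_mul, ENat.toENNReal_coe, ENat.toENNReal_coe] at hk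
    have e2 : (N : ℝ≥0∞)⁻¹ * (N : ℝ≥0∞) ^ (m + 1) = (N : ℝ≥0∞) ^ m := by
      rw [pow_succ (N : ℝ≥0∞) m, mul_left_comm, hinv, mul_one]
    have hR : ((e : ℝ≥0∞) + (b : ℝ≥0∞) * (N : ℝ≥0∞)⁻¹) * (N : ℝ≥0∞) ^ (m + 1)
        = (e : ℝ≥0∞) * (N : ℝ≥0∞) ^ (m + 1) + (b : ℝ≥0∞) * (N : ℝ≥0∞) ^ m := by
      rw [add_mul, mul_assoc, e2]
    calc ((m + 1)! : ℝ≥0∞) * (h N).toENNReal
        ≤ ((e * N ^ (m + 1) + b * N ^ (m + 1 - 1) : ℕ) : ℝ≥0∞) := hk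
      _ = ((e : ℝ≥0∞) + (b : ℝ≥0∞) * (N : ℝ≥0∞)⁻¹) * (N : ℝ≥0∞) ^ (m + 1) := by
          rw [hR, Nat.add_sub_cancel]
          push_cast
          rfl
  have htend : Tendsto (fun N : ℕ => (e : ℝ≥0∞) + (b : ℝ≥0∞) * (N : ℝ≥0∞)⁻¹) atTop
      (𝓝 (e : ℝ≥0∞)) := by
    have hu0 := ENNReal.tendsto_inv_nat_nhds_zero
    have h4 := ENNReal.Tendsto.const_mul (a := (b : ℝ≥0∞)) hu0 (Or.inr hbt)
    have h5 := (tendsto_const_nhds (x := (e : ℝ≥0∞)) (f := (atTop : Filter ℕ))).add h4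
    simpa using h5
  calc limsup (fun N : ℕ => ((m + 1)! : ℝ≥0∞) * (h N).toENNReal / (N : ℝ≥0∞) ^ (m + 1)) atTop
      ≤ limsup (fun N : ℕ => (e : ℝ≥0∞) + (b : ℝ≥0∞) * (N : ℝ≥0∞)⁻¹) atTop :=
        limsup_le_limsup hle
    _ = (e : ℝ≥0∞) := htend.limsup_eq

end Vale.Agent.Lib.P202.Lech
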