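import Vale.Agent.Lib.P202.Lech.IadicMain
import Vale.Agent.Lib.P202.Lech.UpperLim
import Vale.Agent.Lib.P202.Lech.Residue
import Vale.Agent.Lib.P202.Lech.General

/-!
# Lech's inequality up to a constant depending only on the closed fibre

Let `(R, m) → (S, n)` be a flat local homomorphism of Noetherian local rings with
`n = m S + (g_1, …, g_r)` and `n^c ⊆ m S`.  Then `length (S / m S) e(R) ≤ c^r e(S)` in every
order `d ≥ 1` (for `d ≤ r` this is the classical comparison of `m S` with `n^c`).
-/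

namespace Vale.Agent.Lib.P202.Lech

open IsLocalRing Filter
open scoped ENNReal Nat Topology

universe u v

variable {R : Type v} {S : Type u} [CommRing R] [CommRing S] [IsLocalRing R] [IsLocalRing S]
  [IsNoetherianRing R] [IsNoetherianRing S] [Algebra R S] [IsLocalHom (algebraMap R S)]
  [Module.Flat R S]

omit [IsLocalRing S] [IsNoetherianRing S] in
/-- Enlarging the constant in an upper bound. -/
lemma upperI_mono (I : Ideal S) (δ e b : ℕ) {C C' : ℕ} (hC : C ≤ C')
    (h : UpperI S I δ C e b) : UpperI S I δ C' e b := by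
  intro N
  refine (h N).trans ?_
  rw [Nat.cast_le]
  exact Nat.mul_le_mul_right _ hC

omit [IsNoetherianRing S] in
/-- If `n^c ⊆ I` then an upper bound of order `δ` for the Hilbert-Samuel function of `n` gives
one for `I` with the constant `c^δ`. -/
lemma upperI_of_pow_le (I : Ideal S) (c : ℕ) (hc1 : 1 ≤ c) (hc : maximalIdeal S ^ c ≤ I)
    (δ e b : ℕ) (h : UpperHS S δ e b) : UpperI S I δ (c ^ δ) e b := by
  intro N
  have h1 : maximalIdeal S ^ (c * N) ≤ I ^ N := by
    rw [pow_mul]
    exact Ideal.pow_right_mono hc N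
  have h2 := h (c * N)
  have h3 : (δ.factorial : ℕ∞) * Module.length S (S ⧸ I ^ N) ≤
      (δ.factorial : ℕ∞) * Module.length S (S ⧸ maximalIdeal S ^ (c * N)) :=
    mul_le_mul_right (Vale.Agent.Lib.P202.length_quot_anti h1) _
  refine h3.trans (h2.trans ?_)
  rw [Nat.cast_le]
  have h4 : c ^ (δ - 1) ≤ c ^ δ := Nat.pow_le_pow_right hc1 (Nat.sub_le δ 1)
  calc e * (c * N) ^ δ + b * (c * N) ^ (δ - 1)
      = c ^ δ * (e * N ^ δ) + c ^ (δ - 1) * (b * N ^ (δ - 1)) := by
        rw [mul_pow, mul_pow]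
        ring
    _ ≤ c ^ δ * (e * N ^ δ) + c ^ δ * (b * N ^ (δ - 1)) :=
        Nat.add_le_add_left (Nat.mul_le_mul_right _ h4) _
    _ = c ^ δ * (e * N ^ δ + b * N ^ (δ - 1)) := by ring

/-- From an upper bound for the Hilbert-Samuel function of `m S` with constant `C` and a
matching lower bound for that of `n` to the inequality of normalized limits. -/
theorem length_mul_limsup_le_of_upperI
    (hfib : Module.length S (S ⧸ (maximalIdeal R).map (algebraMap R S)) ≠ ⊤)
    (d C : ℕ) (hd : 1 ≤ d) (hC : 1 ≤ C)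
    (H : (∃ e b : ℕ, UpperI S ((maximalIdeal R).map (algebraMap R S)) d C e b ∧ LowerHS S d e) ∨
      ∀ E : ℕ, LowerHS S d E) :
    (Module.length S (S ⧸ (maximalIdeal R).map (algebraMap R S))).toENNReal *
        limsup (fun N : ℕ => (d ! : ℝ≥0∞) *
          (Module.length R (R ⧸ maximalIdeal R ^ N)).toENNReal / (N : ℝ≥0∞) ^ d) atTop ≤
      (C : ℝ≥0∞) * liminf (fun N : ℕ => (d ! : ℝ≥0∞) *
        (Module.length S (S ⧸ maximalIdeal S ^ N)).toENNReal / (N : ℝ≥0∞) ^ d) atTop := by
  have hlim : ∀ E : ℕ, LowerHS S d E → (E : ℝ≥0∞) ≤ liminf (fun N : ℕ => (d ! : ℝ≥0∞) *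
      (Module.length S (S ⧸ maximalIdeal S ^ N)).toENNReal / (N : ℝ≥0∞) ^ d) atTop := by
    rintro E ⟨K, hK⟩
    exact le_liminf_of_lower d E K hd _ hK
  have hLt : (Module.length S (S ⧸ (maximalIdeal R).map (algebraMap R S))).toENNReal ≠ ⊤ := by
    rw [Ne, ENat.toENNReal_eq_top]
    exact hfib
  have hcr : (C : ℝ≥0∞) ≠ 0 := by
    have : C ≠ 0 := by omega
    exact_mod_cast this
  rcases H with ⟨e, b, hup, hlow⟩ | hall
  · have h1 := hlim e hlow
    have hu : ∀ N : ℕ, (d ! : ℕ∞) * (Module.length R (R ⧸ maximalIdeal R ^ N) *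
        Module.length S (S ⧸ (maximalIdeal R).map (algebraMap R S))) ≤
        (((C * e) * N ^ d + (C * b) * N ^ (d - 1) : ℕ) : ℕ∞) := by
      intro N
      have h2 := hup N
      rw [← Ideal.map_pow, Vale.Agent.Lib.P202.length_quot_map] at h2
      refine h2.trans (le_of_eq ?_)
      congr 1
      ring
    have h3 := limsup_le_of_upper d (C * e) (C * b) hd
      (fun N => Module.length R (R ⧸ maximalIdeal R ^ N) *
        Module.length S (S ⧸ (maximalIdeal R).map (algebraMap R S))) hu
    have h4 : (fun N : ℕ => (d ! : ℝ≥0∞) * (Module.length R (R ⧸ maximalIdeal R ^ N) *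
        Module.length S (S ⧸ (maximalIdeal R).map (algebraMap R S))).toENNReal /
          (N : ℝ≥0∞) ^ d) =
        fun N : ℕ => (Module.length S (S ⧸ (maximalIdeal R).map (algebraMap R S))).toENNReal *
          ((d ! : ℝ≥0∞) * (Module.length R (R ⧸ maximalIdeal R ^ N)).toENNReal /
            (N : ℝ≥0∞) ^ d) := by
      funext N
      rw [ENat.toENNReal_mul, div_eq_mul_inv, div_eq_mul_inv]
      ring
    rw [h4, ENNReal.limsup_const_mul_of_ne_top hLt] at h3
    calc (Module.length S (S ⧸ (maximalIdeal R).map (algebraMap R S))).toENNReal *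
          limsup (fun N : ℕ => (d ! : ℝ≥0∞) *
            (Module.length R (R ⧸ maximalIdeal R ^ N)).toENNReal / (N : ℝ≥0∞) ^ d) atTop
        ≤ ((C * e : ℕ) : ℝ≥0∞) := h3
      _ = (C : ℝ≥0∞) * (e : ℝ≥0∞) := by push_cast; ring
      _ ≤ (C : ℝ≥0∞) * liminf (fun N : ℕ => (d ! : ℝ≥0∞) *
            (Module.length S (S ⧸ maximalIdeal S ^ N)).toENNReal / (N : ℝ≥0∞) ^ d) atTop :=
          mul_le_mul_right h1 _
  · have htop : liminf (fun N : ℕ => (d ! : ℝ≥0∞) *
        (Module.length S (S ⧸ maximalIdeal S ^ N)).toENNReal / (N : ℝ≥0∞) ^ d) atTop = ⊤ :=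
      ENNReal.eq_top_of_forall_nnreal_le (fun q => by
        obtain ⟨E, hE⟩ := exists_nat_ge q
        calc (q : ℝ≥0∞) ≤ ((E : NNReal) : ℝ≥0∞) := ENNReal.coe_le_coe.mpr hE
          _ = (E : ℝ≥0∞) := ENNReal.coe_natCast E
          _ ≤ _ := hlim E (hall E))
    rw [htop, ENNReal.mul_top hcr]
    exact le_top

/-- The case of an infinite residue field: `n = m S + (g_1, …, g_r)` and `n^c ⊆ m S` give
`length (S / m S) e(R) ≤ c^r e(S)` in every order `d ≥ 1`. -/
theorem length_mul_limsup_le_of_infinite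
    (hfib : Module.length S (S ⧸ (maximalIdeal R).map (algebraMap R S)) ≠ ⊤)
    [Infinite (ResidueField S)] (r c : ℕ) (g : Fin r → S)
    (hg : maximalIdeal S = (maximalIdeal R).map (algebraMap R S) ⊔ Ideal.span (Set.range g))
    (hc : maximalIdeal S ^ c ≤ (maximalIdeal R).map (algebraMap R S))
    (d : ℕ) (hd : 1 ≤ d) :
    (Module.length S (S ⧸ (maximalIdeal R).map (algebraMap R S))).toENNReal *
        limsup (fun N : ℕ => (d ! : ℝ≥0∞) *
          (Module.length R (R ⧸ maximalIdeal R ^ N)).toENNReal / (N : ℝ≥0∞) ^ d) atTop ≤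
      (c : ℝ≥0∞) ^ r * liminf (fun N : ℕ => (d ! : ℝ≥0∞) *
        (Module.length S (S ⧸ maximalIdeal S ^ N)).toENNReal / (N : ℝ≥0∞) ^ d) atTop := by
  classical
  have hmSle : (maximalIdeal R).map (algebraMap R S) ≤ maximalIdeal S :=
    Vale.Agent.Lib.P202.map_maximalIdeal_le
  have hc1 : 1 ≤ c := by
    rcases Nat.eq_zero_or_pos c with h0 | h0
    · exfalso
      rw [h0, pow_zero, Ideal.one_eq_top] at hc
      have h2 : (1 : S) ∈ maximalIdeal S := hmSle (hc trivial)
      exact (Ideal.ne_top_iff_one _).mp (IsLocalRing.maximalIdeal.isMaximal S).ne_top h2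
    · exact h0
  have hnil : ∀ x ∈ maximalIdeal S, x ^ c ∈ (maximalIdeal R).map (algebraMap R S) :=
    fun x hx => hc (Ideal.pow_mem_pow hx c)
  have hs : maximalIdeal S = (maximalIdeal R).map (algebraMap R S) ⊔
      Ideal.span ((Finset.univ.image g : Finset S) : Set S) := by
    rw [Finset.coe_image, Finset.coe_univ, Set.image_univ]
    exact hg
  have hcard : (Finset.univ.image g).card ≤ r := by
    refine Finset.card_image_le.trans ?_
    rw [Finset.card_univ, Fintype.card_fin]
  have hcast : ((c ^ r : ℕ) : ℝ≥0∞) = (c : ℝ≥0∞) ^ r := by push_cast; rfl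
  rw [← hcast]
  apply length_mul_limsup_le_of_upperI hfib d (c ^ r) hd (Nat.one_le_pow _ _ hc1)
  rcases Nat.lt_or_ge r d with hrd | hrd
  · exact upperI_of_span r d hrd S ((maximalIdeal R).map (algebraMap R S)) c
      (Finset.univ.image g) hc1 hcard hs hnil
  · rcases sharpGood d hd S with ⟨e, b, hup, hlow⟩ | hall
    · left
      exact ⟨e, b, upperI_mono _ d e b (Nat.pow_le_pow_right hc1 hrd)
        (upperI_of_pow_le _ c hc1 hc d e b hup), hlow⟩
    · right
      exact hall

/-- Lech's inequality up to the constant `c^r / length (S / m S)`, for a flat local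
homomorphism of Noetherian local rings with `n = m S + (g_1, …, g_r)` and `n^c ⊆ m S`, in every
order `d ≥ 1`. -/
theorem length_mul_limsup_le (r c : ℕ) (g : Fin r → S)
    (hg : maximalIdeal S = (maximalIdeal R).map (algebraMap R S) ⊔ Ideal.span (Set.range g))
    (hc : maximalIdeal S ^ c ≤ (maximalIdeal R).map (algebraMap R S))
    (d : ℕ) (hd : 1 ≤ d) :
    (Module.length S (S ⧸ (maximalIdeal R).map (algebraMap R S))).toENNReal *
        limsup (fun N : ℕ => (d ! : ℝ≥0∞) *
          (Module.length R (R ⧸ maximalIdeal R ^ N)).toENNReal / (N : ℝ≥0∞) ^ d) atTop ≤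
      (c : ℝ≥0∞) ^ r * liminf (fun N : ℕ => (d ! : ℝ≥0∞) *
        (Module.length S (S ⧸ maximalIdeal S ^ N)).toENNReal / (N : ℝ≥0∞) ^ d) atTop := by
  have hfib : Module.length S (S ⧸ (maximalIdeal R).map (algebraMap R S)) ≠ ⊤ :=
    ne_top_of_le_ne_top (Vale.Agent.Lib.P202.length_quot_pow_ne_top S c)
      (Vale.Agent.Lib.P202.length_quot_anti hc)
  obtain ⟨S', _, _, _, _, hflat, hloc, hinf, hmax⟩ := exists_infinite_residue_extension S
  letI : Algebra R S' := ((algebraMap S S').comp (algebraMap R S)).toAlgebra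
  have htower : IsScalarTower R S S' := IsScalarTower.of_algebraMap_eq (fun _ => rfl)
  have hflat' : Module.Flat R S' := Module.Flat.trans R S S'
  have hloc' : IsLocalHom (algebraMap R S') := by
    have h : algebraMap R S' = (algebraMap S S').comp (algebraMap R S) := rfl
    rw [h]
    exact RingHom.isLocalHom_comp _ _
  have hone : Module.length S' (S' ⧸ (maximalIdeal S).map (algebraMap S S')) = 1 := by
    rw [hmax]
    exact length_quot_maximalIdeal S'
  have hlen : ∀ I : Ideal S, Module.length S' (S' ⧸ I.map (algebraMap S S')) =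
      Module.length S (S ⧸ I) := by
    intro I
    rw [Vale.Agent.Lib.P202.length_quot_map, hone, mul_one]
  have hmap : (maximalIdeal R).map (algebraMap R S') =
      ((maximalIdeal R).map (algebraMap R S)).map (algebraMap S S') := by
    rw [Ideal.map_map]
    rfl
  have hfib' : Module.length S' (S' ⧸ (maximalIdeal R).map (algebraMap R S')) ≠ ⊤ := by
    rw [hmap, hlen]
    exact hfib
  have hHS : ∀ N : ℕ, Module.length S' (S' ⧸ maximalIdeal S' ^ N) =
      Module.length S (S ⧸ maximalIdeal S ^ N) := by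
    intro N
    rw [← hmax, ← Ideal.map_pow, hlen]
  have hg' : maximalIdeal S' = (maximalIdeal R).map (algebraMap R S') ⊔
      Ideal.span (Set.range (fun i => algebraMap S S' (g i))) := by
    rw [← hmax, hmap]
    conv_lhs => rw [hg]
    rw [Ideal.map_sup, Ideal.map_span, ← Set.range_comp]
    rfl
  have hc' : maximalIdeal S' ^ c ≤ (maximalIdeal R).map (algebraMap R S') := by
    rw [← hmax, ← Ideal.map_pow, hmap]
    exact Ideal.map_mono hc
  have hmain := length_mul_limsup_le_of_infinite (R := R) (S := S') hfib' r c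
    (fun i => algebraMap S S' (g i)) hg' hc' d hd
  simp only [hHS] at hmain
  rw [hmap, hlen] at hmain
  exact hmain

end Vale.Agent.Lib.P202.Lech
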