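import Vale.Agent.Lib.P202.Lech.GoodOne
import Vale.Agent.Lib.P202.Lech.LowerStep
import Vale.Agent.Lib.P202.Lech.SupBound
import Vale.Agent.Lib.P202.Lech.SupExists

/-!
# Noetherian local rings with infinite residue field are good of every order
-/

namespace Vale.Agent.Lib.P202.Lech

open IsLocalRing

universe u

/-- Every Noetherian local ring with infinite residue field is good of every order `δ ≥ 1`:
induction on `δ`, dividing by a superficial element. -/
theorem good (δ : ℕ) (hδ : 1 ≤ δ) :
    ∀ (A : Type u) [CommRing A] [IsLocalRing A] [IsNoetherianRing A]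
      [Infinite (ResidueField A)], Good A δ := by
  induction δ, hδ using Nat.le_induction with
  | base =>
    intro A _ _ _ _
    obtain ⟨y, c, hyc⟩ := exists_superficial A
    exact good_one c (fun N hN => superficial_convex y c hyc N hN)
  | succ δ hδ ih =>
    intro A _ _ _ _
    obtain ⟨y, c, hyc⟩ := exists_superficial A
    have hloc : IsLocalRing (A ⧸ Ideal.span {y}) :=
      Vale.Agent.Lib.P202.isLocalRing_quotient_span hyc.1
    have hinf : Infinite (ResidueField (A ⧸ Ideal.span {y})) :=
      infinite_residueField_quotient _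
    have hfin : Module.length A (A ⧸ maximalIdeal A ^ c) ≠ ⊤ :=
      Vale.Agent.Lib.P202.length_quot_pow_ne_top A c
    obtain ⟨C, hC⟩ := ENat.ne_top_iff_exists.mp hfin
    have ha : ∀ N : ℕ, Module.length A (A ⧸ (maximalIdeal A ^ (N + 1) ⊔ Ideal.span {y})) +
        Module.length A (A ⧸ maximalIdeal A ^ N) ≤
        Module.length A (A ⧸ maximalIdeal A ^ (N + 1)) + (C : ℕ∞) := by
      intro N
      rw [hC]
      exact superficial_bound_quot y c hyc N
    rcases ih (A ⧸ Ideal.span {y}) with ⟨e, b, hml, hlow⟩ | hall
    · left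
      exact ⟨e, b, mlBound_succ y hyc.1 δ e b hδ hml, lowerHS_succ y δ e C hδ ha hlow⟩
    · right
      intro E
      exact lowerHS_succ y δ E C hδ ha (hall E)

end Vale.Agent.Lib.P202.Lech
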