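import Vale.Agent.Lib.P202.Lech.MLStep

/-!
# Local rings are good of order one
-/

namespace Vale.Agent.Lib.P202.Lech

open IsLocalRing

universe u

/-- The successive differences of a nondecreasing sequence that is convex from `c` on are
nondecreasing from `c` on (one step). -/
lemma goodOne_diff_step (H : ℕ → ℕ) (hmono : Monotone H) (c : ℕ)
    (hconv : ∀ N, c ≤ N → 2 * H (N + 1) ≤ H (N + 2) + H N) (N : ℕ) (hN : c ≤ N) :
    H (N + 1) - H N ≤ H (N + 1 + 1) - H (N + 1) := by
  have h1 := hconv N hN
  have h2 : H N ≤ H (N + 1) := hmono (Nat.le_succ N)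
  have h3 : H (N + 1) ≤ H (N + 2) := hmono (Nat.le_succ (N + 1))
  have h4 : N + 1 + 1 = N + 2 := rfl
  rw [h4]
  omega

/-- The successive differences of a nondecreasing sequence that is convex from `c` on are
nondecreasing from `c` on. -/
lemma goodOne_diff_mono (H : ℕ → ℕ) (hmono : Monotone H) (c : ℕ)
    (hconv : ∀ N, c ≤ N → 2 * H (N + 1) ≤ H (N + 2) + H N) (N : ℕ) (hN : c ≤ N) (t : ℕ) :
    H (N + 1) - H N ≤ H (N + t + 1) - H (N + t) := by
  induction t with
  | zero => exact le_rfl
  | succ t ih =>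
    have h := goodOne_diff_step H hmono c hconv (N + t) (by omega)
    have h4 : N + (t + 1) = N + t + 1 := rfl
    rw [h4]
    exact ih.trans h

/-- A linear lower bound from a point where the difference is at least `E`. -/
lemma goodOne_lower (H : ℕ → ℕ) (hmono : Monotone H) (c : ℕ)
    (hconv : ∀ N, c ≤ N → 2 * H (N + 1) ≤ H (N + 2) + H N) (E N0 : ℕ) (hN0 : c ≤ N0)
    (hE : E ≤ H (N0 + 1) - H N0) (t : ℕ) : H N0 + E * t ≤ H (N0 + t) := by
  induction t with
  | zero => simp
  | succ t ih =>
    have h := goodOne_diff_mono H hmono c hconv N0 hN0 t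
    have h2 : H (N0 + t) ≤ H (N0 + t + 1) := hmono (Nat.le_succ (N0 + t))
    have h4 : N0 + (t + 1) = N0 + t + 1 := rfl
    have h5 : E * (t + 1) = E * t + E := Nat.mul_succ E t
    rw [h4, h5]
    omega

/-- A linear lower bound valid for all arguments. -/
lemma goodOne_lower_all (H : ℕ → ℕ) (hmono : Monotone H) (c : ℕ)
    (hconv : ∀ N, c ≤ N → 2 * H (N + 1) ≤ H (N + 2) + H N) (E N0 : ℕ) (hN0 : c ≤ N0)
    (hE : E ≤ H (N0 + 1) - H N0) (N : ℕ) : E * N ≤ H N + E * N0 := by
  rcases le_total N N0 with h | h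
  · exact (Nat.mul_le_mul_left E h).trans (Nat.le_add_left _ _)
  · obtain ⟨t, rfl⟩ := Nat.exists_eq_add_of_le h
    have h1 := goodOne_lower H hmono c hconv E N0 hN0 hE t
    have h2 : E * (N0 + t) = E * N0 + E * t := Nat.mul_add E N0 t
    rw [h2]
    omega

/-- A linear upper bound when the differences are bounded by `e` from `c` on. -/
lemma goodOne_upper (H : ℕ → ℕ) (c e : ℕ)
    (hD : ∀ N, c ≤ N → H (N + 1) - H N ≤ e) (t : ℕ) : H (c + t) ≤ H c + e * t := by
  induction t with
  | zero => simp
  | succ t ih =>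
    have h := hD (c + t) (Nat.le_add_right c t)
    have h4 : c + (t + 1) = c + t + 1 := rfl
    have h5 : e * (t + 1) = e * t + e := Nat.mul_succ e t
    rw [h4, h5]
    omega

/-- A linear upper bound valid for all arguments. -/
lemma goodOne_upper_all (H : ℕ → ℕ) (hmono : Monotone H) (c e : ℕ)
    (hD : ∀ N, c ≤ N → H (N + 1) - H N ≤ e) (M : ℕ) : H M ≤ e * M + H c := by
  rcases le_total M c with h | h
  · exact (hmono h).trans (Nat.le_add_left _ _)
  · obtain ⟨t, rfl⟩ := Nat.exists_eq_add_of_le h
    have h1 := goodOne_upper H c e hD t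
    have h2 : e * (c + t) = e * c + e * t := Nat.mul_add e c t
    rw [h2]
    omega

/-- A dichotomy for nondecreasing sequences of natural numbers that are convex from `c` on:
either linear upper and lower bounds with the same slope, or growth faster than any linear
function. -/
lemma nat_convex_dichotomy (H : ℕ → ℕ) (hmono : Monotone H) (c : ℕ)
    (hconv : ∀ N, c ≤ N → 2 * H (N + 1) ≤ H (N + 2) + H N) :
    (∃ e b K : ℕ, (∀ M, H M ≤ e * M + b) ∧ ∀ N, e * N ≤ H N + K) ∨
      ∀ E : ℕ, ∃ K : ℕ, ∀ N, E * N ≤ H N + K := by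
  classical
  by_cases hb : ∃ e : ℕ, ∀ N, c ≤ N → H (N + 1) - H N ≤ e
  · left
    have hspec := Nat.find_spec hb
    have hex : ∃ N0, c ≤ N0 ∧ Nat.find hb ≤ H (N0 + 1) - H N0 := by
      rcases Nat.eq_zero_or_pos (Nat.find hb) with h0 | hpos
      · exact ⟨c, le_rfl, by rw [h0]; exact Nat.zero_le _⟩
      · have hmin := Nat.find_min hb (Nat.sub_lt hpos Nat.one_pos)
        by_contra hcon
        apply hmin
        intro N hN
        by_contra hlt
        apply hcon
        exact ⟨N, hN, by omega⟩
    obtain ⟨N0, hN0, hE⟩ := hex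
    exact ⟨Nat.find hb, H c, Nat.find hb * N0,
      goodOne_upper_all H hmono c (Nat.find hb) hspec,
      goodOne_lower_all H hmono c hconv (Nat.find hb) N0 hN0 hE⟩
  · right
    intro E
    have hex : ∃ N0, c ≤ N0 ∧ E ≤ H (N0 + 1) - H N0 := by
      by_contra hcon
      apply hb
      refine ⟨E, fun N hN => ?_⟩
      by_contra hlt
      apply hcon
      exact ⟨N, hN, by omega⟩
    obtain ⟨N0, hN0, hE⟩ := hex
    exact ⟨E * N0, goodOne_lower_all H hmono c hconv E N0 hN0 hE⟩

variable {A : Type u} [CommRing A] [IsLocalRing A] [IsNoetherianRing A]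

/-- The Hilbert-Samuel function is the cast of its natural-number version. -/
lemma goodOne_length_eq (N : ℕ) :
    Module.length A (A ⧸ maximalIdeal A ^ N) =
      (((Module.length A (A ⧸ maximalIdeal A ^ N)).toNat : ℕ) : ℕ∞) :=
  (ENat.natCast_toNat (Vale.Agent.Lib.P202.length_quot_pow_ne_top A N)).symm

/-- The natural-number Hilbert-Samuel function is nondecreasing. -/
lemma goodOne_monotone :
    Monotone (fun N : ℕ => (Module.length A (A ⧸ maximalIdeal A ^ N)).toNat) := by
  intro N M hNM
  exact ENat.toNat_le_toNat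
    (Vale.Agent.Lib.P202.length_quot_anti (Ideal.pow_le_pow_right hNM))
    (Vale.Agent.Lib.P202.length_quot_pow_ne_top A M)

/-- If the Hilbert-Samuel function of `A` is convex from `c` on, then `A` is good of order 1. -/
theorem good_one (c : ℕ)
    (hconv : ∀ N, c ≤ N → 2 * Module.length A (A ⧸ maximalIdeal A ^ (N + 1)) ≤
      Module.length A (A ⧸ maximalIdeal A ^ (N + 2)) + Module.length A (A ⧸ maximalIdeal A ^ N)) :
    Good A 1 := by
  have hconv' : ∀ N, c ≤ N →
      2 * (Module.length A (A ⧸ maximalIdeal A ^ (N + 1))).toNat ≤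
        (Module.length A (A ⧸ maximalIdeal A ^ (N + 2))).toNat +
          (Module.length A (A ⧸ maximalIdeal A ^ N)).toNat := by
    intro N hN
    have h := hconv N hN
    rw [goodOne_length_eq (A := A) (N + 1), goodOne_length_eq (A := A) (N + 2),
      goodOne_length_eq (A := A) N] at h
    exact_mod_cast h
  rcases nat_convex_dichotomy
    (fun N : ℕ => (Module.length A (A ⧸ maximalIdeal A ^ N)).toNat)
    goodOne_monotone c hconv' with ⟨e, b, K, hub, hlb⟩ | hbig
  · left
    refine ⟨e, b, mlBound_one e b (fun M => ?_), K, fun N => ?_⟩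
    · rw [goodOne_length_eq (A := A) M]
      exact_mod_cast hub M
    · rw [goodOne_length_eq (A := A) N]
      have h := hlb N
      simp only [Nat.factorial_one, pow_one, Nat.sub_self, pow_zero, mul_one, Nat.cast_one,
        one_mul]
      exact_mod_cast h
  · right
    intro E
    obtain ⟨K, hK⟩ := hbig E
    refine ⟨K, fun N => ?_⟩
    rw [goodOne_length_eq (A := A) N]
    have h := hK N
    simp only [Nat.factorial_one, pow_one, Nat.sub_self, pow_zero, mul_one, Nat.cast_one,
      one_mul]
    exact_mod_cast h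

end Vale.Agent.Lib.P202.Lech
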