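import Vale.Agent.Lib.P202.Lech.Defs

/-!
# Basic facts on the associated graded ring `Gr I = Rees(I) / I Rees(I)`
-/

namespace Vale.Agent.Lib.P202.Lech

universe u

variable {A : Type u} [CommRing A]

/-- The underlying polynomial of the image of `a` in the Rees algebra is the constant `a`. -/
lemma grApi_coe_algebraMap (I : Ideal A) (a : A) :
    ((algebraMap A (reesAlgebra I) a : reesAlgebra I) : Polynomial A) = Polynomial.C a := rfl

/-- Monomials with coefficient in `I ^ (j + 1)` lie in `I · Rees(I)`. -/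
lemma grApi_monomial_mem (I : Ideal A) (j : ℕ) (b : A) (hb : b ∈ I ^ (j + 1)) :
    ∃ h : b ∈ I ^ j,
      (⟨Polynomial.monomial j b, reesAlgebra.monomial_mem.mpr h⟩ : reesAlgebra I) ∈ grIdeal I := by
  rw [pow_succ'] at hb
  refine Submodule.mul_induction_on hb ?_ ?_
  · intro a ha b' hb'
    refine ⟨Ideal.mul_mem_left _ a hb', ?_⟩
    have hEq : (⟨Polynomial.monomial j (a * b'),
          reesAlgebra.monomial_mem.mpr (Ideal.mul_mem_left _ a hb')⟩ : reesAlgebra I)
        = algebraMap A (reesAlgebra I) a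
          * ⟨Polynomial.monomial j b', reesAlgebra.monomial_mem.mpr hb'⟩ := by
      apply Subtype.ext
      rw [Subalgebra.coe_mul, grApi_coe_algebraMap, Polynomial.C_mul_monomial]
    rw [hEq]
    exact Ideal.mul_mem_right _ _ (Ideal.mem_map_of_mem _ ha)
  · rintro x y ⟨hx, hx'⟩ ⟨hy, hy'⟩
    refine ⟨add_mem hx hy, ?_⟩
    have hEq : (⟨Polynomial.monomial j (x + y),
          reesAlgebra.monomial_mem.mpr (add_mem hx hy)⟩ : reesAlgebra I)
        = ⟨Polynomial.monomial j x, reesAlgebra.monomial_mem.mpr hx⟩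
          + ⟨Polynomial.monomial j y, reesAlgebra.monomial_mem.mpr hy⟩ := by
      apply Subtype.ext
      exact map_add (Polynomial.monomial j) x y
    rw [hEq]
    exact add_mem hx' hy'

/-- An element of the Rees algebra lies in `I · Rees(I)` iff its coefficient of degree `j` lies
in `I ^ (j + 1)` for all `j`. -/
lemma mem_grIdeal_iff (I : Ideal A) (p : reesAlgebra I) :
    p ∈ grIdeal I ↔ ∀ j : ℕ, (p : Polynomial A).coeff j ∈ I ^ (j + 1) := by
  constructor
  · intro hp
    unfold grIdeal Ideal.map at hp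
    refine Submodule.span_induction
      (p := fun (x : reesAlgebra I) _ => ∀ j : ℕ, (x : Polynomial A).coeff j ∈ I ^ (j + 1))
      ?_ ?_ ?_ ?_ hp
    · rintro x ⟨a, ha, rfl⟩ j
      rw [grApi_coe_algebraMap, Polynomial.coeff_C]
      by_cases hj : j = 0
      · subst hj
        simpa using ha
      · rw [if_neg hj]
        exact zero_mem _
    · intro j
      simp
    · intro x y _ _ hx hy j
      rw [Subalgebra.coe_add, Polynomial.coeff_add]
      exact add_mem (hx j) (hy j)
    · intro q x _ hx j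
      rw [smul_eq_mul, Subalgebra.coe_mul, Polynomial.coeff_mul]
      refine Ideal.sum_mem _ ?_
      intro c hc
      have hc' : c.1 + c.2 = j := Finset.HasAntidiagonal.mem_antidiagonal.mp hc
      have h1 : (q : Polynomial A).coeff c.1 ∈ I ^ c.1 :=
        (mem_reesAlgebra_iff I (q : Polynomial A)).mp q.2 c.1
      have h2 := hx c.2
      have h3 : (q : Polynomial A).coeff c.1 * (x : Polynomial A).coeff c.2
          ∈ I ^ c.1 * I ^ (c.2 + 1) := Ideal.mul_mem_mul h1 h2
      rw [← pow_add] at h3
      have h4 : c.1 + (c.2 + 1) = j + 1 := by omega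
      rw [h4] at h3
      exact h3
  · intro hp
    have hp0 : ∀ j : ℕ, (p : Polynomial A).coeff j ∈ I ^ j :=
      (mem_reesAlgebra_iff I (p : Polynomial A)).mp p.2
    have hsum : p = ∑ j ∈ (p : Polynomial A).support,
        (⟨Polynomial.monomial j ((p : Polynomial A).coeff j),
          reesAlgebra.monomial_mem.mpr (hp0 j)⟩ : reesAlgebra I) := by
      apply Subtype.ext
      rw [AddSubmonoidClass.coe_finsetSum]
      exact Polynomial.as_sum_support (p : Polynomial A)
    rw [hsum]
    refine Ideal.sum_mem _ ?_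
    intro j _
    obtain ⟨_, h⟩ := grApi_monomial_mem I j ((p : Polynomial A).coeff j) (hp j)
    exact h

lemma grMk_eq_zero_iff (I : Ideal A) (j : ℕ) (a : A) (ha : a ∈ I ^ j) :
    grMk I j a = 0 ↔ a ∈ I ^ (j + 1) := by
  unfold grMk
  rw [dif_pos ha, Ideal.Quotient.eq_zero_iff_mem, mem_grIdeal_iff]
  constructor
  · intro h
    have hj := h j
    rw [Polynomial.coeff_monomial, if_pos rfl] at hj
    exact hj
  · intro h i
    show (Polynomial.monomial j a).coeff i ∈ I ^ (i + 1)
    rw [Polynomial.coeff_monomial]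
    by_cases hji : j = i
    · subst hji
      rw [if_pos rfl]
      exact h
    · rw [if_neg hji]
      exact zero_mem _

lemma grMk_add (I : Ideal A) (j : ℕ) (a b : A) (ha : a ∈ I ^ j) (hb : b ∈ I ^ j) :
    grMk I j (a + b) = grMk I j a + grMk I j b := by
  unfold grMk
  rw [dif_pos ha, dif_pos hb, dif_pos (add_mem ha hb), ← map_add]
  congr 1
  apply Subtype.ext
  exact map_add (Polynomial.monomial j) a b

lemma grMk_mul (I : Ideal A) (i j : ℕ) (a b : A) (ha : a ∈ I ^ i) (hb : b ∈ I ^ j) :
    grMk I (i + j) (a * b) = grMk I i a * grMk I j b := by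
  have hab : a * b ∈ I ^ (i + j) := by
    rw [pow_add]
    exact Ideal.mul_mem_mul ha hb
  unfold grMk
  rw [dif_pos ha, dif_pos hb, dif_pos hab, ← map_mul]
  congr 1
  apply Subtype.ext
  rw [Subalgebra.coe_mul, Polynomial.monomial_mul_monomial]

/-- The ideal of the associated graded ring generated by the classes of degree one. -/
noncomputable def grPlus (I : Ideal A) : Ideal (Gr I) :=
  Ideal.span (Set.range fun a : I => grMk I 1 (a : A))

lemma grMk_mem_grPlus_pow (I : Ideal A) (j : ℕ) (a : A) (ha : a ∈ I ^ j) :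
    grMk I j a ∈ grPlus I ^ j := by
  induction j generalizing a with
  | zero =>
    rw [Submodule.pow_zero, Ideal.one_eq_top]
    exact Submodule.mem_top
  | succ j ih =>
    have key : a ∈ I ^ (j + 1) ∧ grMk I (j + 1) a ∈ grPlus I ^ (j + 1) := by
      have ha' := ha
      rw [pow_succ] at ha'
      refine Submodule.mul_induction_on ha' ?_ ?_
      · intro m hm n hn
        have hn1 : n ∈ I ^ 1 := by simpa using hn
        refine ⟨by rw [pow_succ]; exact Ideal.mul_mem_mul hm hn, ?_⟩
        rw [grMk_mul I j 1 m n hm hn1, Submodule.pow_succ]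
        exact Ideal.mul_mem_mul (ih m hm) (Ideal.subset_span ⟨⟨n, hn⟩, rfl⟩)
      · rintro x y ⟨hx, hx'⟩ ⟨hy, hy'⟩
        refine ⟨add_mem hx hy, ?_⟩
        rw [grMk_add I (j + 1) x y hx hy]
        exact Ideal.add_mem _ hx' hy'
    exact key.2

/-- The elements of `I` whose class of degree one lies in a given ideal of the associated
graded ring form an ideal. -/
noncomputable def grPreimage (I : Ideal A) (P : Ideal (Gr I)) : Ideal A where
  carrier := {a | a ∈ I ∧ grMk I 1 a ∈ P}
  add_mem' := by
    intro a b ha hb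
    have ha1 : a ∈ I ^ 1 := by simpa using ha.1
    have hb1 : b ∈ I ^ 1 := by simpa using hb.1
    refine ⟨add_mem ha.1 hb.1, ?_⟩
    rw [grMk_add I 1 a b ha1 hb1]
    exact P.add_mem ha.2 hb.2
  zero_mem' := by
    refine ⟨zero_mem _, ?_⟩
    have h0 : grMk I 1 (0 : A) = 0 := (grMk_eq_zero_iff I 1 0 (zero_mem _)).mpr (zero_mem _)
    rw [h0]
    exact P.zero_mem
  smul_mem' := by
    intro c a ha
    have ha1 : a ∈ I ^ 1 := by simpa using ha.1
    have hc0 : c ∈ I ^ 0 := by simp
    refine ⟨I.mul_mem_left c ha.1, ?_⟩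
    have h := grMk_mul I 0 1 c a hc0 ha1
    rw [zero_add] at h
    show grMk I 1 (c * a) ∈ P
    rw [h]
    exact P.mul_mem_left _ ha.2

lemma mem_grPreimage (I : Ideal A) (P : Ideal (Gr I)) (a : A) :
    a ∈ grPreimage I P ↔ a ∈ I ∧ grMk I 1 a ∈ P := Iff.rfl

end Vale.Agent.Lib.P202.Lech
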