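import Vale.Agent.Lib.P202.Lech.IadicStep
import Vale.Agent.Lib.P202.Lech.Exchange
import Vale.Agent.Lib.P202.Lech.SharpGood

/-!
# The Hilbert-Samuel function of an ideal that is `r` generators short of the maximal ideal

Let `(A, n)` be a Noetherian local ring with infinite residue field and `I` an ideal with
`n = I + (r elements)` and `x^c ∈ I` for all `x ∈ n`.  Then, in every order `δ ≥ r + 1`, the
Hilbert-Samuel function of `I` is at most `c^r` times that of `n` (to leading order).
-/

namespace Vale.Agent.Lib.P202.Lech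

open IsLocalRing

universe u

/-- An upper bound for the Hilbert-Samuel function of `n` is one for `I = n`, with any constant
`C ≥ 1`. -/
lemma upperI_of_upperHS {A : Type u} [CommRing A] [IsLocalRing A] (I : Ideal A)
    (hI : I = maximalIdeal A) (δ C e b : ℕ) (hC : 1 ≤ C) (h : UpperHS A δ e b) :
    UpperI A I δ C e b := by
  intro N
  rw [hI]
  refine (h N).trans ?_
  rw [Nat.cast_le]
  exact Nat.le_mul_of_pos_left _ hC

/-- The main induction on the number `r` of generators of `n` modulo `I`. -/
theorem upperI_of_span (r : ℕ) : ∀ (δ : ℕ), r + 1 ≤ δ → ∀ (A : Type u) [CommRing A]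
    [IsLocalRing A] [IsNoetherianRing A] [Infinite (ResidueField A)] (I : Ideal A) (c : ℕ)
    (s : Finset A), 1 ≤ c → s.card ≤ r → maximalIdeal A = I ⊔ Ideal.span (s : Set A) →
    (∀ x ∈ maximalIdeal A, x ^ c ∈ I) →
    (∃ e b : ℕ, UpperI A I δ (c ^ r) e b ∧ LowerHS A δ e) ∨ ∀ E : ℕ, LowerHS A δ E := by
  classical
  induction r with
  | zero =>
    intro δ hδ A _ _ _ _ I c s hc hs hn _hnil
    have hs0 : s = ∅ := Finset.card_eq_zero.mp (Nat.le_zero.mp hs)
    have hIn : I = maximalIdeal A := by
      rw [hn, hs0, Finset.coe_empty, Ideal.span_empty, sup_bot_eq]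
    rcases sharpGood δ (by omega) A with ⟨e, b, hup, hlow⟩ | hall
    · left
      exact ⟨e, b, upperI_of_upperHS I hIn δ (c ^ 0) e b (Nat.one_le_pow _ _ hc) hup, hlow⟩
    · right
      exact hall
  | succ r ih =>
    intro δ hδ A _ _ _ _ I c s hc hs hn hnil
    have hIle : I ≤ maximalIdeal A := by
      rw [hn]
      exact le_sup_left
    by_cases hcase : maximalIdeal A ≤ I
    · have hIn : I = maximalIdeal A := le_antisymm hIle hcase
      rcases sharpGood δ (by omega) A with ⟨e, b, hup, hlow⟩ | hall
      · left
        exact ⟨e, b, upperI_of_upperHS I hIn δ (c ^ (r + 1)) e b (Nat.one_le_pow _ _ hc) hup,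
          hlow⟩
      · right
        exact hall
    · obtain ⟨y, c₁, g, hsy, hgs, hn'⟩ := exists_superficial_exchange A I s hn hcase
      have hy : y ∈ maximalIdeal A := hsy.1
      have hloc : IsLocalRing (A ⧸ Ideal.span {y}) :=
        Vale.Agent.Lib.P202.isLocalRing_quotient_span hy
      have hinf : Infinite (ResidueField (A ⧸ Ideal.span {y})) :=
        infinite_residueField_quotient _
      obtain ⟨k, rfl⟩ : ∃ k, δ = k + 2 := ⟨δ - 2, by omega⟩
      have hcard : ((s.erase g).image (Ideal.Quotient.mk (Ideal.span {y}))).card ≤ r := by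
        refine Finset.card_image_le.trans ?_
        rw [Finset.card_erase_of_mem hgs]
        omega
      have hnq : maximalIdeal (A ⧸ Ideal.span {y}) =
          I.map (Ideal.Quotient.mk (Ideal.span {y})) ⊔
            Ideal.span (((s.erase g).image (Ideal.Quotient.mk (Ideal.span {y})) :
              Finset (A ⧸ Ideal.span {y})) : Set (A ⧸ Ideal.span {y})) := by
        have h0 : Ideal.Quotient.mk (Ideal.span {y}) y = 0 :=
          Ideal.Quotient.eq_zero_iff_mem.mpr (Ideal.subset_span (Set.mem_singleton y))
        have hbot : Ideal.span {(0 : A ⧸ Ideal.span {y})} = ⊥ :=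
          Ideal.span_singleton_eq_bot.mpr rfl
        rw [maximalIdeal_quotient, hn', Ideal.map_sup, Ideal.map_sup, Ideal.map_span,
          Ideal.map_span, Set.image_singleton, Finset.coe_image, h0, hbot, sup_bot_eq]
      have hnilq : ∀ x ∈ maximalIdeal (A ⧸ Ideal.span {y}),
          x ^ c ∈ I.map (Ideal.Quotient.mk (Ideal.span {y})) := by
        intro x hx
        rw [maximalIdeal_quotient,
          Ideal.mem_map_iff_of_surjective _ Ideal.Quotient.mk_surjective] at hx
        obtain ⟨x', hx', rfl⟩ := hx
        rw [← map_pow]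
        exact Ideal.mem_map_of_mem _ (hnil x' hx')
      obtain ⟨C₁, hC₁⟩ := ENat.ne_top_iff_exists.mp
        (Vale.Agent.Lib.P202.length_quot_pow_ne_top A c₁)
      have ha : ∀ N : ℕ, Module.length A (A ⧸ (maximalIdeal A ^ (N + 1) ⊔ Ideal.span {y})) +
          Module.length A (A ⧸ maximalIdeal A ^ N) ≤
          Module.length A (A ⧸ maximalIdeal A ^ (N + 1)) + (C₁ : ℕ∞) := by
        intro N
        rw [hC₁]
        exact superficial_bound_quot y c₁ hsy N
      rcases ih (k + 1) (by omega) (A ⧸ Ideal.span {y})
          (I.map (Ideal.Quotient.mk (Ideal.span {y}))) c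
          ((s.erase g).image (Ideal.Quotient.mk (Ideal.span {y}))) hc hcard hnq hnilq with
        ⟨e, b, hup, hlow⟩ | hall
      · left
        refine ⟨e, (k + 2) * (e + b), ?_, lowerHS_succ y (k + 1) e C₁ (by omega) ha hlow⟩
        have h1 := upperI_succ I y c (hnil y hy) k (c ^ r) e b hup
        rw [pow_succ, mul_comm (c ^ r) c]
        exact h1
      · right
        intro E
        exact lowerHS_succ y (k + 1) E C₁ (by omega) ha (hall E)

end Vale.Agent.Lib.P202.Lech
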