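import Vale.Agent.Lib.P202.Lech.Defs

/-!
# Sharp two-sided bounds for Hilbert-Samuel functions: definitions
-/

namespace Vale.Agent.Lib.P202.Lech

open IsLocalRing

universe u

/-- Upper bound of order `δ` with leading coefficient `e` for the Hilbert-Samuel function:
`δ! length (A / n^N) ≤ e N^δ + b N^(δ-1)` for all `N`. -/
def UpperHS (A : Type u) [CommRing A] [IsLocalRing A] (δ e b : ℕ) : Prop :=
  ∀ N : ℕ, (δ.factorial : ℕ∞) * Module.length A (A ⧸ maximalIdeal A ^ N) ≤
    ((e * N ^ δ + b * N ^ (δ - 1) : ℕ) : ℕ∞)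

/-- The Hilbert-Samuel function of `A` is sharply of order `δ`: either it has matching upper and
lower bounds of order `δ` with the same leading coefficient `e`, or it grows faster than every
multiple of `N^δ`. -/
def SharpGood (A : Type u) [CommRing A] [IsLocalRing A] (δ : ℕ) : Prop :=
  (∃ e b : ℕ, UpperHS A δ e b ∧ LowerHS A δ e) ∨ ∀ E : ℕ, LowerHS A δ E

end Vale.Agent.Lib.P202.Lech
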