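import Vale.Agent.Lib.P202.Lech.PrincipalBound
import Vale.Agent.Lib.P202.Lech.Asymp2
import Vale.Agent.Lib.P202.Lech.SharpDefs

/-!
# Hilbert-Samuel functions of an ideal `I`: dividing by an element nilpotent modulo `I`
-/

namespace Vale.Agent.Lib.P202.Lech

open IsLocalRing

universe u

/-- Upper bound of order `δ` for the Hilbert-Samuel function of the ideal `I`:
`δ! length (A / I^N) ≤ C (e N^δ + b N^(δ-1))` for all `N`. -/
def UpperI (A : Type u) [CommRing A] (I : Ideal A) (δ C e b : ℕ) : Prop :=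
  ∀ N : ℕ, (δ.factorial : ℕ∞) * Module.length A (A ⧸ I ^ N) ≤
    ((C * (e * N ^ δ + b * N ^ (δ - 1)) : ℕ) : ℕ∞)

/-- If `v^c ∈ I` then `length (T / I^N) ≤ c ∑_{j = 1}^{N} length (T / (I^j + v T))`. -/
theorem length_quot_pow_le_of_pow_mem {T : Type u} [CommRing T] (I : Ideal T) (v : T) (c : ℕ)
    (hvc : v ^ c ∈ I) (N : ℕ) :
    Module.length T (T ⧸ I ^ N) ≤ (c : ℕ∞) * ∑ j ∈ Finset.range N,
      Module.length T (T ⧸ (I ^ (j + 1) ⊔ Ideal.span {v})) := by
  have hmem : v ^ (c * N) ∈ I ^ N := by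
    rw [pow_mul]
    exact Ideal.pow_mem_pow hvc N
  rw [length_quot_eq_sum_colon (I ^ N) v (c * N) hmem]
  rcases Nat.eq_zero_or_pos c with hc0 | hc0
  · rw [hc0, Nat.zero_mul, Finset.range_zero, Finset.sum_empty]
    exact zero_le
  · calc ∑ k ∈ Finset.range (c * N),
          Module.length T (T ⧸ ((I ^ N).colon {v ^ k} ⊔ Ideal.span {v}))
        ≤ ∑ k ∈ Finset.range (c * N),
          Module.length T (T ⧸ (I ^ (N - k / c) ⊔ Ideal.span {v})) := by
          refine Finset.sum_le_sum (fun k hk => ?_)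
          have hkq : k / c < N := Nat.div_lt_of_lt_mul (Finset.mem_range.mp hk)
          exact Vale.Agent.Lib.P202.length_quot_anti
            (sup_le_sup_right (principalBound_colon_le I v c hvc N k hkq.le) _)
      _ = (c : ℕ∞) * ∑ q ∈ Finset.range N,
          Module.length T (T ⧸ (I ^ (N - q) ⊔ Ideal.span {v})) :=
          mlComb_sum_range_mul
            (fun q => Module.length T (T ⧸ (I ^ (N - q) ⊔ Ideal.span {v}))) c N hc0
      _ = (c : ℕ∞) * ∑ j ∈ Finset.range N,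
          Module.length T (T ⧸ (I ^ (j + 1) ⊔ Ideal.span {v})) := by
          have hrefl := Finset.sum_range_reflect
            (fun j => Module.length T (T ⧸ (I ^ (j + 1) ⊔ Ideal.span {v}))) N
          rw [← hrefl]
          congr 1
          refine Finset.sum_congr rfl (fun q hq => ?_)
          have hq' : q < N := Finset.mem_range.mp hq
          have e : N - 1 - q + 1 = N - q := by omega
          show _ = Module.length T (T ⧸ (I ^ (N - 1 - q + 1) ⊔ Ideal.span {v}))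
          rw [e]

/-- Inductive step: if `v^c ∈ I`, an upper bound of order `k + 1` with constants `C`, `e` for
the image of `I` in `A / (v)` gives one of order `k + 2` with constants `c C`, `e` for `I`. -/
theorem upperI_succ {A : Type u} [CommRing A] (I : Ideal A) (v : A) (c : ℕ) (hvc : v ^ c ∈ I)
    (k C e b : ℕ)
    (h : UpperI (A ⧸ Ideal.span {v}) (I.map (Ideal.Quotient.mk (Ideal.span {v}))) (k + 1) C e b) :
    UpperI A I (k + 2) (c * C) e ((k + 2) * (e + b)) := by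
  intro N
  have ha := length_quot_pow_le_of_pow_mem I v c hvc N
  have hj : ∀ j : ℕ, ((k + 1).factorial : ℕ∞)
      * Module.length A (A ⧸ (I ^ (j + 1) ⊔ Ideal.span {v}))
      ≤ ((C * (e * (j + 1) ^ (k + 1) + b * (j + 1) ^ k) : ℕ) : ℕ∞) := by
    intro j
    have h1 := h (j + 1)
    rw [← Ideal.map_pow, length_quotient_ideal] at h1
    exact h1
  have hfac : ((k + 2).factorial : ℕ∞) = ((k + 2 : ℕ) : ℕ∞) * ((k + 1).factorial : ℕ∞) := by
    have h1 : (k + 2).factorial = (k + 2) * (k + 1).factorial := Nat.factorial_succ (k + 1)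
    rw [h1, Nat.cast_mul]
  have hS : ∑ j ∈ Finset.range N, C * (e * (j + 1) ^ (k + 1) + b * (j + 1) ^ k)
      = C * ∑ j ∈ Finset.range N, (e * (j + 1) ^ (k + 1) + b * (j + 1) ^ k) :=
    (Finset.mul_sum _ _ _).symm
  have hnat : c * (k + 2) * ∑ j ∈ Finset.range N, C * (e * (j + 1) ^ (k + 1) + b * (j + 1) ^ k)
      ≤ c * C * (e * N ^ (k + 2) + (k + 2) * (e + b) * N ^ (k + 2 - 1)) := by
    rw [hS]
    have h2 := asymp2_nat_bound k e b N
    have h3 : k + 2 - 1 = k + 1 := rfl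
    rw [h3]
    calc c * (k + 2) * (C * ∑ j ∈ Finset.range N, (e * (j + 1) ^ (k + 1) + b * (j + 1) ^ k))
        = c * C * ((k + 2) * ∑ j ∈ Finset.range N, (e * (j + 1) ^ (k + 1) + b * (j + 1) ^ k)) := by
          ring
      _ ≤ c * C * (e * N ^ (k + 2) + (k + 2) * (e + b) * N ^ (k + 1)) :=
          Nat.mul_le_mul_left _ h2
  have hcast : (c : ℕ∞) * ((k + 2 : ℕ) : ℕ∞) * ∑ j ∈ Finset.range N,
        ((C * (e * (j + 1) ^ (k + 1) + b * (j + 1) ^ k) : ℕ) : ℕ∞)
      = ((c * (k + 2) * ∑ j ∈ Finset.range N,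
          C * (e * (j + 1) ^ (k + 1) + b * (j + 1) ^ k) : ℕ) : ℕ∞) := by
    push_cast
    rfl
  show ((k + 2).factorial : ℕ∞) * Module.length A (A ⧸ I ^ N)
    ≤ ((c * C * (e * N ^ (k + 2) + (k + 2) * (e + b) * N ^ (k + 2 - 1)) : ℕ) : ℕ∞)
  calc ((k + 2).factorial : ℕ∞) * Module.length A (A ⧸ I ^ N)
      ≤ ((k + 2).factorial : ℕ∞) * ((c : ℕ∞) * ∑ j ∈ Finset.range N,
          Module.length A (A ⧸ (I ^ (j + 1) ⊔ Ideal.span {v}))) := by gcongr
    _ = (c : ℕ∞) * ((k + 2 : ℕ) : ℕ∞) * ∑ j ∈ Finset.range N,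
          (((k + 1).factorial : ℕ∞)
            * Module.length A (A ⧸ (I ^ (j + 1) ⊔ Ideal.span {v}))) := by
        rw [hfac, ← Finset.mul_sum]
        ring
    _ ≤ (c : ℕ∞) * ((k + 2 : ℕ) : ℕ∞) * ∑ j ∈ Finset.range N,
          ((C * (e * (j + 1) ^ (k + 1) + b * (j + 1) ^ k) : ℕ) : ℕ∞) :=
        mul_le_mul (le_refl _) (Finset.sum_le_sum fun j _ => hj j) zero_le zero_le
    _ = ((c * (k + 2) * ∑ j ∈ Finset.range N,
          C * (e * (j + 1) ^ (k + 1) + b * (j + 1) ^ k) : ℕ) : ℕ∞) := hcast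
    _ ≤ ((c * C * (e * N ^ (k + 2) + (k + 2) * (e + b) * N ^ (k + 2 - 1)) : ℕ) : ℕ∞) :=
        Nat.cast_le.mpr hnat

end Vale.Agent.Lib.P202.Lech
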