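import Vale.Agent.Lib.P202.Lech.Colon

/-!
# The kernel count

For a flat local homomorphism `(R, m) → (S, n)` with closed fibre of finite length and `y ∈ S`:
`(H_R(N+1) - H_R(N)) length (S / (m S + (y))) ≤ length (S / (m^(N+1) S + (y)))`.
-/

namespace Vale.Agent.Lib.P202.Lech

open IsLocalRing

variable {R S : Type*} [CommRing R] [CommRing S] [IsLocalRing R] [IsLocalRing S]
  [IsNoetherianRing R] [IsNoetherianRing S] [Algebra R S] [IsLocalHom (algebraMap R S)]
  [Module.Flat R S]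

omit [IsLocalRing R] [IsLocalRing S] [IsNoetherianRing R] [IsNoetherianRing S]
  [IsLocalHom (algebraMap R S)] [Module.Flat R S] in
/-- The case `𝔟 = 𝔞` of the bound below. -/
lemma kernelCount_base (𝔮 : Ideal S) (k : ℕ) (𝔞 : Ideal R) :
    Module.length S (S ⧸ (𝔮 * 𝔞.map (algebraMap R S) ⊔ 𝔞.map (algebraMap R S))) ≤
      Module.length S (S ⧸ 𝔞.map (algebraMap R S)) + (k : ℕ∞) * Module.length S (S ⧸ 𝔮) := by
  rw [sup_eq_right.mpr Ideal.mul_le_right]
  exact le_self_add

/-- If `𝔟 ⊆ 𝔞` and `length (R / 𝔟) ≤ length (R / 𝔞) + k < ∞`, then, for every ideal `𝔮` of `S`,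
`length (S / (𝔮 𝔞 S + 𝔟 S)) ≤ length (S / 𝔞 S) + k length (S / 𝔮)`. -/
lemma length_quot_mul_map_le (𝔮 : Ideal S) (k : ℕ) (𝔞 𝔟 : Ideal R) (h𝔟𝔞 : 𝔟 ≤ 𝔞)
    (hfin : Module.length R (R ⧸ 𝔟) ≠ ⊤)
    (hk : Module.length R (R ⧸ 𝔟) ≤ Module.length R (R ⧸ 𝔞) + (k : ℕ∞)) :
    Module.length S (S ⧸ (𝔮 * 𝔞.map (algebraMap R S) ⊔ 𝔟.map (algebraMap R S))) ≤
      Module.length S (S ⧸ 𝔞.map (algebraMap R S)) + (k : ℕ∞) * Module.length S (S ⧸ 𝔮) := by
  induction k generalizing 𝔟 with
  | zero =>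
    rcases eq_or_lt_of_le h𝔟𝔞 with rfl | hlt
    · exact kernelCount_base 𝔮 0 𝔟
    · exfalso
      have h1 := Vale.Agent.Lib.P202.length_quot_add_one_le hlt
      have h2 : Module.length R (R ⧸ 𝔞) ≠ ⊤ :=
        ne_top_of_le_ne_top hfin (Vale.Agent.Lib.P202.length_quot_anti h𝔟𝔞)
      have h3 : Module.length R (R ⧸ 𝔞) + 1 ≤ Module.length R (R ⧸ 𝔞) := by
        refine h1.trans (hk.trans ?_)
        simp
      rw [ENat.add_one_le_iff h2] at h3
      exact lt_irrefl _ h3
  | succ k ih =>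
    rcases eq_or_lt_of_le h𝔟𝔞 with rfl | hlt
    · exact kernelCount_base 𝔮 (k + 1) 𝔟
    · obtain ⟨u, hu𝔞, hu𝔟⟩ := SetLike.exists_of_lt hlt
      have hb' : 𝔟 < 𝔟 ⊔ Ideal.span {u} := by
        refine lt_of_le_of_ne le_sup_left ?_
        intro h
        apply hu𝔟
        rw [h]
        exact Ideal.mem_sup_right (Ideal.mem_span_singleton_self u)
      have hb'a : 𝔟 ⊔ Ideal.span {u} ≤ 𝔞 :=
        sup_le h𝔟𝔞 ((Ideal.span_singleton_le_iff_mem _).mpr hu𝔞)
      have h1 := Vale.Agent.Lib.P202.length_quot_add_one_le hb'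
      have hfin' : Module.length R (R ⧸ (𝔟 ⊔ Ideal.span {u})) ≠ ⊤ :=
        ne_top_of_le_ne_top hfin (Vale.Agent.Lib.P202.length_quot_anti hb'.le)
      have hk' : Module.length R (R ⧸ (𝔟 ⊔ Ideal.span {u})) ≤
          Module.length R (R ⧸ 𝔞) + (k : ℕ∞) := by
        have h4 : Module.length R (R ⧸ (𝔟 ⊔ Ideal.span {u})) + 1 ≤
            Module.length R (R ⧸ 𝔞) + (k : ℕ∞) + 1 := by
          refine h1.trans (hk.trans (le_of_eq ?_))
          push_cast
          rw [add_assoc]
        exact (ENat.add_le_add_iff_right ENat.one_ne_top).mp h4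
      have ih' := ih (𝔟 ⊔ Ideal.span {u}) hb'a hfin' hk'
      have h2 := length_quot_le_add_of_mul_le
        (𝔮 * 𝔞.map (algebraMap R S) ⊔ 𝔟.map (algebraMap R S)) 𝔮 (algebraMap R S u)
        (fun q hq => Ideal.mem_sup_left (Ideal.mul_mem_mul hq (Ideal.mem_map_of_mem _ hu𝔞)))
      have h3 : 𝔮 * 𝔞.map (algebraMap R S) ⊔ 𝔟.map (algebraMap R S)
            ⊔ Ideal.span {algebraMap R S u} =
          𝔮 * 𝔞.map (algebraMap R S) ⊔ (𝔟 ⊔ Ideal.span {u}).map (algebraMap R S) := by
        rw [Ideal.map_sup, Ideal.map_span, Set.image_singleton, sup_assoc]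
      rw [h3] at h2
      refine h2.trans ((add_le_add ih' le_rfl).trans (le_of_eq ?_))
      push_cast
      ring

/-- The kernel count. -/
theorem kernel_count
    (hfib : Module.length S (S ⧸ (maximalIdeal R).map (algebraMap R S)) ≠ ⊤) (y : S) (N : ℕ) :
    Module.length R (R ⧸ maximalIdeal R ^ (N + 1)) *
        Module.length S (S ⧸ ((maximalIdeal R).map (algebraMap R S) ⊔ Ideal.span {y})) ≤
      Module.length S (S ⧸ ((maximalIdeal R ^ (N + 1)).map (algebraMap R S) ⊔ Ideal.span {y})) +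
        Module.length R (R ⧸ maximalIdeal R ^ N) *
          Module.length S (S ⧸ ((maximalIdeal R).map (algebraMap R S) ⊔ Ideal.span {y})) := by
  have hi := length_quot_colon_add ((maximalIdeal R).map (algebraMap R S)) y
  have hii := length_quot_colon_add ((maximalIdeal R ^ (N + 1)).map (algebraMap R S)) y
  have hI := Vale.Agent.Lib.P202.length_quot_map (R := R) (S := S) (maximalIdeal R ^ (N + 1))
  have hN := Vale.Agent.Lib.P202.length_quot_map (R := R) (S := S) (maximalIdeal R ^ N)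
  have hfin1 := Vale.Agent.Lib.P202.length_quot_pow_ne_top R (N + 1)
  have hfin0 := Vale.Agent.Lib.P202.length_quot_pow_ne_top R N
  have hpow : maximalIdeal R ^ (N + 1) ≤ maximalIdeal R ^ N :=
    Ideal.pow_le_pow_right (Nat.le_succ N)
  have hmono : Module.length R (R ⧸ maximalIdeal R ^ N) ≤
      Module.length R (R ⧸ maximalIdeal R ^ (N + 1)) :=
    Vale.Agent.Lib.P202.length_quot_anti hpow
  have hmSq : (maximalIdeal R).map (algebraMap R S) ≤
      ((maximalIdeal R).map (algebraMap R S)).colon {y} := Ideal.le_colon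
  have hcol : ((maximalIdeal R).map (algebraMap R S)).colon {y} *
      (maximalIdeal R ^ N).map (algebraMap R S) ≤
      ((maximalIdeal R ^ (N + 1)).map (algebraMap R S)).colon {y} := by
    rw [Ideal.mul_le]
    intro t ht s hs
    rw [Submodule.mem_colon_singleton] at ht ⊢
    have h2 : t • y * s ∈ (maximalIdeal R).map (algebraMap R S) *
        (maximalIdeal R ^ N).map (algebraMap R S) := Ideal.mul_mem_mul ht hs
    rw [pow_succ', Ideal.map_mul]
    have h5 : (t * s) • y = t • y * s := by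
      simp only [smul_eq_mul]
      ring
    rw [h5]
    exact h2
  have hsup : ((maximalIdeal R).map (algebraMap R S)).colon {y} *
      (maximalIdeal R ^ N).map (algebraMap R S) ⊔ (maximalIdeal R ^ (N + 1)).map (algebraMap R S)
      = ((maximalIdeal R).map (algebraMap R S)).colon {y} *
      (maximalIdeal R ^ N).map (algebraMap R S) := by
    rw [sup_eq_left, pow_succ', Ideal.map_mul]
    exact Ideal.mul_mono_left hmSq
  obtain ⟨a, ha⟩ := ENat.ne_top_iff_exists.mp hfin0
  obtain ⟨b, hb⟩ := ENat.ne_top_iff_exists.mp hfin1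
  rw [← ha, ← hb] at hmono
  have hab : a ≤ b := by exact_mod_cast hmono
  have hA := length_quot_mul_map_le (R := R) (S := S)
    (((maximalIdeal R).map (algebraMap R S)).colon {y}) (b - a)
    (maximalIdeal R ^ N) (maximalIdeal R ^ (N + 1)) hpow hfin1 (by
      rw [← ha, ← hb]
      have : b ≤ a + (b - a) := by omega
      exact_mod_cast this)
  rw [hsup] at hA
  have hle := (Vale.Agent.Lib.P202.length_quot_anti hcol).trans hA
  rw [hN] at hle
  rw [hI] at hii
  have hcc : Module.length S (S ⧸ ((maximalIdeal R).map (algebraMap R S) ⊔ Ideal.span {y}))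
      ≠ ⊤ := ne_top_of_le_ne_top hfib (hi ▸ le_self_add)
  have hqq : Module.length S (S ⧸ ((maximalIdeal R).map (algebraMap R S)).colon {y})
      ≠ ⊤ := ne_top_of_le_ne_top hfib (hi ▸ le_add_self)
  obtain ⟨c, hc⟩ := ENat.ne_top_iff_exists.mp hcc
  obtain ⟨q, hq⟩ := ENat.ne_top_iff_exists.mp hqq
  by_cases hX : Module.length S
      (S ⧸ ((maximalIdeal R ^ (N + 1)).map (algebraMap R S) ⊔ Ideal.span {y})) = ⊤
  · rw [hX]
    simp
  · obtain ⟨x, hx⟩ := ENat.ne_top_iff_exists.mp hX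
    rw [← ha, ← hb, ← hc, ← hx]
    rw [← hc, ← hq] at hi
    rw [← hi, ← ha, ← hq] at hle
    rw [← hb, ← hi, ← hx] at hii
    have hle2 := add_le_add (le_refl (x : ℕ∞)) hle
    rw [hii] at hle2
    have hle3 : b * (c + q) ≤ x + (a * (c + q) + (b - a) * q) := by exact_mod_cast hle2
    have hgoal : b * c ≤ x + a * c := by
      obtain ⟨k, rfl⟩ := Nat.exists_eq_add_of_le hab
      rw [Nat.add_sub_cancel_left] at hle3
      nlinarith [hle3]
    exact_mod_cast hgoal

end Vale.Agent.Lib.P202.Lech
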