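import Mathlib

/-!
# Ideals of small colength in a local ring

An elementary lemma used for closed fibres of small length: an ideal `J` of a Noetherian local
ring `(S, n)` with `S / J` of length at most four either satisfies `n = J + (g₁, g₂)` for two
elements, or `n ^ 2 ≤ J` and `n` is not of the form `x S + J`.
-/

namespace Vale.Agent.Lib.P202.Lech

open IsLocalRing

/-- A strict inclusion of ideals increases the length of the quotient. -/
theorem lowLength_add_one_le {A : Type*} [CommRing A] {I J : Ideal A} (h : I < J) :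
    Module.length A (A ⧸ J) + 1 ≤ Module.length A (A ⧸ I) := by
  obtain ⟨z, hzJ, hzI⟩ := SetLike.exists_of_lt h
  have hexact := Module.length_eq_add_of_exact
    (Submodule.subtype (LinearMap.ker (Submodule.factor h.le))) (Submodule.factor h.le)
    (Submodule.injective_subtype _) (Submodule.factor_surjective h.le)
    (LinearMap.exact_subtype_ker_map _)
  rw [hexact, add_comm]
  have hnt : Nontrivial (LinearMap.ker (Submodule.factor h.le)) := by
    have hmem : (Submodule.Quotient.mk z : A ⧸ I) ∈ LinearMap.ker (Submodule.factor h.le) := by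
      rw [LinearMap.mem_ker]
      change (Submodule.Quotient.mk z : A ⧸ J) = 0
      rw [Submodule.Quotient.mk_eq_zero]
      exact hzJ
    refine ⟨⟨⟨_, hmem⟩, 0, ?_⟩⟩
    intro h0
    have h1 : (Submodule.Quotient.mk z : A ⧸ I) = 0 := congrArg Subtype.val h0
    rw [Submodule.Quotient.mk_eq_zero] at h1
    exact hzI h1
  have hpos : 0 < Module.length A (LinearMap.ker (Submodule.factor h.le)) := Module.length_pos
  have h1 : (1 : ℕ∞) ≤ Module.length A (LinearMap.ker (Submodule.factor h.le)) :=
    Order.one_le_iff_pos.mpr hpos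
  gcongr

/-- The quotient of a local ring by its maximal ideal has length one. -/
theorem lowLength_quot_max (A : Type*) [CommRing A] [IsLocalRing A] :
    Module.length A (A ⧸ maximalIdeal A) = 1 := by
  rw [Module.length_eq_one_iff, isSimpleModule_iff_isCoatom, ← Ideal.isMaximal_def]
  infer_instance

theorem lowLength_enat (a b c d : ℕ∞) (h1 : a + 1 ≤ b) (h2 : b + 1 ≤ c) (h3 : c + 1 ≤ d)
    (h4 : d ≤ 4) : a ≤ 1 := by
  have hd : d ≠ ⊤ := ne_top_of_le_ne_top (by simp) h4
  have hc : c ≠ ⊤ := ne_top_of_le_ne_top hd (le_trans le_self_add h3)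
  have hb : b ≠ ⊤ := ne_top_of_le_ne_top hc (le_trans le_self_add h2)
  have ha : a ≠ ⊤ := ne_top_of_le_ne_top hb (le_trans le_self_add h1)
  lift a to ℕ using ha
  lift b to ℕ using hb
  lift c to ℕ using hc
  lift d to ℕ using hd
  norm_cast at *
  omega

/-- An ideal inside the maximal ideal with quotient of length at most one is the maximal
ideal. -/
theorem lowLength_eq_max {S : Type*} [CommRing S] [IsLocalRing S] (K : Ideal S)
    (hK : K ≤ maximalIdeal S) (h1 : Module.length S (S ⧸ K) ≤ 1) : K = maximalIdeal S := by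
  by_contra hne
  have hlt : K < maximalIdeal S := lt_of_le_of_ne hK hne
  have h2 := lowLength_add_one_le hlt
  rw [lowLength_quot_max] at h2
  have h3 : (1 : ℕ∞) + 1 ≤ 1 := h2.trans h1
  have h4 : ((1 : ℕ) : ℕ∞) + ((1 : ℕ) : ℕ∞) ≤ ((1 : ℕ) : ℕ∞) := by exact_mod_cast h3
  norm_cast at h4

/-- One more generator: either the maximal ideal is reached or the length drops. -/
theorem lowLength_extend {S : Type*} [CommRing S] [IsLocalRing S] (K : Ideal S)
    (hK : K ≤ maximalIdeal S) :
    ∃ g : S, g ∈ maximalIdeal S ∧ (K ⊔ Ideal.span {g} = maximalIdeal S ∨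
      Module.length S (S ⧸ (K ⊔ Ideal.span {g})) + 1 ≤ Module.length S (S ⧸ K)) := by
  by_cases h : K = maximalIdeal S
  · refine ⟨0, Ideal.zero_mem _, Or.inl ?_⟩
    have h2 : (Ideal.span {(0 : S)} : Ideal S) = ⊥ := by simp
    rw [h2, sup_bot_eq]
    exact h
  · have hlt : K < maximalIdeal S := lt_of_le_of_ne hK h
    obtain ⟨g, hgn, hgK⟩ := SetLike.exists_of_lt hlt
    refine ⟨g, hgn, Or.inr ?_⟩
    apply lowLength_add_one_le
    refine lt_of_le_of_ne le_sup_left ?_
    intro heq
    apply hgK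
    rw [heq]
    exact Ideal.mem_sup_right (Ideal.mem_span_singleton_self g)

/-- If `S / J` has length at most four, then either `n = J + (g₁, g₂)` for two elements `g₁, g₂`,
or `n ^ 2 ≤ J` and `n` is not of the form `x S + J`. -/
theorem lowLength_two_gens_or_sq_le {S : Type*} [CommRing S] [IsLocalRing S]
    [IsNoetherianRing S] (J : Ideal S) (hJ : J ≤ maximalIdeal S)
    (h4 : Module.length S (S ⧸ J) ≤ 4) :
    (∃ g₁ g₂ : S, maximalIdeal S = J ⊔ Ideal.span {g₁, g₂}) ∨
    (maximalIdeal S ^ 2 ≤ J ∧ ∀ x : S, maximalIdeal S ≠ Ideal.span {x} ⊔ J) := by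
  by_cases hsq : maximalIdeal S ^ 2 ≤ J
  · by_cases hx : ∀ x : S, maximalIdeal S ≠ Ideal.span {x} ⊔ J
    · exact Or.inr ⟨hsq, hx⟩
    · push Not at hx
      obtain ⟨x, hx⟩ := hx
      refine Or.inl ⟨x, x, ?_⟩
      rw [Set.pair_eq_singleton, sup_comm]
      exact hx
  · left
    have hK0n : J ⊔ maximalIdeal S ^ 2 ≤ maximalIdeal S :=
      sup_le hJ (Ideal.pow_le_self two_ne_zero)
    have hJK0 : J < J ⊔ maximalIdeal S ^ 2 := by
      refine lt_of_le_of_ne le_sup_left ?_
      intro heq
      apply hsq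
      rw [heq]
      exact le_sup_right
    have l0 := lowLength_add_one_le hJK0
    obtain ⟨g₁, hg₁, h1⟩ := lowLength_extend (J ⊔ maximalIdeal S ^ 2) hK0n
    have hK1n : J ⊔ maximalIdeal S ^ 2 ⊔ Ideal.span {g₁} ≤ maximalIdeal S :=
      sup_le hK0n ((Ideal.span_singleton_le_iff_mem _).mpr hg₁)
    obtain ⟨g₂, hg₂, h2⟩ :=
      lowLength_extend (J ⊔ maximalIdeal S ^ 2 ⊔ Ideal.span {g₁}) hK1n
    have hK2n : J ⊔ maximalIdeal S ^ 2 ⊔ Ideal.span {g₁} ⊔ Ideal.span {g₂}
        ≤ maximalIdeal S :=
      sup_le hK1n ((Ideal.span_singleton_le_iff_mem _).mpr hg₂)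
    have hK2 : J ⊔ maximalIdeal S ^ 2 ⊔ Ideal.span {g₁} ⊔ Ideal.span {g₂}
        = maximalIdeal S := by
      rcases h2 with h2 | h2
      · exact h2
      · rcases h1 with h1 | h1
        · exact le_antisymm hK2n (h1.symm.le.trans le_sup_left)
        · exact lowLength_eq_max _ hK2n (lowLength_enat _ _ _ _ h2 h1 l0 h4)
    refine ⟨g₁, g₂, ?_⟩
    have hN : J ⊔ Ideal.span {g₁, g₂} ≤ maximalIdeal S := by
      refine sup_le hJ (Ideal.span_le.mpr ?_)
      intro x hx
      rcases hx with rfl | rfl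
      · exact hg₁
      · exact hg₂
    refine le_antisymm ?_ hN
    have hfg : (maximalIdeal S).FG := IsNoetherian.noetherian _
    have hjac : maximalIdeal S ≤ Ideal.jacobson ⊥ := IsLocalRing.maximalIdeal_le_jacobson ⊥
    have hNN : maximalIdeal S
        ≤ (J ⊔ Ideal.span {g₁, g₂}) ⊔ maximalIdeal S • maximalIdeal S := by
      have e : maximalIdeal S • maximalIdeal S = maximalIdeal S ^ 2 := by
        rw [smul_eq_mul, pow_two]
      rw [e]
      calc maximalIdeal S
          = J ⊔ maximalIdeal S ^ 2 ⊔ Ideal.span {g₁} ⊔ Ideal.span {g₂} := hK2.symm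
        _ ≤ (J ⊔ Ideal.span {g₁, g₂}) ⊔ maximalIdeal S ^ 2 := by
          refine sup_le (sup_le (sup_le ?_ le_sup_right) ?_) ?_
          · exact le_sup_of_le_left le_sup_left
          · exact le_sup_of_le_left (le_sup_of_le_right (Ideal.span_mono (by simp)))
          · exact le_sup_of_le_left (le_sup_of_le_right (Ideal.span_mono (by simp)))
    exact Submodule.le_of_le_smul_of_le_jacobson_bot hfg hjac hNN

end Vale.Agent.Lib.P202.Lech
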