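import Vale.Agent.Lib.P202.Lech.Colon

/-!
# Combinatorial lemmas for the staircase argument
-/

namespace Vale.Agent.Lib.P202.Lech

open IsLocalRing

universe u

/-- The balanced distribution of `k` over `N` slots: slot `i` gets `k / N`, plus one if
`i < k % N`. -/
def slot (N k : ℕ) (i : Fin N) : ℕ := k / N + if (i : ℕ) < k % N then 1 else 0

lemma sum_slot (N k : ℕ) : ∑ i : Fin N, slot N k i = if N = 0 then 0 else k := by
  rcases Nat.eq_zero_or_pos N with hN | hN
  · subst hN
    simp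
  · rw [if_neg (Nat.pos_iff_ne_zero.mp hN)]
    unfold slot
    rw [Finset.sum_add_distrib]
    have h1 : ∑ _i : Fin N, k / N = N * (k / N) := by
      simp
    have h2 : ∑ i : Fin N, (if (i : ℕ) < k % N then 1 else 0) = k % N := by
      rw [Fin.sum_univ_eq_sum_range (fun i => if i < k % N then 1 else 0) N]
      rw [Finset.sum_ite]
      simp only [Finset.sum_const, smul_eq_mul, mul_one, mul_zero, add_zero]
      have hlt : k % N < N := Nat.mod_lt _ hN
      have : (Finset.range N).filter (fun i => i < k % N) = Finset.range (k % N) := by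
        ext i
        simp only [Finset.mem_filter, Finset.mem_range]
        constructor
        · intro h
          exact h.2
        · intro h
          exact ⟨lt_trans h hlt, h⟩
      rw [this, Finset.card_range]
    rw [h1, h2]
    exact Nat.div_add_mod k N

lemma div_le_slot (N k : ℕ) (i : Fin N) : k / N ≤ slot N k i := by
  unfold slot
  exact Nat.le_add_right _ _

lemma mlComb_sum_range_mul (f : ℕ → ℕ∞) (N K : ℕ) (hN : 0 < N) :
    ∑ k ∈ Finset.range (N * K), f (k / N) = (N : ℕ∞) * ∑ q ∈ Finset.range K, f q := by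
  induction K with
  | zero => simp
  | succ K ih =>
    rw [Nat.mul_succ, Finset.sum_range_add, ih, Finset.sum_range_succ, mul_add]
    congr 1
    have : ∀ x ∈ Finset.range N, f ((N * K + x) / N) = f K := by
      intro x hx
      have hx' : x < N := Finset.mem_range.mp hx
      have : (N * K + x) / N = K := by
        rw [Nat.mul_add_div hN, Nat.div_eq_of_lt hx', add_zero]
      rw [this]
    rw [Finset.sum_congr rfl this]
    simp

/-- `∑_{k < K} f (k / N) ≤ N ∑_{q < K} f q` for `N ≥ 1`. -/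
lemma sum_range_div_le (f : ℕ → ℕ∞) (N K : ℕ) (hN : 0 < N) :
    ∑ k ∈ Finset.range K, f (k / N) ≤ (N : ℕ∞) * ∑ q ∈ Finset.range K, f q := by
  rw [← mlComb_sum_range_mul f N K hN]
  apply Finset.sum_le_sum_of_subset
  intro k hk
  rw [Finset.mem_range] at hk ⊢
  calc k < K := hk
    _ = 1 * K := (one_mul K).symm
    _ ≤ N * K := Nat.mul_le_mul_right K hN

variable {A : Type u} [CommRing A]

lemma colon_pow_mono (I : Ideal A) (x : A) {j j' : ℕ} (h : j ≤ j') :
    I.colon {x ^ j} ≤ I.colon {x ^ j'} := by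
  intro r hr
  rw [Submodule.mem_colon_singleton] at hr ⊢
  have e : r • x ^ j' = x ^ (j' - j) * (r • x ^ j) := by
    have : x ^ j' = x ^ (j' - j) * x ^ j := by
      rw [← pow_add, Nat.sub_add_cancel h]
    rw [this]
    simp only [smul_eq_mul]
    ring
  rw [e]
  exact I.mul_mem_left _ hr

lemma mlComb_prod_colon_le (x : A) {ι : Type} (s : Finset ι) (I : ι → Ideal A) (j : ι → ℕ) :
    ∏ i ∈ s, (I i).colon {x ^ j i} ≤ (∏ i ∈ s, I i).colon {x ^ ∑ i ∈ s, j i} := by
  classical
  induction s using Finset.induction_on with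
  | empty =>
    intro r _
    rw [Submodule.mem_colon_singleton]
    simp
  | insert a s ha ih =>
    rw [Finset.prod_insert ha, Finset.prod_insert ha, Finset.sum_insert ha]
    rw [Ideal.mul_le]
    intro r hr t ht
    have ht' := ih ht
    rw [Submodule.mem_colon_singleton] at hr ht' ⊢
    have e : (r * t) • x ^ (j a + ∑ i ∈ s, j i) = (r • x ^ j a) * (t • x ^ ∑ i ∈ s, j i) := by
      simp only [smul_eq_mul]
      ring
    rw [e]
    exact Ideal.mul_mem_mul hr ht'

/-- `∏ (I_i : x^(j_i)) ⊆ (∏ I_i : x^(∑ j_i))`. -/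
lemma prod_colon_le (x : A) {N : ℕ} (I : Fin N → Ideal A) (j : Fin N → ℕ) :
    ∏ i, (I i).colon {x ^ j i} ≤ (∏ i, I i).colon {x ^ ∑ i, j i} :=
  mlComb_prod_colon_le x Finset.univ I j

lemma mlComb_pow_sum_le_prod [IsLocalRing A] {ι : Type} (s : Finset ι)
    (I : ι → Ideal A) (L : ι → ℕ)
    (hL : ∀ i, Module.length A (A ⧸ I i) ≤ (L i : ℕ∞)) :
    maximalIdeal A ^ ∑ i ∈ s, L i ≤ ∏ i ∈ s, I i := by
  classical
  induction s using Finset.induction_on with
  | empty => simp
  | insert a s ha ih =>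
    rw [Finset.prod_insert ha, Finset.sum_insert ha, pow_add]
    exact Ideal.mul_mono (maximalIdeal_pow_le_of_length_le (I a) (L a) (hL a)) ih

/-- If `x ∈ n` and `length (A / I_i) ≤ L_i` for all `i`, then `x ^ (∑ L_i) ∈ ∏ I_i`. -/
lemma pow_sum_mem_prod [IsLocalRing A] (x : A) (hx : x ∈ maximalIdeal A) {N : ℕ}
    (I : Fin N → Ideal A) (L : Fin N → ℕ)
    (hL : ∀ i, Module.length A (A ⧸ I i) ≤ (L i : ℕ∞)) :
    x ^ ∑ i, L i ∈ ∏ i, I i :=
  mlComb_pow_sum_le_prod Finset.univ I L hL (Ideal.pow_mem_pow hx _)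

/-- If `length (A / I_i) ≤ L_i` for all `i`, then `n ^ (∑ L_i) ⊆ ∏ I_i`. -/
lemma maximalIdeal_pow_sum_le_prod [IsLocalRing A] {N : ℕ}
    (I : Fin N → Ideal A) (L : Fin N → ℕ)
    (hL : ∀ i, Module.length A (A ⧸ I i) ≤ (L i : ℕ∞)) :
    maximalIdeal A ^ ∑ i, L i ≤ ∏ i, I i :=
  mlComb_pow_sum_le_prod Finset.univ I L hL

/-- The image in `A / (x)` of a product of ideals, and lengths:
`length_{A/(x)} ((A/(x)) / ∏ (𝔞_i (A/(x)))) = length_A (A / (∏ 𝔞_i + (x)))`. -/
lemma length_quotient_prod (x : A) {N : ℕ} (𝔞 : Fin N → Ideal A) :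
    Module.length (A ⧸ Ideal.span {x})
        ((A ⧸ Ideal.span {x}) ⧸ ∏ i, (𝔞 i).map (Ideal.Quotient.mk (Ideal.span {x}))) =
      Module.length A (A ⧸ ((∏ i, 𝔞 i) ⊔ Ideal.span {x})) := by
  have h : ∏ i, (𝔞 i).map (Ideal.Quotient.mk (Ideal.span {x})) =
      (∏ i, 𝔞 i).map (Ideal.Quotient.mk (Ideal.span {x})) :=
    (map_prod (Ideal.mapHom (Ideal.Quotient.mk (Ideal.span {x}))) 𝔞 Finset.univ).symm
  rw [h]
  exact length_quotient_ideal (Ideal.span {x}) (∏ i, 𝔞 i)

end Vale.Agent.Lib.P202.Lech
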