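import Vale.Agent.Lib.P202.Lech.MLComb

/-!
# Multi-ideal bounds of Lech type: the base case and the inductive step
-/

namespace Vale.Agent.Lib.P202.Lech

open IsLocalRing

universe u

variable {A : Type u} [CommRing A] [IsLocalRing A] [IsNoetherianRing A]

omit [IsLocalRing A] [IsNoetherianRing A] in
lemma mlStep_coe_toNat {N : ℕ} (I : Fin N → Ideal A)
    (hfin : ∀ i, Module.length A (A ⧸ I i) ≠ ⊤) (i : Fin N) :
    Module.length A (A ⧸ I i) = ((Module.length A (A ⧸ I i)).toNat : ℕ∞) :=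
  (ENat.natCast_toNat (hfin i)).symm

omit [IsLocalRing A] [IsNoetherianRing A] in
lemma mlStep_sum_coe {N : ℕ} (I : Fin N → Ideal A)
    (hfin : ∀ i, Module.length A (A ⧸ I i) ≠ ⊤) :
    ((∑ i, (Module.length A (A ⧸ I i)).toNat : ℕ) : ℕ∞) = ∑ i, Module.length A (A ⧸ I i) := by
  rw [Nat.cast_sum]
  exact Finset.sum_congr rfl fun i _ => ENat.natCast_toNat (hfin i)

/-- Base case: a linear bound `length (A / n^M) ≤ e M + b` for the Hilbert-Samuel function gives
the multi-ideal bound of order `1`. -/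
theorem mlBound_one (e b : ℕ)
    (h : ∀ M : ℕ, Module.length A (A ⧸ maximalIdeal A ^ M) ≤ ((e * M + b : ℕ) : ℕ∞)) :
    MLBound A 1 e b := by
  intro N I hfin
  rw [if_pos rfl]
  have hle : maximalIdeal A ^ ∑ i, (Module.length A (A ⧸ I i)).toNat ≤ ∏ i, I i :=
    maximalIdeal_pow_sum_le_prod I (fun i => (Module.length A (A ⧸ I i)).toNat)
      (fun i => (mlStep_coe_toNat I hfin i).le)
  refine (Vale.Agent.Lib.P202.length_quot_anti hle).trans ((h _).trans ?_)
  rw [← mlStep_sum_coe I hfin]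
  push_cast
  exact le_rfl

omit [IsLocalRing A] [IsNoetherianRing A] in
lemma mlStep_lam_le (I : Ideal A) (x : A) (j : ℕ) :
    Module.length A (A ⧸ (I.colon {x ^ j} ⊔ Ideal.span {x})) ≤ Module.length A (A ⧸ I) :=
  Vale.Agent.Lib.P202.length_quot_anti (le_sup_of_le_left Ideal.le_colon)

omit [IsLocalRing A] [IsNoetherianRing A] in
lemma mlStep_lam_anti (I : Ideal A) (x : A) {j j' : ℕ} (hj : j ≤ j') :
    Module.length A (A ⧸ (I.colon {x ^ j'} ⊔ Ideal.span {x})) ≤
      Module.length A (A ⧸ (I.colon {x ^ j} ⊔ Ideal.span {x})) :=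
  Vale.Agent.Lib.P202.length_quot_anti (sup_le_sup_right (colon_pow_mono I x hj) _)

omit [IsNoetherianRing A] in
lemma mlStep_pow_mem (x : A) (hx : x ∈ maximalIdeal A) (I : Ideal A) (L K : ℕ)
    (hL : Module.length A (A ⧸ I) ≤ (L : ℕ∞)) (hLK : L ≤ K) : x ^ K ∈ I := by
  have h1 : maximalIdeal A ^ L ≤ I := maximalIdeal_pow_le_of_length_le I L hL
  have h2 : x ^ K ∈ maximalIdeal A ^ K := Ideal.pow_mem_pow hx K
  exact h1 (Ideal.pow_le_pow_right hLK h2)

omit [IsNoetherianRing A] in
/-- The double sum estimate of the staircase argument. -/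
lemma mlStep_double_sum (x : A) (hx : x ∈ maximalIdeal A) {N : ℕ} (hN : N ≠ 0)
    (I : Fin N → Ideal A) (hfin : ∀ i, Module.length A (A ⧸ I i) ≠ ⊤) :
    ∑ k ∈ Finset.range (∑ i, (Module.length A (A ⧸ I i)).toNat),
        ∑ i, Module.length A (A ⧸ ((I i).colon {x ^ slot N k i} ⊔ Ideal.span {x})) ≤
      (N : ℕ∞) * ∑ i, Module.length A (A ⧸ I i) := by
  set K := ∑ i, (Module.length A (A ⧸ I i)).toNat with hK
  have step1 : ∑ k ∈ Finset.range K,
        ∑ i, Module.length A (A ⧸ ((I i).colon {x ^ slot N k i} ⊔ Ideal.span {x})) ≤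
      ∑ k ∈ Finset.range K,
        ∑ i, Module.length A (A ⧸ ((I i).colon {x ^ (k / N)} ⊔ Ideal.span {x})) :=
    Finset.sum_le_sum fun k _ => Finset.sum_le_sum fun i _ =>
      mlStep_lam_anti (I i) x (div_le_slot N k i)
  refine step1.trans ?_
  rw [Finset.sum_comm, Finset.mul_sum]
  refine Finset.sum_le_sum fun i _ => ?_
  have hLK : (Module.length A (A ⧸ I i)).toNat ≤ K :=
    Finset.single_le_sum (f := fun i => (Module.length A (A ⧸ I i)).toNat)
      (fun j _ => Nat.zero_le _) (Finset.mem_univ i)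
  have hxK : x ^ K ∈ I i :=
    mlStep_pow_mem x hx (I i) _ K (mlStep_coe_toNat I hfin i).le hLK
  have h2 := sum_range_div_le
    (fun j => Module.length A (A ⧸ ((I i).colon {x ^ j} ⊔ Ideal.span {x}))) N K
    (Nat.pos_of_ne_zero hN)
  rw [← length_quot_eq_sum_colon (I i) x K hxK] at h2
  exact h2

/-- Inductive step: the multi-ideal bound of order `δ` for `A / (x)` gives the multi-ideal bound
of order `δ + 1` for `A`. -/
theorem mlBound_succ (x : A) (hx : x ∈ maximalIdeal A) (δ e b : ℕ) (hδ : 1 ≤ δ)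
    (h : MLBound (A ⧸ Ideal.span {x}) δ e b) : MLBound A (δ + 1) e b := by
  intro N I hfin
  have hδ1 : δ + 1 ≠ 1 := by omega
  rw [if_neg hδ1]
  rcases Nat.eq_zero_or_pos N with hN0 | hNpos
  · subst hN0
    have htop : (∏ i, I i) = ⊤ := by simp
    have hz : Module.length A (A ⧸ ∏ i, I i) = 0 := by
      rw [Module.length_eq_zero_iff, htop]
      exact Ideal.Quotient.subsingleton_iff.mpr rfl
    rw [hz]
    exact zero_le
  have hN : N ≠ 0 := Nat.pos_iff_ne_zero.mp hNpos
  set K := ∑ i, (Module.length A (A ⧸ I i)).toNat with hK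
  have hKS : (K : ℕ∞) = ∑ i, Module.length A (A ⧸ I i) := mlStep_sum_coe I hfin
  have hxK : x ^ K ∈ ∏ i, I i :=
    pow_sum_mem_prod x hx I (fun i => (Module.length A (A ⧸ I i)).toNat)
      (fun i => (mlStep_coe_toNat I hfin i).le)
  have hdouble := mlStep_double_sum x hx hN I hfin
  rw [← hK] at hdouble
  rw [length_quot_eq_sum_colon (∏ i, I i) x K hxK]
  -- the bound for each step of the staircase
  have hstep : ∀ k : ℕ,
      Module.length A (A ⧸ ((∏ i, I i).colon {x ^ k} ⊔ Ideal.span {x})) ≤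
        if δ = 1 then (e : ℕ∞) *
            ∑ i, Module.length A (A ⧸ ((I i).colon {x ^ slot N k i} ⊔ Ideal.span {x})) + (b : ℕ∞)
        else ((e * N ^ (δ - 1) + b * N ^ (δ - 2) : ℕ) : ℕ∞) *
            ∑ i, Module.length A (A ⧸ ((I i).colon {x ^ slot N k i} ⊔ Ideal.span {x})) := by
    intro k
    have hk1 : ∏ i, (I i).colon {x ^ slot N k i} ≤ (∏ i, I i).colon {x ^ k} := by
      have h1 := prod_colon_le x I (slot N k)
      rw [sum_slot N k, if_neg hN] at h1
      exact h1
    have hk2 : Module.length A (A ⧸ ((∏ i, I i).colon {x ^ k} ⊔ Ideal.span {x})) ≤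
        Module.length A (A ⧸ ((∏ i, (I i).colon {x ^ slot N k i}) ⊔ Ideal.span {x})) :=
      Vale.Agent.Lib.P202.length_quot_anti (sup_le_sup_right hk1 _)
    refine hk2.trans ?_
    rw [← length_quotient_prod x (fun i => (I i).colon {x ^ slot N k i})]
    have hbar : ∀ i, Module.length (A ⧸ Ideal.span {x})
        ((A ⧸ Ideal.span {x}) ⧸
          ((I i).colon {x ^ slot N k i}).map (Ideal.Quotient.mk (Ideal.span {x}))) =
        Module.length A (A ⧸ ((I i).colon {x ^ slot N k i} ⊔ Ideal.span {x})) :=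
      fun i => length_quotient_ideal (Ideal.span {x}) ((I i).colon {x ^ slot N k i})
    have hfinbar : ∀ i, Module.length (A ⧸ Ideal.span {x})
        ((A ⧸ Ideal.span {x}) ⧸
          ((I i).colon {x ^ slot N k i}).map (Ideal.Quotient.mk (Ideal.span {x}))) ≠ ⊤ := by
      intro i
      rw [hbar i]
      exact ne_top_of_le_ne_top (hfin i) (mlStep_lam_le (I i) x _)
    have hml := h N
      (fun i => ((I i).colon {x ^ slot N k i}).map (Ideal.Quotient.mk (Ideal.span {x}))) hfinbar
    simp only [hbar] at hml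
    exact hml
  by_cases hδ' : δ = 1
  · subst hδ'
    simp only [if_true] at hstep
    refine (Finset.sum_le_sum fun k _ => hstep k).trans ?_
    rw [Finset.sum_add_distrib, ← Finset.mul_sum, Finset.sum_const, Finset.card_range,
      nsmul_eq_mul]
    have h1 : (e : ℕ∞) * ∑ k ∈ Finset.range K,
        ∑ i, Module.length A (A ⧸ ((I i).colon {x ^ slot N k i} ⊔ Ideal.span {x})) ≤
        (e : ℕ∞) * ((N : ℕ∞) * ∑ i, Module.length A (A ⧸ I i)) :=
      mul_le_mul_right hdouble _
    refine (add_le_add_left h1 _).trans ?_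
    rw [hKS]
    push_cast
    simp only [pow_one, pow_zero, mul_one]
    rw [add_mul, mul_assoc]
    exact le_of_eq (by rw [mul_comm (∑ i, Module.length A (A ⧸ I i)) (b : ℕ∞)])
  · simp only [if_neg hδ'] at hstep
    refine (Finset.sum_le_sum fun k _ => hstep k).trans ?_
    rw [← Finset.mul_sum]
    refine (mul_le_mul_right hdouble _).trans ?_
    rw [← mul_assoc]
    refine le_of_eq ?_
    congr 1
    have hδ2 : 2 ≤ δ := by omega
    have e1 : (e * N ^ (δ - 1) + b * N ^ (δ - 2)) * N = e * N ^ (δ + 1 - 1) + b * N ^ (δ + 1 - 2) := by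
      have p1 : N ^ (δ - 1) * N = N ^ (δ + 1 - 1) := by
        rw [← pow_succ]
        congr 1
        omega
      have p2 : N ^ (δ - 2) * N = N ^ (δ + 1 - 2) := by
        rw [← pow_succ]
        congr 1
        omega
      rw [add_mul, mul_assoc, mul_assoc, p1, p2]
    rw [← e1]
    push_cast
    rfl

end Vale.Agent.Lib.P202.Lech
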