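import Vale.Agent.Lib.P202.ReductionFibre
import Vale.Agent.Lib.P202.Lech.Good
import Vale.Agent.Lib.P202.Lech.KernelCount
import Vale.Agent.Lib.P202.Lech.Asymp

/-!
# Lech's inequality with the factor `(d - 1)!` (infinite residue field)
-/

namespace Vale.Agent.Lib.P202.Lech

open IsLocalRing Filter
open scoped ENNReal Nat Topology

universe u v

variable {R : Type v} {S : Type u} [CommRing R] [CommRing S] [IsLocalRing R] [IsLocalRing S]
  [IsNoetherianRing R] [IsNoetherianRing S] [Algebra R S] [IsLocalHom (algebraMap R S)]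
  [Module.Flat R S]

/-- The difference inequality for the Hilbert-Samuel function of `R` obtained from the kernel
count and a multi-ideal bound for `S / (y)`. -/
lemma step_of_mlBound (hfib : Module.length S (S ⧸ (maximalIdeal R).map (algebraMap R S)) ≠ ⊤)
    (y : S) (hyn : y ∈ maximalIdeal S) (d e b : ℕ) (hd : 2 ≤ d)
    (hml : MLBound (S ⧸ Ideal.span {y}) (d - 1) e b) (N : ℕ) :
    Module.length R (R ⧸ maximalIdeal R ^ (N + 1)) ≤
      Module.length R (R ⧸ maximalIdeal R ^ N) +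
        ((e * (N + 1) ^ (d - 1) + b * (N + 1) ^ (d - 2) : ℕ) : ℕ∞) := by
  set mS : Ideal S := (maximalIdeal R).map (algebraMap R S) with hmS
  set cc : ℕ∞ := Module.length S (S ⧸ (mS ⊔ Ideal.span {y})) with hcc
  have hmSle : mS ≤ maximalIdeal S := Vale.Agent.Lib.P202.map_maximalIdeal_le
  have hccfin : cc ≠ ⊤ := by
    intro h
    apply hfib
    have h1 : cc ≤ Module.length S (S ⧸ mS) :=
      Vale.Agent.Lib.P202.length_quot_anti le_sup_left
    rw [h] at h1
    exact top_le_iff.mp h1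
  have hcc1 : 1 ≤ cc := by
    apply Vale.Agent.Lib.P202.one_le_length_quot
    exact sup_le hmSle ((Ideal.span_singleton_le_iff_mem _).mpr hyn)
  -- the multi-ideal bound for `N + 1` copies of `m (S / (y))`
  have hkey : Module.length S (S ⧸ ((maximalIdeal R ^ (N + 1)).map (algebraMap R S) ⊔
      Ideal.span {y})) ≤ ((e * (N + 1) ^ (d - 1) + b * (N + 1) ^ (d - 2) : ℕ) : ℕ∞) * cc := by
    have h1 := hml (N + 1) (fun _ => mS.map (Ideal.Quotient.mk (Ideal.span {y})))
      (fun _ => by rw [length_quotient_ideal]; exact hccfin)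
    rw [Finset.prod_const, Finset.card_univ, Fintype.card_fin, ← Ideal.map_pow,
      length_quotient_ideal, Finset.sum_const, Finset.card_univ, Fintype.card_fin,
      length_quotient_ideal, hmS, ← Ideal.map_pow, ← hmS, ← hcc, nsmul_eq_mul] at h1
    refine h1.trans ?_
    by_cases hd2 : d - 1 = 1
    · rw [if_pos hd2]
      have hd' : d = 2 := by omega
      subst hd'
      have h3 : (b : ℕ∞) ≤ (b : ℕ∞) * cc := by
        calc (b : ℕ∞) = (b : ℕ∞) * 1 := (mul_one _).symm
          _ ≤ (b : ℕ∞) * cc := mul_le_mul_right hcc1 _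
      calc (e : ℕ∞) * (((N + 1 : ℕ) : ℕ∞) * cc) + (b : ℕ∞)
          ≤ (e : ℕ∞) * (((N + 1 : ℕ) : ℕ∞) * cc) + (b : ℕ∞) * cc := by gcongr
        _ = ((e * (N + 1) ^ (2 - 1) + b * (N + 1) ^ (2 - 2) : ℕ) : ℕ∞) * cc := by
          push_cast
          ring
    · rw [if_neg hd2]
      have h4 : ∀ p q : ℕ, d - 1 = p + 1 → d - 2 = q + 1 →
          (e * (N + 1) ^ p + b * (N + 1) ^ q) * (N + 1) =
            e * (N + 1) ^ (d - 1) + b * (N + 1) ^ (d - 2) := by
        intro p q hp hq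
        rw [hp, hq]
        ring
      rw [← h4 (d - 1 - 1) (d - 1 - 2) (by omega) (by omega)]
      push_cast
      rw [mul_assoc]
  have hkc := kernel_count hfib y N
  rw [← hmS, ← hcc] at hkc
  have hfin1 : Module.length R (R ⧸ maximalIdeal R ^ (N + 1)) ≠ ⊤ :=
    Vale.Agent.Lib.P202.length_quot_pow_ne_top R (N + 1)
  have hfin0 : Module.length R (R ⧸ maximalIdeal R ^ N) ≠ ⊤ :=
    Vale.Agent.Lib.P202.length_quot_pow_ne_top R N
  obtain ⟨a1, ha1⟩ := ENat.ne_top_iff_exists.mp hfin1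
  obtain ⟨a0, ha0⟩ := ENat.ne_top_iff_exists.mp hfin0
  obtain ⟨c', hc'⟩ := ENat.ne_top_iff_exists.mp hccfin
  rw [← ha1, ← ha0]
  rw [← ha1, ← ha0] at hkc
  have h5 : (a1 : ℕ∞) * cc ≤
      ((e * (N + 1) ^ (d - 1) + b * (N + 1) ^ (d - 2) : ℕ) : ℕ∞) * cc + (a0 : ℕ∞) * cc :=
    hkc.trans (by gcongr)
  rw [← hc'] at h5 hcc1
  have hc1 : 1 ≤ c' := by exact_mod_cast hcc1
  have h6 : a1 * c' ≤ (e * (N + 1) ^ (d - 1) + b * (N + 1) ^ (d - 2)) * c' + a0 * c' := by
    exact_mod_cast h5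
  have h7 : a1 * c' ≤ (a0 + (e * (N + 1) ^ (d - 1) + b * (N + 1) ^ (d - 2))) * c' := by
    rw [add_mul, add_comm]
    exact h6
  have h8 : a1 ≤ a0 + (e * (N + 1) ^ (d - 1) + b * (N + 1) ^ (d - 2)) :=
    Nat.le_of_mul_le_mul_right h7 (by omega)
  exact_mod_cast h8

/-- Lech's inequality with the factor `(d - 1)!`, for a flat local homomorphism with closed fibre
of finite length whose target has infinite residue field. -/
theorem limsup_le_factorial_mul_liminf_of_infinite
    (hfib : Module.length S (S ⧸ (maximalIdeal R).map (algebraMap R S)) ≠ ⊤)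
    [Infinite (ResidueField S)] (d : ℕ) (hd : 2 ≤ d) :
    limsup (fun N : ℕ => (d ! : ℝ≥0∞) *
        (Module.length R (R ⧸ maximalIdeal R ^ N)).toENNReal / (N : ℝ≥0∞) ^ d) atTop ≤
      ((d - 1) ! : ℝ≥0∞) * liminf (fun N : ℕ => (d ! : ℝ≥0∞) *
        (Module.length S (S ⧸ maximalIdeal S ^ N)).toENNReal / (N : ℝ≥0∞) ^ d) atTop := by
  obtain ⟨y, c₀, hyc⟩ := exists_superficial S
  have hyn := hyc.1
  have hloc : IsLocalRing (S ⧸ Ideal.span {y}) :=
    Vale.Agent.Lib.P202.isLocalRing_quotient_span hyn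
  have hinfT : Infinite (ResidueField (S ⧸ Ideal.span {y})) :=
    infinite_residueField_quotient _
  obtain ⟨C, hC⟩ := ENat.ne_top_iff_exists.mp
    (Vale.Agent.Lib.P202.length_quot_pow_ne_top S c₀)
  have ha : ∀ N : ℕ, Module.length S (S ⧸ (maximalIdeal S ^ (N + 1) ⊔ Ideal.span {y})) +
      Module.length S (S ⧸ maximalIdeal S ^ N) ≤
      Module.length S (S ⧸ maximalIdeal S ^ (N + 1)) + (C : ℕ∞) := by
    intro N
    rw [hC]
    exact superficial_bound_quot y c₀ hyc N
  have hd1 : d - 1 + 1 = d := by omega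
  have hgood := good (d - 1) (by omega) (S ⧸ Ideal.span {y})
  have hlow : ∀ E : ℕ, LowerHS (S ⧸ Ideal.span {y}) (d - 1) E → LowerHS S d E := by
    intro E h
    have h1 := lowerHS_succ y (d - 1) E C (by omega) ha h
    rw [hd1] at h1
    exact h1
  have hlim : ∀ E : ℕ, LowerHS S d E → (E : ℝ≥0∞) ≤ liminf (fun N : ℕ => (d ! : ℝ≥0∞) *
      (Module.length S (S ⧸ maximalIdeal S ^ N)).toENNReal / (N : ℝ≥0∞) ^ d) atTop := by
    rintro E ⟨K, hK⟩
    exact le_liminf_of_lower d E K (by omega) _ hK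
  rcases hgood with ⟨e, b, hml, hlowT⟩ | hall
  · have h1 := hlim e (hlow e hlowT)
    have h2 : limsup (fun N : ℕ => (d ! : ℝ≥0∞) *
        (Module.length R (R ⧸ maximalIdeal R ^ N)).toENNReal / (N : ℝ≥0∞) ^ d) atTop ≤
        (((d - 1) ! * e : ℕ) : ℝ≥0∞) := by
      apply limsup_le_of_step d e b hd (fun N => Module.length R (R ⧸ maximalIdeal R ^ N))
      · rw [Module.length_eq_zero_iff, Ideal.Quotient.subsingleton_iff, pow_zero,
          Ideal.one_eq_top]
      · intro N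
        exact step_of_mlBound hfib y hyn d e b hd hml N
    refine h2.trans ?_
    rw [Nat.cast_mul]
    gcongr
  · have htop : liminf (fun N : ℕ => (d ! : ℝ≥0∞) *
        (Module.length S (S ⧸ maximalIdeal S ^ N)).toENNReal / (N : ℝ≥0∞) ^ d) atTop = ⊤ :=
      ENNReal.eq_top_of_forall_nnreal_le (fun r => by
        obtain ⟨E, hE⟩ := exists_nat_ge r
        calc (r : ℝ≥0∞) ≤ ((E : NNReal) : ℝ≥0∞) := ENNReal.coe_le_coe.mpr hE
          _ = (E : ℝ≥0∞) := ENNReal.coe_natCast E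
          _ ≤ _ := hlim E (hlow E (hall E)))
    rw [htop, ENNReal.mul_top]
    · exact le_top
    · exact_mod_cast (Nat.factorial_pos (d - 1)).ne'

end Vale.Agent.Lib.P202.Lech
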