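import Mathlib

/-!
# Products of two elements of the maximal ideal that lie in `J`

Abstract setting: a local ring `(S, n)`, an ideal `J ≤ n` with the key property
(`a b ∈ J`, `z b ∈ J`, `z ∉ a S + J` imply `a b ∈ J n`), `n ^ 3 ≤ J`, `n ^ 2 ≤ J + (w)` with
`w ∈ n ^ 2`, and `n` not of the form `J + (x, y)`.  Then every product `a b ∈ J` of two elements
of `n` lies in `J n`.
-/

namespace Vale.Agent.Lib.P202.Lech

open IsLocalRing

theorem quadA_mul_mem {S : Type*} [CommRing S] [IsLocalRing S] (J : Ideal S)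
    (hJ : J ≤ maximalIdeal S)
    (hKP : ∀ a b z : S, a * b ∈ J → z * b ∈ J → z ∉ Ideal.span {a} ⊔ J →
      a * b ∈ J * maximalIdeal S)
    (h3 : maximalIdeal S ^ 3 ≤ J) (w : S) (hw : w ∈ maximalIdeal S ^ 2)
    (h2 : maximalIdeal S ^ 2 ≤ J ⊔ Ideal.span {w})
    (hnp : ∀ x y : S, maximalIdeal S ≠ J ⊔ Ideal.span {x, y})
    (a b : S) (ha : a ∈ maximalIdeal S) (hb : b ∈ maximalIdeal S) (hab : a * b ∈ J) :
    a * b ∈ J * maximalIdeal S := by
  by_contra hcon
  have H : ∀ z : S, z * b ∈ J → z ∈ Ideal.span {a} ⊔ J := by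
    intro z hz
    by_contra hz'
    exact hcon (hKP a b z hab hz hz')
  have haJ : Ideal.span {a} ⊔ J ≤ maximalIdeal S :=
    sup_le ((Ideal.span_singleton_le_iff_mem _).mpr ha) hJ
  by_cases hc : ∀ z ∈ maximalIdeal S, z * b ∈ J
  · apply hnp a a
    rw [Set.pair_eq_singleton, sup_comm]
    exact le_antisymm (fun z hz => H z (hc z hz)) haJ
  · push Not at hc
    obtain ⟨z1, hz1, hz1b⟩ := hc
    have hmem2 : ∀ z ∈ maximalIdeal S, ∃ j ∈ J, ∃ p : S, z * b = j + p * w := by
      intro z hz
      have hzb : z * b ∈ maximalIdeal S ^ 2 := by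
        rw [pow_two]
        exact Ideal.mul_mem_mul hz hb
      obtain ⟨j, hj, y, hy, hsum⟩ := Submodule.mem_sup.mp (h2 hzb)
      obtain ⟨p, hp⟩ := Ideal.mem_span_singleton'.mp hy
      exact ⟨j, hj, p, by rw [← hsum, hp]⟩
    obtain ⟨j, hj, u, hu⟩ := hmem2 z1 hz1
    have huunit : IsUnit u := by
      by_contra hnu
      have hun : u ∈ maximalIdeal S := (IsLocalRing.mem_maximalIdeal u).mpr hnu
      have huw : u * w ∈ maximalIdeal S ^ 3 := by
        rw [pow_succ' _ 2]
        exact Ideal.mul_mem_mul hun hw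
      apply hz1b
      rw [hu]
      exact J.add_mem hj (h3 huw)
    obtain ⟨v, hv⟩ := huunit.exists_left_inv
    apply hnp a z1
    apply le_antisymm
    · intro z hz
      obtain ⟨j', hj', p, hp⟩ := hmem2 z hz
      have hzz : (z - p * v * z1) * b ∈ J := by
        have e : (z - p * v * z1) * b = j' - p * v * j := by
          calc (z - p * v * z1) * b = z * b - p * v * (z1 * b) := by ring
            _ = j' + p * w - p * v * (j + u * w) := by rw [hp, hu]
            _ = j' - p * v * j + p * w * (1 - v * u) := by ring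
            _ = j' - p * v * j := by
              rw [hv]
              ring
        rw [e]
        exact J.sub_mem hj' (J.mul_mem_left _ hj)
      obtain ⟨x1, hx1, x2, hx2, hsum⟩ := Submodule.mem_sup.mp (H _ hzz)
      have hz_eq : z = x2 + (x1 + p * v * z1) := by
        linear_combination (-1 : S) * hsum
      rw [hz_eq]
      refine Submodule.add_mem_sup hx2 ?_
      rw [Ideal.mem_span_pair]
      obtain ⟨q, hq⟩ := Ideal.mem_span_singleton'.mp hx1
      exact ⟨q, p * v, by rw [hq]⟩
    · refine sup_le hJ ?_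
      rw [Ideal.span_le]
      intro x hx
      simp only [Set.mem_insert_iff, Set.mem_singleton_iff] at hx
      rcases hx with rfl | rfl
      · exact ha
      · exact hz1

end Vale.Agent.Lib.P202.Lech
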