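import Vale.Agent.Lib.P202.Lech.Concl

/-!
# The statement `Concl` passes to the quotient by an element of the maximal ideal
-/

namespace Vale.Agent.Lib.P202.Lech

open IsLocalRing Filter
open scoped ENNReal Nat Topology

universe u v

/-- An upper bound of order `δ + 1` with leading coefficient `e'` limits the leading
coefficient of every lower bound of the same order. -/
lemma quotStep_le_of_upper {A : Type u} [CommRing A] [IsLocalRing A] [IsNoetherianRing A]
    (δ e' b' E : ℕ) (hup : UpperHS A (δ + 1) e' b') (hlow : LowerHS A (δ + 1) E) :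
    E ≤ e' := by
  obtain ⟨K, hK⟩ := hlow
  by_contra hlt
  have hlt' : e' + 1 ≤ E := by omega
  obtain ⟨H, hH⟩ := ENat.ne_top_iff_exists.mp
    (Vale.Agent.Lib.P202.length_quot_pow_ne_top A (b' + K + 1))
  have h1 := hK (b' + K + 1)
  have h2 := hup (b' + K + 1)
  rw [← hH] at h1 h2
  simp only [Nat.add_sub_cancel] at h1 h2
  have h1' : E * (b' + K + 1) ^ (δ + 1)
      ≤ (δ + 1).factorial * H + K * (b' + K + 1) ^ δ := by
    exact_mod_cast h1
  have h2' : (δ + 1).factorial * H
      ≤ e' * (b' + K + 1) ^ (δ + 1) + b' * (b' + K + 1) ^ δ := by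
    exact_mod_cast h2
  have hP : 0 < (b' + K + 1) ^ δ := by positivity
  have hpow : (b' + K + 1) ^ (δ + 1) = (b' + K + 1) * (b' + K + 1) ^ δ := by ring
  rw [hpow] at h1' h2'
  have h3 : (e' + 1) * ((b' + K + 1) * (b' + K + 1) ^ δ)
      ≤ E * ((b' + K + 1) * (b' + K + 1) ^ δ) := Nat.mul_le_mul_right _ hlt'
  nlinarith [h1', h2', h3, hP]

variable {R : Type v} {A : Type u} [CommRing R] [IsLocalRing R] [CommRing A] [IsLocalRing A]
  [IsNoetherianRing A] [Infinite (ResidueField A)]

/-- If `Concl R A d (δ + 1) κ` holds and `f ∈ n`, then `Concl R (A / (f)) d δ κ` holds: the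
Hilbert-Samuel function of `A / (f)` is sharply of order `δ`, and an upper bound of order `δ`
for `A / (f)` gives one of order `δ + 1` for `A` with the same leading coefficient. -/
theorem concl_quot (f : A) (hf : f ∈ maximalIdeal A) [IsLocalRing (A ⧸ Ideal.span {f})]
    (d δ κ : ℕ) (hδ : 1 ≤ δ) (h : Concl R A d (δ + 1) κ) :
    Concl R (A ⧸ Ideal.span {f}) d δ κ := by
  have hinf : Infinite (ResidueField (A ⧸ Ideal.span {f})) := infinite_residueField_quotient _
  rcases sharpGood δ hδ (A ⧸ Ideal.span {f}) with ⟨e', b, hup, hlow⟩ | hall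
  · obtain ⟨b', hb'⟩ := upperHS_succ f hf δ e' b hδ hup
    rcases h with ⟨e, hlim, hlowA⟩ | hallA
    · have he : e ≤ e' := quotStep_le_of_upper δ e' b' e hb' hlowA
      refine Or.inl ⟨e', hlim.trans ?_, hlow⟩
      exact_mod_cast Nat.mul_le_mul_left κ he
    · have hbad := quotStep_le_of_upper δ e' b' (e' + 1) hb' (hallA (e' + 1))
      omega
  · exact Or.inr hall

end Vale.Agent.Lib.P202.Lech
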