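import Vale.Agent.Lib.P202.Lech.ConclFn
import Vale.Agent.Lib.P202.Lech.QuotStep

/-!
# The induction statement for quotients by finitely many elements of the maximal ideal
-/

namespace Vale.Agent.Lib.P202.Lech

open IsLocalRing Filter
open scoped ENNReal Nat Topology

universe u v

/-- The Hilbert-Samuel function of `(A / (f))` modulo the images of `fs`, computed over `A`. -/
lemma length_quotient_ofList {A : Type u} [CommRing A] [IsLocalRing A] (f : A)
    [IsLocalRing (A ⧸ Ideal.span {f})] (fs : List A) (N : ℕ) :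
    Module.length (A ⧸ Ideal.span {f}) ((A ⧸ Ideal.span {f}) ⧸
        (maximalIdeal (A ⧸ Ideal.span {f}) ^ N ⊔
          Ideal.ofList (fs.map (Ideal.Quotient.mk (Ideal.span {f}))))) =
      Module.length A (A ⧸ (maximalIdeal A ^ N ⊔ Ideal.ofList (f :: fs))) := by
  have e1 : maximalIdeal (A ⧸ Ideal.span {f}) ^ N ⊔
      Ideal.ofList (fs.map (Ideal.Quotient.mk (Ideal.span {f}))) =
      (maximalIdeal A ^ N ⊔ Ideal.ofList fs).map (Ideal.Quotient.mk (Ideal.span {f})) := by
    rw [Ideal.map_sup, Ideal.map_pow, ← maximalIdeal_quotient, Ideal.map_ofList]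
  have e2 : maximalIdeal A ^ N ⊔ Ideal.ofList fs ⊔ Ideal.span {f} =
      maximalIdeal A ^ N ⊔ Ideal.ofList (f :: fs) := by
    rw [Ideal.ofList_cons, sup_assoc, sup_comm (Ideal.ofList fs)]
  rw [e1, length_quotient_ideal, e2]

variable {R : Type v} [CommRing R] [IsLocalRing R]

/-- If `Concl R A d (δ + s) κ` holds and `fs` is a list of `s` elements of the maximal ideal of
`A`, then the statement of order `δ` holds for the Hilbert-Samuel function of `A / (fs)`
(written as a length over `A`). -/
theorem conclFn_quot_list (d κ : ℕ) (s : ℕ) :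
    ∀ (A : Type u) [CommRing A] [IsLocalRing A] [IsNoetherianRing A]
      [Infinite (ResidueField A)] (fs : List A), fs.length = s →
      (∀ f ∈ fs, f ∈ maximalIdeal A) → ∀ δ : ℕ, 1 ≤ δ → Concl R A d (δ + s) κ →
        ConclFn R (fun N => Module.length A
          (A ⧸ (maximalIdeal A ^ N ⊔ Ideal.ofList fs))) d δ κ := by
  induction s with
  | zero =>
    intro A _ _ _ _ fs hlen hfs δ hδ h
    have hnil : fs = [] := List.length_eq_zero_iff.mp hlen
    subst hnil
    have hfun : (fun N => Module.length A
        (A ⧸ (maximalIdeal A ^ N ⊔ Ideal.ofList ([] : List A)))) =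
        (fun N => Module.length A (A ⧸ maximalIdeal A ^ N)) := by
      funext N
      rw [Ideal.ofList_nil, sup_bot_eq]
    rw [hfun]
    exact h
  | succ s ih =>
    intro A _ _ _ _ fs hlen hfs δ hδ h
    obtain ⟨f, fs', rfl⟩ : ∃ f fs', fs = f :: fs' := by
      cases fs with
      | nil => simp at hlen
      | cons f fs' => exact ⟨f, fs', rfl⟩
    have hf : f ∈ maximalIdeal A := hfs f List.mem_cons_self
    have hloc : IsLocalRing (A ⧸ Ideal.span {f}) :=
      Vale.Agent.Lib.P202.isLocalRing_quotient_span hf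
    have hinf : Infinite (ResidueField (A ⧸ Ideal.span {f})) :=
      infinite_residueField_quotient _
    have h1 : Concl R (A ⧸ Ideal.span {f}) d (δ + s) κ :=
      concl_quot f hf d (δ + s) κ (by omega) h
    have hlen' : (fs'.map (Ideal.Quotient.mk (Ideal.span {f}))).length = s := by
      rw [List.length_map]
      simpa using hlen
    have hmem' : ∀ g ∈ fs'.map (Ideal.Quotient.mk (Ideal.span {f})),
        g ∈ maximalIdeal (A ⧸ Ideal.span {f}) := by
      intro g hg
      obtain ⟨a, ha, rfl⟩ := List.mem_map.mp hg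
      rw [maximalIdeal_quotient]
      exact Ideal.mem_map_of_mem _ (hfs a (List.mem_cons_of_mem f ha))
    have h2 := ih (A ⧸ Ideal.span {f}) (fs'.map (Ideal.Quotient.mk (Ideal.span {f})))
      hlen' hmem' δ hδ h1
    have hfun : (fun N => Module.length (A ⧸ Ideal.span {f}) ((A ⧸ Ideal.span {f}) ⧸
        (maximalIdeal (A ⧸ Ideal.span {f}) ^ N ⊔
          Ideal.ofList (fs'.map (Ideal.Quotient.mk (Ideal.span {f})))))) =
        (fun N => Module.length A (A ⧸ (maximalIdeal A ^ N ⊔ Ideal.ofList (f :: fs')))) := by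
      funext N
      exact length_quotient_ofList f fs' N
    rw [hfun] at h2
    exact h2

end Vale.Agent.Lib.P202.Lech
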