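import Vale.Agent.Lib.P202.Lech.CMDefs

/-!
# The zero divisors modulo an ideal lie in finitely many primes (associated primes)
-/

namespace Vale.Agent.Lib.P202.Lech

open IsLocalRing

universe u

variable {A : Type u} [CommRing A]

/-- In a Noetherian ring, for every ideal `𝔞` there are finitely many prime ideals `P`, each of
the form `(𝔞 : u)` with `u ∉ 𝔞`, such that every element outside all of them is a
nonzerodivisor modulo `𝔞`. -/
theorem exists_finset_regMod [IsNoetherianRing A] (𝔞 : Ideal A) :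
    ∃ t : Finset (Ideal A),
      (∀ P ∈ t, P.IsPrime ∧ ∃ u : A, u ∉ 𝔞 ∧ ∀ p ∈ P, p * u ∈ 𝔞) ∧
      ∀ y : A, (∀ P ∈ t, y ∉ P) → RegMod 𝔞 y := by
  classical
  have hfin : (associatedPrimes A (A ⧸ 𝔞)).Finite := associatedPrimes.finite A (A ⧸ 𝔞)
  refine ⟨hfin.toFinset, ?_, ?_⟩
  · intro P hP
    rw [Set.Finite.mem_toFinset, AssociatedPrimes.mem_iff, isAssociatedPrime_iff] at hP
    obtain ⟨hprime, x, hx⟩ := hP
    obtain ⟨u, rfl⟩ := Ideal.Quotient.mk_surjective x
    have hmem : ∀ p : A, p ∈ P ↔ p * u ∈ 𝔞 := by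
      intro p
      rw [hx, Submodule.mem_colon_singleton, Submodule.mem_bot, ← Ideal.Quotient.eq_zero_iff_mem,
        map_mul]
      rfl
    refine ⟨hprime, u, ?_, fun p hp => (hmem p).mp hp⟩
    intro hu
    apply hprime.ne_top
    rw [Ideal.eq_top_iff_one, hmem, one_mul]
    exact hu
  · intro y hy s hs
    by_contra hs'
    have hmem : y ∈ ⋃ p ∈ associatedPrimes A (A ⧸ 𝔞), (p : Set A) := by
      rw [biUnion_associatedPrimes_eq_zero_divisors]
      refine ⟨Ideal.Quotient.mk 𝔞 s, fun h => hs' (Ideal.Quotient.eq_zero_iff_mem.mp h), ?_⟩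
      have h1 : y • (Ideal.Quotient.mk 𝔞 s) = Ideal.Quotient.mk 𝔞 (y * s) := by
        rw [map_mul]
        rfl
      rw [h1]
      exact Ideal.Quotient.eq_zero_iff_mem.mpr hs
    rw [Set.mem_iUnion₂] at hmem
    obtain ⟨P, hP, hyP⟩ := hmem
    exact hy P (hfin.mem_toFinset.mpr hP) hyP

end Vale.Agent.Lib.P202.Lech
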