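import Vale.Agent.Lib.P202.Lech.SharpDefs
import Vale.Agent.Lib.P202.Lech.GoodOne

/-!
# Sharp bounds of order one
-/

namespace Vale.Agent.Lib.P202.Lech

open IsLocalRing

universe u

variable {A : Type u} [CommRing A] [IsLocalRing A] [IsNoetherianRing A]

/-- If the Hilbert-Samuel function of `A` is convex from `c` on, then it is sharply of
order 1. -/
theorem sharpGood_one (c : ℕ)
    (hconv : ∀ N, c ≤ N → 2 * Module.length A (A ⧸ maximalIdeal A ^ (N + 1)) ≤
      Module.length A (A ⧸ maximalIdeal A ^ (N + 2)) + Module.length A (A ⧸ maximalIdeal A ^ N)) :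
    SharpGood A 1 := by
  have hconv' : ∀ N, c ≤ N →
      2 * (Module.length A (A ⧸ maximalIdeal A ^ (N + 1))).toNat ≤
        (Module.length A (A ⧸ maximalIdeal A ^ (N + 2))).toNat +
          (Module.length A (A ⧸ maximalIdeal A ^ N)).toNat := by
    intro N hN
    have h := hconv N hN
    rw [goodOne_length_eq (A := A) (N + 1), goodOne_length_eq (A := A) (N + 2),
      goodOne_length_eq (A := A) N] at h
    exact_mod_cast h
  rcases nat_convex_dichotomy
    (fun N : ℕ => (Module.length A (A ⧸ maximalIdeal A ^ N)).toNat)
    goodOne_monotone c hconv' with ⟨e, b, K, hub, hlb⟩ | hbig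
  · left
    refine ⟨e, b, fun M => ?_, K, fun N => ?_⟩
    · rw [goodOne_length_eq (A := A) M]
      have h := hub M
      simp only [Nat.factorial_one, pow_one, Nat.sub_self, pow_zero, mul_one, Nat.cast_one,
        one_mul]
      exact_mod_cast h
    · rw [goodOne_length_eq (A := A) N]
      have h := hlb N
      simp only [Nat.factorial_one, pow_one, Nat.sub_self, pow_zero, mul_one, Nat.cast_one,
        one_mul]
      exact_mod_cast h
  · right
    intro E
    obtain ⟨K, hK⟩ := hbig E
    refine ⟨K, fun N => ?_⟩
    rw [goodOne_length_eq (A := A) N]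
    have h := hK N
    simp only [Nat.factorial_one, pow_one, Nat.sub_self, pow_zero, mul_one, Nat.cast_one,
      one_mul]
    exact_mod_cast h

end Vale.Agent.Lib.P202.Lech
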