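import Vale.Agent.Lib.P202.Lech.CMDefs

/-!
# Permuting two regular elements in a Noetherian local ring
-/

namespace Vale.Agent.Lib.P202.Lech

open IsLocalRing

universe u

variable {A : Type u} [CommRing A] [IsLocalRing A] [IsNoetherianRing A]

omit [IsLocalRing A] [IsNoetherianRing A] in
/-- `x` stays regular after adding `w`. -/
theorem swap_right (𝔠 : Ideal A) (x w : A) (hrx : RegMod 𝔠 x)
    (hrw : RegMod (𝔠 ⊔ Ideal.span {x}) w) : RegMod (𝔠 ⊔ Ideal.span {w}) x := by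
  intro s hs
  obtain ⟨q, hq, z, hz, hqz⟩ := Submodule.mem_sup.mp hs
  obtain ⟨t, rfl⟩ := Ideal.mem_span_singleton'.mp hz
  have h1 : w * t ∈ 𝔠 ⊔ Ideal.span {x} := by
    have e : w * t = -q + s * x := by linear_combination hqz
    rw [e]
    exact Submodule.mem_sup.mpr ⟨-q, 𝔠.neg_mem hq, s * x,
      Ideal.mem_span_singleton'.mpr ⟨s, rfl⟩, rfl⟩
  obtain ⟨q', hq', z', hz', hqz'⟩ := Submodule.mem_sup.mp (hrw t h1)
  obtain ⟨t', rfl⟩ := Ideal.mem_span_singleton'.mp hz'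
  have h2 : x * (s - w * t') ∈ 𝔠 := by
    have e : x * (s - w * t') = q + w * q' := by
      linear_combination -hqz - w * hqz'
    rw [e]
    exact 𝔠.add_mem hq (𝔠.mul_mem_left w hq')
  have h3 := hrx _ h2
  have e : s = (s - w * t') + t' * w := by ring
  rw [e]
  exact Submodule.mem_sup.mpr ⟨s - w * t', h3, t' * w,
    Ideal.mem_span_singleton'.mpr ⟨t', rfl⟩, rfl⟩

omit [IsLocalRing A] [IsNoetherianRing A] in
/-- an element killed by `w` modulo `𝔠` is divisible by every power of `x` modulo `𝔠` -/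
theorem swap_divisible (𝔠 : Ideal A) (x w : A) (hrx : RegMod 𝔠 x)
    (hrw : RegMod (𝔠 ⊔ Ideal.span {x}) w) (k : ℕ) :
    ∀ s : A, w * s ∈ 𝔠 → ∃ q ∈ 𝔠, ∃ s' : A, s = q + x ^ k * s' ∧ w * s' ∈ 𝔠 := by
  induction k with
  | zero =>
    intro s hs
    exact ⟨0, 𝔠.zero_mem, s, by ring, hs⟩
  | succ k ih =>
    intro s hs
    obtain ⟨q, hq, s', hs', hws'⟩ := ih s hs
    have h1 : w * s' ∈ 𝔠 ⊔ Ideal.span {x} := Ideal.mem_sup_left hws'
    obtain ⟨q1, hq1, z, hz, hqz⟩ := Submodule.mem_sup.mp (hrw s' h1)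
    obtain ⟨a, rfl⟩ := Ideal.mem_span_singleton'.mp hz
    have h2 : x * (w * a) ∈ 𝔠 := by
      have e : x * (w * a) = w * s' - w * q1 := by
        rw [← hqz]
        ring
      rw [e]
      exact 𝔠.sub_mem hws' (𝔠.mul_mem_left w hq1)
    refine ⟨q + x ^ k * q1, 𝔠.add_mem hq (𝔠.mul_mem_left _ hq1), a, ?_, hrx _ h2⟩
    rw [hs', ← hqz]
    ring

/-- If `x ∈ n` is regular modulo `𝔠` and `w` is regular modulo `𝔠 + (x)`, then `w` is regular
modulo `𝔠` and `x` is regular modulo `𝔠 + (w)`. -/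
theorem regMod_swap (𝔠 : Ideal A) (x w : A) (hx : x ∈ maximalIdeal A) (hrx : RegMod 𝔠 x)
    (hrw : RegMod (𝔠 ⊔ Ideal.span {x}) w) :
    RegMod 𝔠 w ∧ RegMod (𝔠 ⊔ Ideal.span {w}) x := by
  refine ⟨?_, swap_right 𝔠 x w hrx hrw⟩
  intro s hs
  have hI : Ideal.span {x} ≠ (⊤ : Ideal A) := by
    intro h
    have h1 : Ideal.span {x} ≤ maximalIdeal A := by
      rw [Ideal.span_le, Set.singleton_subset_iff]
      exact hx
    rw [h] at h1
    exact (maximalIdeal.isMaximal A).ne_top (top_le_iff.mp h1)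
  have hk := Ideal.iInf_pow_smul_eq_bot_of_isLocalRing (I := Ideal.span {x}) (M := A ⧸ 𝔠) hI
  have hmem : (Submodule.Quotient.mk s : A ⧸ 𝔠)
      ∈ (⨅ i : ℕ, Ideal.span {x} ^ i • ⊤ : Submodule A (A ⧸ 𝔠)) := by
    rw [Submodule.mem_iInf]
    intro k
    obtain ⟨q, hq, s', hs', -⟩ := swap_divisible 𝔠 x w hrx hrw k s hs
    have e : (Submodule.Quotient.mk s : A ⧸ 𝔠) = x ^ k • Submodule.Quotient.mk s' := by
      rw [← Submodule.Quotient.mk_smul, eq_comm, Submodule.Quotient.eq, hs', smul_eq_mul]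
      have e2 : x ^ k * s' - (q + x ^ k * s') = -q := by ring
      rw [e2]
      exact 𝔠.neg_mem hq
    rw [e]
    exact Submodule.smul_mem_smul (Ideal.pow_mem_pow (Ideal.mem_span_singleton_self x) k)
      Submodule.mem_top
  rw [hk, Submodule.mem_bot] at hmem
  exact (Submodule.Quotient.mk_eq_zero 𝔠).mp hmem

end Vale.Agent.Lib.P202.Lech
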